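import Mathlib

/-! A structured randomised word RAM, edit distance, alignments, and the positions at which an
alignment is rough at every polynomial scale. -/

set_option autoImplicit false

namespace Vale.Agent.P315

/-! ### The machine -/

/-- Unit-cost binary operations on words. -/
inductive Op
  | add | sub | mul | div | mod | eq | lt

/-- Value of an operation (`sub` is truncated at `0`; `eq` and `lt` give `0` or `1`). -/
def Op.eval : Op → ℕ → ℕ → ℕ
  | .add, a, b => a + b
  | .sub, a, b => a - b
  | .mul, a, b => a * b
  | .div, a, b => a / b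
  | .mod, a, b => a % b
  | .eq, a, b => if a = b then 1 else 0
  | .lt, a, b => if a < b then 1 else 0

/-- Expressions: a constant, the content of register `i`, the entry of array `j` at an address
given by an expression, an operation applied to two expressions. -/
inductive Expr
  | lit (c : ℕ)
  | reg (i : ℕ)
  | get (j : ℕ) (e : Expr)
  | op (o : Op) (e e' : Expr)

/-- Programs: assign to register `i`; assign to the entry of array `j` at address `e` the value
of `e'`; put a random word into register `i`; composition; conditional (`p` if the value of `e` is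
not `0`, else `q`); for loop (`p` is run for the values `0, 1, …` of register `i` below the value
that `e` has at the start of the loop). -/
inductive Prog
  | set (i : ℕ) (e : Expr)
  | put (j : ℕ) (e e' : Expr)
  | rand (i : ℕ)
  | seq (p q : Prog)
  | ite (e : Expr) (p q : Prog)
  | loop (i : ℕ) (e : Expr) (p : Prog)

/-- A state: the registers, the arrays, and the number of random words used so far. -/
structure State where
  reg : ℕ → ℕ
  arr : ℕ → ℕ → ℕ
  coins : ℕ

/-- Assignment to a register. -/
def State.setReg (s : State) (i v : ℕ) : State :=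
  { s with reg := Function.update s.reg i v }

/-- Assignment to an array entry. -/
def State.setArr (s : State) (j i v : ℕ) : State :=
  { s with arr := Function.update s.arr j (Function.update (s.arr j) i v) }

/-- `Eval N s e v t`: on a machine whose words hold the numbers below `N`, the evaluation of the
expression `e` in state `s` gives the value `v` in `t` steps. -/
inductive Eval (N : ℕ) (s : State) : Expr → ℕ → ℕ → Prop
  | lit (c : ℕ) (h : c < N) : Eval N s (.lit c) c 1
  | reg (i : ℕ) (h : s.reg i < N) : Eval N s (.reg i) (s.reg i) 1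
  | get (j : ℕ) (e : Expr) (a t : ℕ) (he : Eval N s e a t) (h : s.arr j a < N) :
      Eval N s (.get j e) (s.arr j a) (t + 1)
  | op (o : Op) (e e' : Expr) (a a' t t' : ℕ) (he : Eval N s e a t) (he' : Eval N s e' a' t')
      (h : o.eval a a' < N) : Eval N s (.op o e e') (o.eval a a') (t + t' + 1)

/-- `Exec N ρ p s t s'`: on a machine whose words hold the numbers below `N`, with the random words
`ρ 0, ρ 1, …`, the program `p` started in state `s` halts after `t` steps in state `s'`. -/
inductive Exec (N : ℕ) (ρ : ℕ → ℕ) : Prog → State → ℕ → State → Prop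
  | set (i : ℕ) (e : Expr) (s : State) (v t : ℕ) (he : Eval N s e v t) :
      Exec N ρ (.set i e) s (t + 1) (s.setReg i v)
  | put (j : ℕ) (e e' : Expr) (s : State) (a v t t' : ℕ) (he : Eval N s e a t)
      (he' : Eval N s e' v t') : Exec N ρ (.put j e e') s (t + t' + 1) (s.setArr j a v)
  | rand (i : ℕ) (s : State) (h : ρ s.coins < N) :
      Exec N ρ (.rand i) s 1 { s.setReg i (ρ s.coins) with coins := s.coins + 1 }
  | seq (p q : Prog) (s s' s'' : State) (t t' : ℕ) (h : Exec N ρ p s t s')
      (h' : Exec N ρ q s' t' s'') : Exec N ρ (.seq p q) s (t + t') s''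
  | iteTrue (e : Expr) (p q : Prog) (s s' : State) (v t t' : ℕ) (he : Eval N s e v t)
      (hv : v ≠ 0) (h : Exec N ρ p s t' s') : Exec N ρ (.ite e p q) s (t + 1 + t') s'
  | iteFalse (e : Expr) (p q : Prog) (s s' : State) (t t' : ℕ) (he : Eval N s e 0 t)
      (h : Exec N ρ q s t' s') : Exec N ρ (.ite e p q) s (t + 1 + t') s'
  | loop (i : ℕ) (e : Expr) (p : Prog) (n t : ℕ) (σ : ℕ → State) (τ : ℕ → ℕ)
      (he : Eval N (σ 0) e n t)
      (h : ∀ k, k < n → Exec N ρ p ((σ k).setReg i k) (τ k) (σ (k + 1))) :
      Exec N ρ (.loop i e p) (σ 0) (t + 1 + ∑ k ∈ Finset.range n, (τ k + 2)) (σ n)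

/-- The initial state: array `0` holds `x`, array `1` holds `y`, register `0` holds the length
of `x`, register `1` the length of `y`, all else is `0`. -/
def State.init (x y : List ℕ) : State where
  reg := fun i => if i = 0 then x.length else if i = 1 then y.length else 0
  arr := fun j i => if j = 0 then x.getD i 0 else if j = 1 then y.getD i 0 else 0
  coins := 0

/-- The infinite tape that begins with the `T` words of `ρ` and continues with `0`s. -/
def tape {T N : ℕ} (ρ : Fin T → Fin N) : ℕ → ℕ := fun i => if h : i < T then ρ ⟨i, h⟩ else 0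

/-! ### Edit distance -/

/-- One edit: a single symbol is inserted, deleted or substituted. -/
inductive EditStep : List ℕ → List ℕ → Prop
  | ins (u v : List ℕ) (a : ℕ) : EditStep (u ++ v) (u ++ a :: v)
  | del (u v : List ℕ) (a : ℕ) : EditStep (u ++ a :: v) (u ++ v)
  | sub (u v : List ℕ) (a b : ℕ) : EditStep (u ++ a :: v) (u ++ b :: v)

/-- `Edits k x y`: the string `x` can be transformed into `y` by `k` edits. -/
inductive Edits : ℕ → List ℕ → List ℕ → Prop
  | refl (x : List ℕ) : Edits 0 x x
  | step {k : ℕ} {x y z : List ℕ} (h : Edits k x y) (h' : EditStep y z) : Edits (k + 1) x z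

/-- Edit distance. -/
noncomputable def ED (x y : List ℕ) : ℕ := sInf {k : ℕ | Edits k x y}

/-! ### Alignments -/

/-- The factor `y[p], …, y[q-1]` of `y`. -/
def factor (y : List ℕ) (p q : ℕ) : List ℕ := (y.drop p).take (q - p)

/-- An alignment of `x` and `y`: symbol `i` of `x` is aligned to the factor of `y` from `f i` up
to (excluding) `f (i+1)`; the first `f 0` symbols of `y` are inserted before `x`. -/
def IsAlignment (x y : List ℕ) (f : ℕ → ℕ) : Prop := Monotone f ∧ f x.length = y.length

/-- Cost of an alignment. -/
noncomputable def alignCost (x y : List ℕ) (f : ℕ → ℕ) : ℕ :=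
  f 0 + ∑ i ∈ Finset.range x.length, ED [x.getD i 0] (factor y (f i) (f (i + 1)))

/-- On the interval from `p` to `q` (included), `f` is within distance `r` of an affine
function. -/
def Straight (f : ℕ → ℕ) (r p q : ℕ) : Prop :=
  ∃ α β : ℝ, ∀ i : ℕ, p ≤ i → i ≤ q → |(f i : ℝ) - (α + β * i)| ≤ r

/-- Position `i` is calm: it lies in some interval `[p, q)` of `[0, l)` on which `f` is within
distance `r` of an affine function, where `r ≥ 1` and the interval is at least `S` times as
long as `r`. -/
def Calm (f : ℕ → ℕ) (l : ℕ) (S : ℝ) (i : ℕ) : Prop :=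
  ∃ p q r : ℕ, p ≤ i ∧ i < q ∧ q ≤ l ∧ 1 ≤ r ∧ S * r ≤ ((q - p : ℕ) : ℝ) ∧ Straight f r p q

/-- The number of positions below `l` that are not calm. -/
noncomputable def rough (f : ℕ → ℕ) (l : ℕ) (S : ℝ) : ℕ :=
  Set.ncard {i : ℕ | i < l ∧ ¬ Calm f l S i}

/-- The guarantee for the output `D` on the input `x, y`, `n = max |x| |y|`: it is not smaller
than the edit distance, and at most `(1+ε)` times the cost of any alignment plus twice the number
of its positions that are not calm for the scale gap `n^γ`. -/
def Guarantee (ε γ : ℝ) (x y : List ℕ) (n D : ℕ) : Prop :=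
  ED x y ≤ D ∧ ∀ f : ℕ → ℕ, IsAlignment x y f →
    (D : ℝ) ≤ (1 + ε) * alignCost x y f + 2 * rough f x.length ((n : ℝ) ^ γ)

end Vale.Agent.P315
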