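import Vale.Agent.P315.Main

/-! Soundness of the coarse table and its basic moves. -/

set_option autoImplicit false

namespace Vale.Agent.P315

/-- Exact cost of a line. -/
def Par.hl (P : Par) (k u a h : ℕ) : ℕ :=
  ∑ q ∈ Finset.range P.Q, P.tv k u q (a + h * q / P.Q) (h * (q + 1) / P.Q - h * q / P.Q)

/-- All sampled costs are accurate. -/
def Acc (P : Par) : Prop :=
  ∀ k < P.K, P.Valid k → ∀ u < P.B k, ∀ a ≤ P.G k, ∀ h ≤ P.hm, a + h ≤ P.G k →
    P.hl k u a h ≤ P.lv k u a h + P.Q * P.r k ∧ P.lv k u a h ≤ P.hl k u a h + P.Q * P.r k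

theorem Par.pre_le_hl (P : Par) (hQ : 0 < P.Q) (k u a h : ℕ) :
    pre P.X P.Y ((u + 1) * P.W k) ((a + h) * P.r k) ≤
      pre P.X P.Y (u * P.W k) (a * P.r k) + P.hl k u a h := by
  have key : ∀ q, pre P.X P.Y (u * P.W k + q * P.l k) ((a + h * q / P.Q) * P.r k) ≤
      pre P.X P.Y (u * P.W k) (a * P.r k) + ∑ q' ∈ Finset.range q,
        P.tv k u q' (a + h * q' / P.Q) (h * (q' + 1) / P.Q - h * q' / P.Q) := by
    intro q
    induction q with
    | zero => simp
    | succ q ih =>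
      have h1 : h * q / P.Q ≤ h * (q + 1) / P.Q :=
        Nat.div_le_div_right (Nat.mul_le_mul_left _ (by omega))
      have h2 := pre_add P.X P.Y (u * P.W k + q * P.l k) ((a + h * q / P.Q) * P.r k) (P.l k)
        ((h * (q + 1) / P.Q - h * q / P.Q) * P.r k)
      rw [← Nat.add_mul, show a + h * q / P.Q + (h * (q + 1) / P.Q - h * q / P.Q) =
        a + h * (q + 1) / P.Q by omega] at h2
      rw [Finset.sum_range_succ, Nat.succ_mul, ← Nat.add_assoc]
      unfold Par.tv at ih ⊢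
      omega
  have := key P.Q
  rw [Nat.mul_div_cancel _ hQ] at this
  rw [show (u + 1) * P.W k = u * P.W k + P.Q * P.l k by unfold Par.W; ring]
  exact this

theorem Par.lb_ge (P : Par) (C : ℕ → ℕ → ℕ) (k u a acc h L c : ℕ) (h0 : L ≤ acc + c)
    (h1 : ∀ h' < h, L ≤ C (u + 1 - P.M ^ k) (a - h' * P.M ^ k) +
      P.lv k ((u + 1) / P.M ^ k - 1) (a / P.M ^ k - h') h' + c) :
    L ≤ P.lb C k u a acc h + c := by
  induction h with
  | zero => exact h0
  | succ h ih =>
    have i1 := ih (fun h' hh' => h1 h' (by omega))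
    have i2 := h1 h (by omega)
    unfold Par.lb
    omega

theorem Par.kb_ge (P : Par) (C : ℕ → ℕ → ℕ) (u a L c K : ℕ) (h0 : L ≤ C u a + P.W 0 + c)
    (h1 : ∀ k < K, P.Valid k → P.M ^ k ∣ u + 1 → P.M ^ k ∣ a → ∀ h ≤ a / P.M ^ k, h ≤ P.hm →
      L ≤ C (u + 1 - P.M ^ k) (a - h * P.M ^ k) +
      P.lv k ((u + 1) / P.M ^ k - 1) (a / P.M ^ k - h) h + c) :
    L ≤ P.kb C u a K + c := by
  induction K with
  | zero => exact h0
  | succ K ih =>
    have i1 := ih (fun k hk => h1 k (by omega))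
    unfold Par.kb
    split_ifs with hc
    · exact P.lb_ge C K u a _ _ L c i1 (fun h hh => h1 K (by omega) hc.1 hc.2.1 hc.2.2 h
        (by omega) (by omega))
    · exact i1

/-- Indices of a line in units of the finest scale. -/
theorem Par.split_index (P : Par) (hM : 2 ≤ P.M) {k u a : ℕ} (hd1 : P.M ^ k ∣ u + 1)
    (hd2 : P.M ^ k ∣ a) : ∃ v b, u + 1 = (v + 1) * P.M ^ k ∧ a = b * P.M ^ k ∧
      (u + 1) / P.M ^ k - 1 = v ∧ a / P.M ^ k = b ∧ u + 1 - P.M ^ k = v * P.M ^ k ∧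
      ∀ h ≤ b, a - h * P.M ^ k = (b - h) * P.M ^ k := by
  obtain ⟨v, hv⟩ := hd1
  obtain ⟨b, hb⟩ := hd2
  have hMk : 0 < P.M ^ k := Nat.pow_pos (by omega)
  have hv0 : v ≠ 0 := by rintro rfl; simp at hv
  obtain ⟨v', rfl⟩ : ∃ v', v = v' + 1 := ⟨v - 1, by omega⟩
  refine ⟨v', b, by rw [hv]; ring, by rw [hb]; ring, ?_, ?_, ?_, ?_⟩
  · rw [hv, Nat.mul_div_cancel_left _ hMk]; rfl
  · rw [hb, Nat.mul_div_cancel_left _ hMk]
  · rw [hv, Nat.mul_succ, Nat.add_sub_cancel, Nat.mul_comm]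
  · intro h hh
    rw [hb, Nat.sub_mul, Nat.mul_comm]

theorem Par.sound_kb (P : Par) (hM : 2 ≤ P.M) (hA : Acc P) (u a : ℕ) (hu : u + 1 ≤ P.B 0)
    (ha : a ≤ P.G 0) (ih : ∀ u' ≤ u, ∀ a' ≤ P.G 0,
      pre P.X P.Y (u' * P.W 0) (a' * P.r 0) ≤ P.C u' a' + u' * (P.Q * P.r 0)) :
    pre P.X P.Y ((u + 1) * P.W 0) (a * P.r 0) ≤
      P.kb (P.tab u) u a P.K + (u + 1) * (P.Q * P.r 0) := by
  have hQ : 0 < P.Q := Nat.pow_pos (by omega)
  apply P.kb_ge
  · rw [P.tab_of_le le_rfl]
    have h1 := ih u le_rfl a ha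
    have h2 := pre_add_left P.X P.Y (u * P.W 0) (a * P.r 0) (P.W 0)
    rw [show u * P.W 0 + P.W 0 = (u + 1) * P.W 0 by ring] at h2
    have h3 : (u + 1) * (P.Q * P.r 0) = u * (P.Q * P.r 0) + P.Q * P.r 0 := by ring
    omega
  · intro k hk hv hd1 hd2 h hh hhm
    have hMk : 0 < P.M ^ k := Nat.pow_pos (by omega)
    obtain ⟨v, b, e1, e2, e3, e4, e5, e6⟩ := P.split_index hM hd1 hd2
    rw [e4] at hh
    rw [e3, e4, e5, e6 h hh]
    have hvB : v + 1 ≤ P.B k := by
      rw [P.B_eq, Nat.le_div_iff_mul_le hMk]; omega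
    have hbG : b ≤ P.G k := by
      rw [P.G_eq, Nat.le_div_iff_mul_le hMk]; omega
    have hle : (v * P.M ^ k) ≤ u := by
      have : (v + 1) * P.M ^ k = v * P.M ^ k + P.M ^ k := by ring
      omega
    rw [P.tab_of_le hle]
    have i1 := ih _ hle ((b - h) * P.M ^ k) ((Nat.mul_le_mul_right _ (Nat.sub_le _ _)).trans
      (by omega))
    have i2 := P.pre_le_hl hQ k v (b - h) h
    have i3 := (hA k hk hv v (by omega) (b - h) (by omega) h hhm (by omega)).1
    rw [show b - h + h = b by omega] at i2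
    rw [show (u + 1) * P.W 0 = (v + 1) * P.W k by rw [e1, P.W_eq k]; ring,
      show a * P.r 0 = b * P.r k by rw [e2, P.r_eq k]; ring]
    rw [show v * P.M ^ k * P.W 0 = v * P.W k by rw [P.W_eq k]; ring,
      show (b - h) * P.M ^ k * P.r 0 = (b - h) * P.r k by rw [P.r_eq k]; ring] at i1
    have h3 : (u + 1) * (P.Q * P.r 0) = v * P.M ^ k * (P.Q * P.r 0) + P.Q * P.r k := by
      rw [e1, P.r_eq k]; ring
    omega

/-- Soundness: the coarse table is at least the distance, up to the sampling error. -/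
theorem Par.sound (P : Par) (hM : 2 ≤ P.M) (hA : Acc P) : ∀ u ≤ P.B 0, ∀ a ≤ P.G 0,
    pre P.X P.Y (u * P.W 0) (a * P.r 0) ≤ P.C u a + u * (P.Q * P.r 0) := by
  intro u
  induction u using Nat.strong_induction_on with
  | _ u ih =>
    intro hu
    cases u with
    | zero =>
      intro a _
      rw [P.C_zero, Nat.zero_mul, pre_zero_left]
      omega
    | succ u =>
      intro a
      have hk := fun a ha => P.sound_kb hM hA u a hu ha
        (fun u' hu' a' ha' => ih u' (by omega) (by omega) a' ha')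
      induction a with
      | zero =>
        intro ha
        rw [P.C_succ]
        exact hk 0 ha
      | succ a iha =>
        intro ha
        have h1 := hk (a + 1) ha
        have h2 := iha (by omega)
        have h3 := pre_add_right P.X P.Y ((u + 1) * P.W 0) (a * P.r 0) (P.r 0)
        rw [show a * P.r 0 + P.r 0 = (a + 1) * P.r 0 by ring] at h3
        rw [P.C_succ] at h2 ⊢
        unfold Par.newrow
        omega

/-- The output is at least the distance. -/
theorem Par.sound_out (P : Par) (hM : 2 ≤ P.M) (hA : Acc P) :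
    pre P.X P.Y P.lx P.ly ≤ P.out := by
  have h1 := P.sound hM hA (P.B 0) le_rfl (P.G 0) le_rfl
  have h2 : P.G 0 * P.r 0 ≤ P.ly := Nat.div_mul_le_self _ _
  have h3 : P.B 0 * P.W 0 ≤ P.lx := Nat.div_mul_le_self _ _
  have h4 := pre_add_left P.X P.Y (P.B 0 * P.W 0) (P.G 0 * P.r 0) (P.lx - P.B 0 * P.W 0)
  have h5 := pre_add_right P.X P.Y (P.B 0 * P.W 0 + (P.lx - P.B 0 * P.W 0)) (P.G 0 * P.r 0)
    (P.ly - P.G 0 * P.r 0)
  rw [show P.B 0 * P.W 0 + (P.lx - P.B 0 * P.W 0) = P.lx by omega] at h4 h5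
  rw [show P.G 0 * P.r 0 + (P.ly - P.G 0 * P.r 0) = P.ly by omega] at h5
  unfold Par.out
  omega

/-! ### Moves -/

theorem Par.C_right (P : Par) (u a j : ℕ) : P.C u (a + j) ≤ P.C u a + j * P.r 0 := by
  induction j with
  | zero => simp
  | succ j ih =>
    have h1 : P.C u (a + j + 1) ≤ P.C u (a + j) + P.r 0 := by
      cases u with
      | zero => rw [P.C_zero, P.C_zero]; apply le_of_eq; ring
      | succ u => rw [P.C_succ, P.C_succ]; exact min_le_right _ _
    have h2 : (j + 1) * P.r 0 = j * P.r 0 + P.r 0 := by ring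
    rw [← Nat.add_assoc]
    omega

theorem Par.C_right' (P : Par) (u : ℕ) {a b : ℕ} (h : a ≤ b) :
    P.C u b ≤ P.C u a + (b - a) * P.r 0 := by
  have := P.C_right u a (b - a)
  rwa [show a + (b - a) = b by omega] at this

theorem Par.C_del (P : Par) (u a j : ℕ) : P.C (u + j) a ≤ P.C u a + j * P.W 0 := by
  induction j with
  | zero => simp
  | succ j ih =>
    have h1 : P.C (u + j + 1) a ≤ P.C (u + j) a + P.W 0 := by
      rw [P.C_succ]
      have := P.newrow_le (P.tab (u + j)) (u + j) a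
      rwa [P.tab_of_le le_rfl] at this
    have h2 : (j + 1) * P.W 0 = j * P.W 0 + P.W 0 := by ring
    rw [← Nat.add_assoc]
    omega

theorem Par.lb_le_cand (P : Par) (C : ℕ → ℕ → ℕ) (k u a acc : ℕ) {h n : ℕ} (hn : h < n) :
    P.lb C k u a acc n ≤ C (u + 1 - P.M ^ k) (a - h * P.M ^ k) +
      P.lv k ((u + 1) / P.M ^ k - 1) (a / P.M ^ k - h) h := by
  induction n with
  | zero => omega
  | succ n ih =>
    unfold Par.lb
    rcases Nat.lt_or_ge h n with h1 | h1
    · exact (min_le_left _ _).trans (ih h1)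
    · have : h = n := by omega
      subst this
      exact min_le_right _ _

theorem Par.kb_mono (P : Par) (C : ℕ → ℕ → ℕ) (u a : ℕ) {k K : ℕ} (h : k ≤ K) :
    P.kb C u a K ≤ P.kb C u a k := by
  induction K with
  | zero => have : k = 0 := by omega
            subst this; exact le_rfl
  | succ K ih =>
    rcases Nat.lt_or_ge k (K + 1) with h1 | h1
    · refine le_trans ?_ (ih (by omega))
      conv_lhs => unfold Par.kb
      split_ifs
      · exact P.lb_le _ _ _ _ _ _
      · exact le_rfl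
    · have : k = K + 1 := by omega
      subst this; exact le_rfl

/-- The move along a line at scale `k`. -/
theorem Par.C_line (P : Par) (hM : 2 ≤ P.M) {k v a h : ℕ} (hk : k < P.K) (hv : P.Valid k)
    (hh : h ≤ P.hm) :
    P.C ((v + 1) * P.M ^ k) ((a + h) * P.M ^ k) ≤
      P.C (v * P.M ^ k) (a * P.M ^ k) + P.lv k v a h := by
  have hMk : 0 < P.M ^ k := Nat.pow_pos (by omega)
  obtain ⟨u, hu⟩ : ∃ u, u + 1 = (v + 1) * P.M ^ k :=
    ⟨(v + 1) * P.M ^ k - 1, by have : 0 < (v + 1) * P.M ^ k := by positivity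
                               omega⟩
  have hd1 : P.M ^ k ∣ u + 1 := ⟨v + 1, by rw [hu]; ring⟩
  have hd2 : P.M ^ k ∣ (a + h) * P.M ^ k := ⟨a + h, by ring⟩
  obtain ⟨v', b, e1, e2, e3, e4, e5, e6⟩ := P.split_index hM hd1 hd2
  have hv' : v' = v := by
    have : (v' + 1) * P.M ^ k = (v + 1) * P.M ^ k := by rw [← e1, hu]
    have := Nat.eq_of_mul_eq_mul_right hMk this
    omega
  have hb : b = a + h := (Nat.eq_of_mul_eq_mul_right hMk e2).symm
  subst hv' hb
  rw [← hu, P.C_succ]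
  have h1 : P.newrow (P.tab u) u ((a + h) * P.M ^ k) ≤
      P.kb (P.tab u) u ((a + h) * P.M ^ k) P.K := by
    cases (a + h) * P.M ^ k with
    | zero => exact le_rfl
    | succ c => exact min_le_left _ _
  refine h1.trans ((P.kb_mono (P.tab u) u _ (show k + 1 ≤ P.K from hk)).trans ?_)
  unfold Par.kb
  rw [if_pos ⟨hv, hd1, hd2⟩]
  have hlt : h < min ((a + h) * P.M ^ k / P.M ^ k) P.hm + 1 := by
    rw [e4]; omega
  refine (P.lb_le_cand _ k u _ _ hlt).trans ?_
  rw [e3, e4, e5, e6 h (by omega), P.tab_of_le (by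
    have : (v' + 1) * P.M ^ k = v' * P.M ^ k + P.M ^ k := by ring
    omega), show a + h - h = a by omega]

end Vale.Agent.P315
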