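import Vale.Agent.P315.Coarse

/-! Completeness of the coarse table: the cost of good and bad blocks. -/

set_option autoImplicit false

namespace Vale.Agent.P315

/-- A line close to a straight part of an alignment stays close to it. -/
theorem line_close {f : ℕ → ℕ} {p l Q r A h : ℕ} (hQ : 0 < Q)
    (hst : Straight f r p (p + Q * l)) (h1 : A * r ≤ f p + r) (h2 : f p ≤ A * r + r)
    (h3 : (A + h) * r ≤ f (p + Q * l) + r) (h4 : f (p + Q * l) ≤ (A + h) * r + r)
    {q : ℕ} (hq : q ≤ Q) :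
    (A + h * q / Q) * r ≤ f (p + q * l) + 4 * r ∧ f (p + q * l) ≤ (A + h * q / Q) * r + 4 * r := by
  obtain ⟨α, β, hs⟩ := hst
  have s0 := abs_le.mp (hs p le_rfl (by omega))
  have s1 := abs_le.mp (hs (p + Q * l) (by omega) le_rfl)
  have sq := abs_le.mp (hs (p + q * l) (by omega)
    (Nat.add_le_add_left (Nat.mul_le_mul_right _ hq) _))
  have e1 : Q * (h * q / Q) ≤ h * q := Nat.mul_div_le _ _
  have e2 : h * q < Q * (h * q / Q) + Q := by
    have := Nat.lt_mul_div_succ (h * q) hQ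
    rw [Nat.mul_add, Nat.mul_one] at this
    exact this
  generalize h * q / Q = fl at e1 e2 ⊢
  have hQ' : (0 : ℝ) < Q := by exact_mod_cast hQ
  have hq' : (q : ℝ) ≤ Q := by exact_mod_cast hq
  have hq0 : (0 : ℝ) ≤ q := by positivity
  have hr0 : (0 : ℝ) ≤ r := by positivity
  have E1 : (Q : ℝ) * fl ≤ h * q := by exact_mod_cast e1
  have E2 : (h : ℝ) * q ≤ Q * fl + Q := by exact_mod_cast e2.le
  have H1 : (A : ℝ) * r ≤ f p + r := by exact_mod_cast h1
  have H2 : (f p : ℝ) ≤ A * r + r := by exact_mod_cast h2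
  have H3 : ((A : ℝ) + h) * r ≤ f (p + Q * l) + r := by exact_mod_cast h3
  have H4 : (f (p + Q * l) : ℝ) ≤ (A + h) * r + r := by exact_mod_cast h4
  push_cast at s1 sq
  have F1 : (Q : ℝ) * fl * r ≤ h * q * r := mul_le_mul_of_nonneg_right E1 hr0
  have F2 : (h : ℝ) * q * r ≤ (Q * fl + Q) * r := mul_le_mul_of_nonneg_right E2 hr0
  have G1 : ((Q : ℝ) - q) * (A * r) ≤ (Q - q) * (α + β * p + 2 * r) :=
    mul_le_mul_of_nonneg_left (by linarith [s0.2]) (by linarith)
  have G2 : ((Q : ℝ) - q) * (α + β * p - 2 * r) ≤ (Q - q) * (A * r) :=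
    mul_le_mul_of_nonneg_left (by linarith [s0.1]) (by linarith)
  have G3 : (q : ℝ) * ((A + h) * r) ≤ q * (α + β * (p + Q * l) + 2 * r) :=
    mul_le_mul_of_nonneg_left (by linarith [s1.2]) hq0
  have G4 : (q : ℝ) * (α + β * (p + Q * l) - 2 * r) ≤ q * ((A + h) * r) :=
    mul_le_mul_of_nonneg_left (by linarith [s1.1]) hq0
  constructor
  · have key : (Q : ℝ) * (((A : ℝ) + fl) * r) ≤ Q * (f (p + q * l) + 4 * r) := by
      have : (Q : ℝ) * (α + β * (p + q * l) - f (p + q * l)) ≤ Q * r :=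
        mul_le_mul_of_nonneg_left (by linarith [sq.1]) hQ'.le
      nlinarith
    have := le_of_mul_le_mul_left key hQ'
    exact_mod_cast this
  · have key : (Q : ℝ) * (f (p + q * l)) ≤ Q * (((A : ℝ) + fl) * r + 4 * r) := by
      have : (Q : ℝ) * (f (p + q * l) - (α + β * (p + q * l))) ≤ Q * r :=
        mul_le_mul_of_nonneg_left (by linarith [sq.2]) hQ'.le
      nlinarith
    have := le_of_mul_le_mul_left key hQ'
    exact_mod_cast this

theorem sum_dist_le (X Y : ℕ → ℕ) {f : ℕ → ℕ} (hf : Monotone f) (p l : ℕ) (q : ℕ) :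
    ∑ i ∈ Finset.range q, dist X Y (p + i * l) l (f (p + i * l))
      (f (p + (i + 1) * l) - f (p + i * l)) + prefixCost X Y f p ≤
      prefixCost X Y f (p + q * l) := by
  induction q with
  | zero => simp
  | succ q ih =>
    rw [Finset.sum_range_succ]
    have h1 := dist_le_prefixCost X Y hf (p + q * l) l
    rw [show p + q * l + l = p + (q + 1) * l by ring] at h1
    omega

/-- The exact cost of a line close to a straight part of an alignment. -/
theorem Par.hl_le (P : Par) {f : ℕ → ℕ} (hf : Monotone f) (hQ : 0 < P.Q) {k v A h : ℕ}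
    (hst : Straight f (P.r k) (v * P.W k) ((v + 1) * P.W k))
    (h1 : A * P.r k ≤ f (v * P.W k) + P.r k) (h2 : f (v * P.W k) ≤ A * P.r k + P.r k)
    (h3 : (A + h) * P.r k ≤ f ((v + 1) * P.W k) + P.r k)
    (h4 : f ((v + 1) * P.W k) ≤ (A + h) * P.r k + P.r k) :
    P.hl k v A h + prefixCost P.X P.Y f (v * P.W k) ≤
      prefixCost P.X P.Y f ((v + 1) * P.W k) + 8 * (P.Q * P.r k) := by
  have hW : (v + 1) * P.W k = v * P.W k + P.Q * P.l k := by unfold Par.W; ring
  rw [hW] at hst h3 h4 ⊢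
  have hc := fun q (hq : q ≤ P.Q) => line_close hQ hst h1 h2 h3 h4 (q := q) hq
  have hs := sum_dist_le P.X P.Y hf (v * P.W k) (P.l k) P.Q
  have ht : P.hl k v A h ≤ ∑ q ∈ Finset.range P.Q,
      (dist P.X P.Y (v * P.W k + q * P.l k) (P.l k) (f (v * P.W k + q * P.l k))
        (f (v * P.W k + (q + 1) * P.l k) - f (v * P.W k + q * P.l k)) + 8 * P.r k) := by
    unfold Par.hl
    apply Finset.sum_le_sum
    intro q hq
    have hq' : q < P.Q := Finset.mem_range.mp hq
    have c1 := hc q hq'.le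
    have c2 := hc (q + 1) hq'
    have hd : h * q / P.Q ≤ h * (q + 1) / P.Q :=
      Nat.div_le_div_right (Nat.mul_le_mul_left _ (by omega))
    have hm : (A + h * q / P.Q) * P.r k ≤ (A + h * (q + 1) / P.Q) * P.r k :=
      Nat.mul_le_mul_right _ (by omega)
    have hw := dist_window P.X P.Y (v * P.W k + q * P.l k) (P.l k) (D := 4 * P.r k) hm
      (hf (show v * P.W k + q * P.l k ≤ v * P.W k + (q + 1) * P.l k from by
        rw [Nat.succ_mul]; omega)) c1.1 c1.2 c2.1 c2.2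
    rw [← Nat.sub_mul, show A + h * (q + 1) / P.Q - (A + h * q / P.Q) =
      h * (q + 1) / P.Q - h * q / P.Q by omega] at hw
    unfold Par.tv
    omega
  rw [Finset.sum_add_distrib, Finset.sum_const, Finset.card_range, smul_eq_mul] at ht
  have : P.Q * (8 * P.r k) = 8 * (P.Q * P.r k) := by ring
  omega

/-- Deletion of `M^k` fine blocks, then right moves along the alignment. -/
theorem Par.step_del (P : Par) (hM : 2 ≤ P.M) {f : ℕ → ℕ} (hf : Monotone f) (k v : ℕ) :
    P.C ((v + 1) * P.M ^ k) (f ((v + 1) * P.W k) / P.r 0) + prefixCost P.X P.Y f (v * P.W k) ≤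
      P.C (v * P.M ^ k) (f (v * P.W k) / P.r 0) + prefixCost P.X P.Y f ((v + 1) * P.W k) +
        2 * P.W k + P.r 0 := by
  have hr : 0 < P.r 0 := Nat.pow_pos (by omega)
  have hmono : f (v * P.W k) ≤ f ((v + 1) * P.W k) := hf (Nat.mul_le_mul_right _ (by omega))
  have h1 := P.C_right' ((v + 1) * P.M ^ k) (Nat.div_le_div_right (c := P.r 0) hmono)
  have h2 := P.C_del (v * P.M ^ k) (f (v * P.W k) / P.r 0) (P.M ^ k)
  rw [show v * P.M ^ k + P.M ^ k = (v + 1) * P.M ^ k by ring] at h2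
  have h3 := dist_le_prefixCost P.X P.Y hf (v * P.W k) (P.W k)
  rw [show v * P.W k + P.W k = (v + 1) * P.W k by ring] at h3
  have h4 := le_dist P.X P.Y (v * P.W k) (P.W k) (f (v * P.W k))
    (f ((v + 1) * P.W k) - f (v * P.W k))
  have h5 : (f ((v + 1) * P.W k) / P.r 0 - f (v * P.W k) / P.r 0) * P.r 0 ≤
      f ((v + 1) * P.W k) - f (v * P.W k) + P.r 0 := by
    rw [Nat.sub_mul]
    have i1 := Nat.div_mul_le_self (f ((v + 1) * P.W k)) (P.r 0)
    have i2 := Nat.lt_div_mul_add (a := f (v * P.W k)) hr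
    omega
  have h6 : P.M ^ k * P.W 0 = P.W k := by rw [P.W_eq k]; ring
  omega

/-- A good block. -/
def Good (P : Par) (f : ℕ → ℕ) (k v : ℕ) : Prop :=
  k < P.K ∧ P.Valid k ∧ v < P.B k ∧ Straight f (P.r k) (v * P.W k) ((v + 1) * P.W k)

theorem Par.step_good (P : Par) (hM : 2 ≤ P.M) (hA : Acc P) {f : ℕ → ℕ} (hf : Monotone f)
    (hend : f P.lx = P.ly) {k v : ℕ} (hg : Good P f k v) :
    (P.C ((v + 1) * P.M ^ k) (f ((v + 1) * P.W k) / P.r 0) : ℝ) ≤
      P.C (v * P.M ^ k) (f (v * P.W k) / P.r 0) + (1 + 4 / (P.M : ℝ)) *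
        ((prefixCost P.X P.Y f ((v + 1) * P.W k) : ℝ) - prefixCost P.X P.Y f (v * P.W k)) +
        11 * (P.Q * P.r k) := by
  obtain ⟨hk, hv, hvB, hst⟩ := hg
  have hr : 0 < P.r 0 := Nat.pow_pos (by omega)
  have hrk : 0 < P.r k := Nat.pow_pos (by omega)
  have hMk : 0 < P.M ^ k := Nat.pow_pos (by omega)
  have hQ : 0 < P.Q := Nat.pow_pos (by omega)
  have hrr := P.r_mono hM k
  have hmono : f (v * P.W k) ≤ f ((v + 1) * P.W k) := hf (Nat.mul_le_mul_right _ (by omega))
  have hF := prefixCost_mono P.X P.Y f (show v * P.W k ≤ (v + 1) * P.W k from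
    Nat.mul_le_mul_right _ (by omega))
  have hM' : (2 : ℝ) ≤ P.M := by exact_mod_cast hM
  have hF' : (0 : ℝ) ≤ (prefixCost P.X P.Y f ((v + 1) * P.W k) : ℝ) -
      prefixCost P.X P.Y f (v * P.W k) := by
    have : (prefixCost P.X P.Y f (v * P.W k) : ℝ) ≤ prefixCost P.X P.Y f ((v + 1) * P.W k) := by
      exact_mod_cast hF
    linarith
  have hMF : (0 : ℝ) ≤ 4 / (P.M : ℝ) * ((prefixCost P.X P.Y f ((v + 1) * P.W k) : ℝ) -
      prefixCost P.X P.Y f (v * P.W k)) := by positivity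
  have hQr : (1 : ℝ) * P.r k ≤ P.Q * P.r k := by
    have : (1 : ℝ) ≤ P.Q := by exact_mod_cast hQ
    exact mul_le_mul_of_nonneg_right this (by positivity)
  have hrr' : (P.r 0 : ℝ) ≤ P.r k := by exact_mod_cast hrr
  have hdel := P.step_del hM hf k v
  have hdel' : (P.C ((v + 1) * P.M ^ k) (f ((v + 1) * P.W k) / P.r 0) : ℝ) +
      prefixCost P.X P.Y f (v * P.W k) ≤ P.C (v * P.M ^ k) (f (v * P.W k) / P.r 0) +
      prefixCost P.X P.Y f ((v + 1) * P.W k) + 2 * P.W k + P.r 0 := by exact_mod_cast hdel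
  -- the grid points
  set a0 := f (v * P.W k) / P.r 0 with ha0
  set a1 := f ((v + 1) * P.W k) / P.r 0 with ha1
  set A := (a0 + (P.M ^ k - 1)) / P.M ^ k with hAdef
  set A' := a1 / P.M ^ k with hA'def
  have i1 : a0 * P.r 0 ≤ f (v * P.W k) := Nat.div_mul_le_self _ _
  have i2 : f (v * P.W k) < a0 * P.r 0 + P.r 0 := Nat.lt_div_mul_add hr
  have i3 : a1 * P.r 0 ≤ f ((v + 1) * P.W k) := Nat.div_mul_le_self _ _
  have i4 : f ((v + 1) * P.W k) < a1 * P.r 0 + P.r 0 := Nat.lt_div_mul_add hr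
  have j1 : A * P.M ^ k ≤ a0 + (P.M ^ k - 1) := Nat.div_mul_le_self _ _
  have j2 : a0 + (P.M ^ k - 1) < A * P.M ^ k + P.M ^ k := Nat.lt_div_mul_add hMk
  have j3 : A' * P.M ^ k ≤ a1 := Nat.div_mul_le_self _ _
  have j4 : a1 < A' * P.M ^ k + P.M ^ k := Nat.lt_div_mul_add hMk
  have hrk' : P.M ^ k * P.r 0 = P.r k := by rw [P.r_eq k]; ring
  have kA : A * P.r k = A * P.M ^ k * P.r 0 := by rw [P.r_eq k]; ring
  have kA' : A' * P.r k = A' * P.M ^ k * P.r 0 := by rw [P.r_eq k]; ring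
  have l1 : A * P.M ^ k * P.r 0 + P.r 0 ≤ a0 * P.r 0 + P.M ^ k * P.r 0 := by
    have : (A * P.M ^ k + 1) * P.r 0 ≤ (a0 + P.M ^ k) * P.r 0 :=
      Nat.mul_le_mul_right _ (by omega)
    rw [Nat.add_mul, Nat.add_mul, Nat.one_mul] at this
    exact this
  have l2 : a0 * P.r 0 ≤ A * P.M ^ k * P.r 0 := Nat.mul_le_mul_right _ (by omega)
  have l3 : A' * P.M ^ k * P.r 0 ≤ a1 * P.r 0 := Nat.mul_le_mul_right _ j3
  have l4 : a1 * P.r 0 + P.r 0 ≤ A' * P.M ^ k * P.r 0 + P.M ^ k * P.r 0 := by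
    have : (a1 + 1) * P.r 0 ≤ (A' * P.M ^ k + P.M ^ k) * P.r 0 :=
      Nat.mul_le_mul_right _ (by omega)
    rw [Nat.add_mul, Nat.add_mul, Nat.one_mul] at this
    exact this
  have m1 : A * P.r k ≤ f (v * P.W k) + P.r k := by omega
  have m2 : f (v * P.W k) ≤ A * P.r k + P.r k := by omega
  have m3 : A' * P.r k ≤ f ((v + 1) * P.W k) := by omega
  have m4 : f ((v + 1) * P.W k) < A' * P.r k + P.r k := by omega
  rcases Nat.lt_or_ge A' A with hc | hc
  · -- no grid point
    have n1 : A' * P.r k + P.r k ≤ A * P.r k := by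
      have : (A' + 1) * P.r k ≤ A * P.r k := Nat.mul_le_mul_right _ hc
      rwa [Nat.add_mul, Nat.one_mul] at this
    have n2 : f ((v + 1) * P.W k) ≤ f (v * P.W k) + P.r k := by omega
    have h1 := P.C_right' ((v + 1) * P.M ^ k) (Nat.div_le_div_right (c := P.r 0) hmono)
    rw [← ha0, ← ha1] at h1
    have h2 := P.C_del (v * P.M ^ k) a0 (P.M ^ k)
    rw [show v * P.M ^ k + P.M ^ k = (v + 1) * P.M ^ k by ring] at h2
    have h3 := dist_le_prefixCost P.X P.Y hf (v * P.W k) (P.W k)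
    rw [show v * P.W k + P.W k = (v + 1) * P.W k by ring] at h3
    have h4 := le_dist P.X P.Y (v * P.W k) (P.W k) (f (v * P.W k))
      (f ((v + 1) * P.W k) - f (v * P.W k))
    have h5 : (a1 - a0) * P.r 0 ≤ P.r k + P.r 0 := by
      rw [Nat.sub_mul]; omega
    have h6 : P.M ^ k * P.W 0 = P.W k := by rw [P.W_eq k]; ring
    have h7 : P.C ((v + 1) * P.M ^ k) a1 + prefixCost P.X P.Y f (v * P.W k) ≤
      P.C (v * P.M ^ k) a0 + prefixCost P.X P.Y f ((v + 1) * P.W k) + 2 * P.r k + P.r 0 := by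
      omega
    have h8 : (P.C ((v + 1) * P.M ^ k) a1 : ℝ) + prefixCost P.X P.Y f (v * P.W k) ≤
      P.C (v * P.M ^ k) a0 + prefixCost P.X P.Y f ((v + 1) * P.W k) + 2 * P.r k + P.r 0 := by
      exact_mod_cast h7
    linarith
  · obtain ⟨h, hh⟩ : ∃ h, A' = A + h := ⟨A' - A, by omega⟩
    rcases Nat.lt_or_ge P.hm h with hc2 | hc2
    · -- steep
      have n1 : A * P.r k + (P.hm + 1) * P.r k ≤ A' * P.r k := by
        rw [← Nat.add_mul]; exact Nat.mul_le_mul_right _ (by omega)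
      have n2 : P.hm * P.r k = P.M * P.W k := by
        unfold Par.hm Par.W Par.l; ring
      rw [Nat.add_mul, n2, Nat.one_mul] at n1
      have n3 : P.M * P.W k ≤ f ((v + 1) * P.W k) - f (v * P.W k) := by omega
      have h3 := dist_le_prefixCost P.X P.Y hf (v * P.W k) (P.W k)
      rw [show v * P.W k + P.W k = (v + 1) * P.W k by ring] at h3
      have h4 := le_dist P.X P.Y (v * P.W k) (P.W k) (f (v * P.W k))
        (f ((v + 1) * P.W k) - f (v * P.W k))
      have n4 : P.M * P.W k + prefixCost P.X P.Y f (v * P.W k) ≤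
        P.W k + prefixCost P.X P.Y f ((v + 1) * P.W k) := by omega
      have n5 : (P.M : ℝ) * P.W k + prefixCost P.X P.Y f (v * P.W k) ≤
        P.W k + prefixCost P.X P.Y f ((v + 1) * P.W k) := by exact_mod_cast n4
      have n6 : (2 : ℝ) * P.W k ≤ 4 / (P.M : ℝ) * ((prefixCost P.X P.Y f ((v + 1) * P.W k) : ℝ) -
          prefixCost P.X P.Y f (v * P.W k)) := by
        rw [div_mul_eq_mul_div, le_div_iff₀ (by linarith)]
        have : (0 : ℝ) ≤ P.W k := by positivity
        nlinarith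
      linarith
    · -- a line
      have hAG : A' ≤ P.G k := by
        rw [hA'def, P.G_eq]
        apply Nat.div_le_div_right
        unfold Par.G
        apply Nat.div_le_div_right
        rw [← hend]
        apply hf
        have : (v + 1) * P.W k ≤ P.B k * P.W k := Nat.mul_le_mul_right _ hvB
        exact this.trans (Nat.div_mul_le_self _ _)
      have o1 := P.hl_le hf hQ hst m1 m2 (A := A) (h := h) (by rw [← hh]; omega)
        (by rw [← hh]; omega)
      have o2 := (hA k hk hv v hvB A (by omega) h hc2 (by omega)).2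
      have o3 := P.C_line hM (v := v) (a := A) hk hv hc2
      have o4 := P.C_right' (v * P.M ^ k) (show a0 ≤ A * P.M ^ k by omega)
      have o5 := P.C_right' ((v + 1) * P.M ^ k) (show (A + h) * P.M ^ k ≤ a1 by
        rw [← hh]; exact j3)
      have o6 : (A * P.M ^ k - a0) * P.r 0 ≤ P.r k := by
        rw [Nat.sub_mul]; omega
      have o7 : (a1 - (A + h) * P.M ^ k) * P.r 0 ≤ P.r k := by
        rw [← hh, Nat.sub_mul]; omega
      have o8 : P.C ((v + 1) * P.M ^ k) a1 + prefixCost P.X P.Y f (v * P.W k) ≤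
        P.C (v * P.M ^ k) a0 + prefixCost P.X P.Y f ((v + 1) * P.W k) +
          9 * (P.Q * P.r k) + 2 * P.r k := by omega
      have o9 : (P.C ((v + 1) * P.M ^ k) a1 : ℝ) + prefixCost P.X P.Y f (v * P.W k) ≤
        P.C (v * P.M ^ k) a0 + prefixCost P.X P.Y f ((v + 1) * P.W k) +
          9 * (P.Q * P.r k) + 2 * P.r k := by exact_mod_cast o8
      linarith

end Vale.Agent.P315
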