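import Vale.Agent.P315.Induct

/-! Counting the positions in bad blocks. -/

set_option autoImplicit false

namespace Vale.Agent.P315

theorem card_div_mem {T S : Finset ℕ} {W : ℕ} (hW : 0 < W) (h : ∀ i ∈ T, i / W ∈ S) :
    T.card ≤ W * S.card := by
  classical
  apply Finset.card_le_mul_card_image_of_maps_to h
  intro u _
  calc (T.filter (fun i => i / W = u)).card ≤ (Finset.Ico (u * W) (u * W + W)).card := by
        apply Finset.card_le_card
        intro i hi
        have h1 := (Finset.mem_filter.mp hi).2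
        have h2 : i / W * W ≤ i := Nat.div_mul_le_self _ _
        have h3 : i < i / W * W + W := Nat.lt_div_mul_add hW
        rw [h1] at h2 h3
        exact Finset.mem_Ico.mpr ⟨h2, h3⟩
    _ = W := by simp

theorem card_sparse {S : Finset ℕ} {D B : ℕ} (hD : 0 < D) (hS : ∀ u ∈ S, u < B)
    (hsp : ∀ u ∈ S, ∀ u' ∈ S, u < u' → D ≤ u' - u) : S.card ≤ B / D + 1 := by
  calc S.card = (S.image (fun u => u / D)).card := by
        rw [Finset.card_image_of_injOn]
        intro u hu u' hu' he
        have hu := Finset.mem_coe.mp hu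
        have hu' := Finset.mem_coe.mp hu'
        have he : u / D = u' / D := he
        have h1 : u / D * D ≤ u := Nat.div_mul_le_self _ _
        have h2 : u < u / D * D + D := Nat.lt_div_mul_add hD
        have h3 : u' / D * D ≤ u' := Nat.div_mul_le_self _ _
        have h4 : u' < u' / D * D + D := Nat.lt_div_mul_add hD
        rw [he] at h1 h2
        rcases Nat.lt_trichotomy u u' with h | h | h
        · have := hsp u hu u' hu' h; omega
        · exact h
        · have := hsp u' hu' u hu h; omega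
    _ ≤ (Finset.range (B / D + 1)).card := by
        apply Finset.card_le_card
        intro v hv
        obtain ⟨u, hu, rfl⟩ := Finset.mem_image.mp hv
        have := hS u hu
        exact Finset.mem_range.mpr (Nat.lt_succ_of_le (Nat.div_le_div_right (by omega)))
    _ = _ := by simp

theorem Straight.mono {f : ℕ → ℕ} {r r' p q p' q' : ℕ} (h : Straight f r p q) (hr : r ≤ r')
    (hp : p ≤ p') (hq : q' ≤ q) : Straight f r' p' q' := by
  obtain ⟨α, β, h⟩ := h
  refine ⟨α, β, fun i h1 h2 => (h i (by omega) (by omega)).trans ?_⟩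
  exact_mod_cast hr

open Classical in
/-- Blocks that are not good, followed by good blocks. -/
noncomputable def SR (P : Par) (f : ℕ → ℕ) (k : ℕ) : Finset ℕ :=
  (Finset.range (P.B k)).filter (fun u => ¬ Good P f k u ∧
    ∀ j, 1 ≤ j → j < P.M ^ 2 → Good P f k (u + j))

open Classical in
/-- Blocks that are not good, preceded by good blocks. -/
noncomputable def SL (P : Par) (f : ℕ → ℕ) (k : ℕ) : Finset ℕ :=
  (Finset.range (P.B k)).filter (fun u => ¬ Good P f k u ∧
    ∀ j, 1 ≤ j → j < P.M ^ 2 → j ≤ u ∧ Good P f k (u - j))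

theorem card_SR (P : Par) (hM : 2 ≤ P.M) (f : ℕ → ℕ) (k : ℕ) :
    (SR P f k).card ≤ P.B k / P.M ^ 2 + 1 := by
  classical
  apply card_sparse (Nat.pow_pos (by omega))
  · intro u hu; exact Finset.mem_range.mp (Finset.mem_filter.mp hu).1
  · intro u hu u' hu' h
    by_contra hc
    have h1 := (Finset.mem_filter.mp hu).2.2 (u' - u) (by omega) (by omega)
    rw [show u + (u' - u) = u' by omega] at h1
    exact (Finset.mem_filter.mp hu').2.1 h1

theorem card_SL (P : Par) (hM : 2 ≤ P.M) (f : ℕ → ℕ) (k : ℕ) :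
    (SL P f k).card ≤ P.B k / P.M ^ 2 + 1 := by
  classical
  apply card_sparse (Nat.pow_pos (by omega))
  · intro u hu; exact Finset.mem_range.mp (Finset.mem_filter.mp hu).1
  · intro u hu u' hu' h
    by_contra hc
    have h1 := ((Finset.mem_filter.mp hu').2.2 (u' - u) (by omega) (by omega)).2
    rw [show u' - (u' - u) = u by omega] at h1
    exact (Finset.mem_filter.mp hu).2.1 h1

/-- Positions in blocks at the borders of straight intervals. -/
noncomputable def Lost (P : Par) (f : ℕ → ℕ) (k : ℕ) : Finset ℕ :=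
  (Finset.range P.lx).filter (fun i => P.B k ≤ i / P.W k ∨ i / P.W k ∈ SR P f k ∨
    i / P.W k ∈ SL P f k)

theorem card_Lost (P : Par) (hM : 2 ≤ P.M) (hlx : P.lx ≤ P.n) (f : ℕ → ℕ) {k : ℕ}
    (hv : P.Valid k) : P.M ^ 2 * (Lost P f k).card ≤ 5 * P.n := by
  classical
  have hW := P.W_pos hM k
  have hD : 0 < P.M ^ 2 := Nat.pow_pos (by omega)
  have h1 : (Lost P f k).card ≤ P.W k * (P.B k / P.M ^ 2 + 1) + P.W k * (P.B k / P.M ^ 2 + 1) +
      P.W k := by
    have hsub : Lost P f k ⊆ ((Finset.range P.lx).filter (fun i => i / P.W k ∈ SR P f k) ∪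
        (Finset.range P.lx).filter (fun i => i / P.W k ∈ SL P f k)) ∪
        Finset.Ico (P.B k * P.W k) (P.B k * P.W k + P.W k) := by
      intro i hi
      have h2 := Finset.mem_filter.mp hi
      simp only [Finset.mem_union, Finset.mem_filter, Finset.mem_Ico]
      rcases h2.2 with h3 | h3 | h3
      · right
        have h4 : i / P.W k * P.W k ≤ i := Nat.div_mul_le_self _ _
        have h5 : P.B k * P.W k ≤ i / P.W k * P.W k := Nat.mul_le_mul_right _ h3
        have h6 : P.lx < P.B k * P.W k + P.W k := Nat.lt_div_mul_add hW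
        have h7 := Finset.mem_range.mp h2.1
        omega
      · left; left; exact ⟨h2.1, h3⟩
      · left; right; exact ⟨h2.1, h3⟩
    refine (Finset.card_le_card hsub).trans ((Finset.card_union_le _ _).trans ?_)
    refine Nat.add_le_add ((Finset.card_union_le _ _).trans (Nat.add_le_add ?_ ?_)) (by simp)
    · exact (card_div_mem hW (fun i hi => (Finset.mem_filter.mp hi).2)).trans
        (Nat.mul_le_mul_left _ (card_SR P hM f k))
    · exact (card_div_mem hW (fun i hi => (Finset.mem_filter.mp hi).2)).trans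
        (Nat.mul_le_mul_left _ (card_SL P hM f k))
  have h2 : P.M ^ 2 * P.W k ≤ P.n := by
    have h3 : P.r k * P.M ^ 16 ≤ P.n := hv
    calc P.M ^ 2 * P.W k = P.r k * P.M ^ 16 := by unfold Par.W Par.l Par.Q; ring
      _ ≤ _ := h3
  have h3 : P.M ^ 2 * (P.B k / P.M ^ 2) ≤ P.B k := Nat.mul_div_le _ _
  have h4 : P.W k * P.B k ≤ P.n := by
    rw [Nat.mul_comm]; exact (Nat.div_mul_le_self _ _).trans hlx
  have h5 : P.W k * (P.M ^ 2 * (P.B k / P.M ^ 2)) ≤ P.W k * P.B k := Nat.mul_le_mul_left _ h3
  calc P.M ^ 2 * (Lost P f k).card ≤ P.M ^ 2 * (P.W k * (P.B k / P.M ^ 2 + 1) +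
        P.W k * (P.B k / P.M ^ 2 + 1) + P.W k) := Nat.mul_le_mul_left _ h1
    _ = 2 * (P.W k * (P.M ^ 2 * (P.B k / P.M ^ 2))) + 3 * (P.M ^ 2 * P.W k) := by ring
    _ ≤ _ := by omega

/-- A calm position lies in a good block or is lost. -/
theorem calm_cases (P : Par) (hM : 2 ≤ P.M) {f : ℕ → ℕ} {S : ℝ}
    (hsel : ∀ r w : ℕ, 1 ≤ r → S * r ≤ w → w ≤ P.lx → ∃ k < P.K, P.Valid k ∧ r ≤ P.r k ∧
      P.M ^ 2 * P.W k ≤ w) {i : ℕ} (hi : i < P.lx) (hc : Calm f P.lx S i) :
    ∃ k < P.K, P.Valid k ∧ (Good P f k (i / P.W k) ∨ i ∈ Lost P f k) := by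
  classical
  obtain ⟨p, q, r, hp, hq, hql, hr, hS, hst⟩ := hc
  obtain ⟨k, hk, hv, hrk, hW⟩ := hsel r (q - p) hr hS (by omega)
  refine ⟨k, hk, hv, ?_⟩
  have hWk := P.W_pos hM k
  have hD : 0 < P.M ^ 2 := Nat.pow_pos (by omega)
  have h1 : i / P.W k * P.W k ≤ i := Nat.div_mul_le_self _ _
  have h2 : i < i / P.W k * P.W k + P.W k := Nat.lt_div_mul_add hWk
  have hgood : ∀ v, p ≤ v * P.W k → (v + 1) * P.W k ≤ q → Good P f k v := by
    intro v hv1 hv2
    refine ⟨hk, hv, ?_, hst.mono hrk hv1 hv2⟩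
    have : v + 1 ≤ P.B k := (Nat.le_div_iff_mul_le hWk).mpr (by omega)
    omega
  by_cases hg : Good P f k (i / P.W k)
  · exact Or.inl hg
  · right
    unfold Lost
    refine Finset.mem_filter.mpr ⟨Finset.mem_range.mpr hi, ?_⟩
    generalize hu : i / P.W k = u at h1 h2 hg ⊢
    rcases Nat.lt_or_ge u (P.B k) with hB | hB
    · right
      have hor : u * P.W k < p ∨ q < (u + 1) * P.W k := by
        by_contra hcon
        push Not at hcon
        exact hg (hgood u hcon.1 hcon.2)
      rcases hor with h3 | h3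
      · left
        refine Finset.mem_filter.mpr ⟨Finset.mem_range.mpr hB, hg, ?_⟩
        intro j hj1 hj2
        apply hgood
        · have : (u + 1) * P.W k ≤ (u + j) * P.W k := Nat.mul_le_mul_right _ (by omega)
          rw [Nat.add_mul, Nat.one_mul] at this
          omega
        · have h4 : (u + j + 1) * P.W k ≤ (u + P.M ^ 2) * P.W k :=
            Nat.mul_le_mul_right _ (by omega)
          rw [Nat.add_mul u] at h4
          omega
      · right
        refine Finset.mem_filter.mpr ⟨Finset.mem_range.mpr hB, hg, ?_⟩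
        intro j hj1 hj2
        have h4 : P.M ^ 2 * P.W k < (u + 1) * P.W k := by omega
        have h5 : P.M ^ 2 < u + 1 := Nat.lt_of_mul_lt_mul_right h4
        refine ⟨by omega, hgood _ ?_ ?_⟩
        · have h6 : (u + 1 - P.M ^ 2) * P.W k ≤ (u - j) * P.W k :=
            Nat.mul_le_mul_right _ (by omega)
          rw [Nat.sub_mul] at h6
          omega
        · have h6 : (u - j + 1) * P.W k ≤ u * P.W k := Nat.mul_le_mul_right _ (by omega)
          omega
    · left; exact hB

theorem rough_eq (f : ℕ → ℕ) (l : ℕ) (S : ℝ) [DecidablePred (fun i => ¬ Calm f l S i)] :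
    rough f l S = ((Finset.range l).filter (fun i => ¬ Calm f l S i)).card := by
  unfold rough
  rw [← Set.ncard_coe_finset]
  congr 1
  ext i
  simp

/-- The positions in bad fine blocks are rough or lost. -/
theorem bad_le (P : Par) (hM : 2 ≤ P.M) (hlx : P.lx ≤ P.n) {f : ℕ → ℕ} {S : ℝ}
    (hsel : ∀ r w : ℕ, 1 ≤ r → S * r ≤ w → w ≤ P.lx → ∃ k < P.K, P.Valid k ∧ r ≤ P.r k ∧
      P.M ^ 2 * P.W k ≤ w) :
    P.M ^ 2 * (P.W 0 * badCount P f (P.B 0)) ≤ P.M ^ 2 * rough f P.lx S + P.K * (5 * P.n) := by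
  classical
  have hW0 := P.W_pos hM 0
  rw [rough_eq]
  set T := (Finset.range P.K).filter (fun k => P.Valid k) with hT
  have h1 : P.W 0 * badCount P f (P.B 0) ≤ ((Finset.range P.lx).filter
      (fun i => ¬ Calm f P.lx S i) ∪ T.biUnion (fun k => Lost P f k)).card := by
    unfold badCount
    rw [Nat.mul_comm, ← Finset.card_range (P.W 0), ← Finset.card_product]
    apply Finset.card_le_card_of_injOn (fun z => z.1 * P.W 0 + z.2)
    · rintro ⟨v, j⟩ hz
      have hz' := Finset.mem_product.mp (Finset.mem_coe.mp hz)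
      have hv := Finset.mem_filter.mp hz'.1
      have hj := Finset.mem_range.mp hz'.2
      have hvB := Finset.mem_range.mp hv.1
      have hbad := hv.2
      simp only at hj hvB hbad
      have hvl : v * P.W 0 + j < P.lx := by
        have g1 : (v + 1) * P.W 0 ≤ P.B 0 * P.W 0 := Nat.mul_le_mul_right _ hvB
        have g2 : P.B 0 * P.W 0 ≤ P.lx := Nat.div_mul_le_self _ _
        rw [Nat.add_mul, Nat.one_mul] at g1
        omega
      show v * P.W 0 + j ∈ _
      simp only [Finset.coe_union, Set.mem_union, Finset.mem_coe, Finset.mem_filter,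
        Finset.mem_range, Finset.mem_biUnion]
      by_cases hc : Calm f P.lx S (v * P.W 0 + j)
      · right
        obtain ⟨k, hk, hval, hor⟩ := calm_cases P hM hsel hvl hc
        refine ⟨k, ?_, ?_⟩
        · rw [hT]; exact Finset.mem_filter.mpr ⟨Finset.mem_range.mpr hk, hval⟩
        · rcases hor with hg | hl
          · exfalso
            apply hbad k _ hg
            have hMk : 0 < P.M ^ k := Nat.pow_pos (by omega)
            have e1 : (v * P.W 0 + j) / P.W k = v / P.M ^ k := by
              rw [P.W_eq k, ← Nat.div_div_eq_div_mul, (mul_add_div_mod v (P.W 0) j hj).1]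
            rw [e1]
            refine ⟨Nat.div_mul_le_self _ _, ?_⟩
            rw [Nat.add_mul, Nat.one_mul]
            exact Nat.lt_div_mul_add hMk
          · exact hl
      · left; exact ⟨hvl, hc⟩
    · rintro ⟨v, j⟩ hz ⟨v', j'⟩ hz' he
      have hj := Finset.mem_range.mp (Finset.mem_product.mp (Finset.mem_coe.mp hz)).2
      have hj' := Finset.mem_range.mp (Finset.mem_product.mp (Finset.mem_coe.mp hz')).2
      have := pair_inj (show v * P.W 0 + j = v' * P.W 0 + j' from he) hj hj'
      rw [this.1, this.2]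
  have h2 : P.M ^ 2 * (T.biUnion (fun k => Lost P f k)).card ≤ P.K * (5 * P.n) := by
    calc P.M ^ 2 * (T.biUnion (fun k => Lost P f k)).card
        ≤ P.M ^ 2 * ∑ k ∈ T, (Lost P f k).card :=
          Nat.mul_le_mul_left _ Finset.card_biUnion_le
      _ = ∑ k ∈ T, P.M ^ 2 * (Lost P f k).card := Finset.mul_sum _ _ _
      _ ≤ ∑ k ∈ T, 5 * P.n := Finset.sum_le_sum (fun k hk =>
          card_Lost P hM hlx f (Finset.mem_filter.mp hk).2)
      _ = T.card * (5 * P.n) := by rw [Finset.sum_const, smul_eq_mul]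
      _ ≤ P.K * (5 * P.n) := by
          apply Nat.mul_le_mul_right
          calc T.card ≤ (Finset.range P.K).card := Finset.card_filter_le _ _
            _ = P.K := by simp
  calc P.M ^ 2 * (P.W 0 * badCount P f (P.B 0)) ≤ P.M ^ 2 * _ := Nat.mul_le_mul_left _ h1
    _ ≤ P.M ^ 2 * (_ + _) := Nat.mul_le_mul_left _ (Finset.card_union_le _ _)
    _ = _ := Nat.mul_add _ _ _
    _ ≤ _ := Nat.add_le_add_left h2 _

end Vale.Agent.P315
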