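import Vale.Agent.P315.Sem

/-! A small program logic for the machine. -/

set_option autoImplicit false

namespace Vale.Agent.P315

/-! ### Reading states -/

@[simp] theorem State.setReg_reg (s : State) (i v j : ℕ) :
    (s.setReg i v).reg j = if j = i then v else s.reg j := by
  simp [State.setReg, Function.update_apply]

@[simp] theorem State.setReg_arr (s : State) (i v : ℕ) : (s.setReg i v).arr = s.arr := rfl

@[simp] theorem State.setArr_reg (s : State) (j i v : ℕ) : (s.setArr j i v).reg = s.reg := rfl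

theorem State.setArr_arr_ne (s : State) {j j' : ℕ} (i v : ℕ) (h : j' ≠ j) :
    (s.setArr j i v).arr j' = s.arr j' := by
  simp [State.setArr, h]

@[simp] theorem State.setArr_arr (s : State) (j i v j' i' : ℕ) :
    (s.setArr j i v).arr j' i' = if j' = j ∧ i' = i then v else s.arr j' i' := by
  by_cases h : j' = j
  · subst h; simp [State.setArr, Function.update_apply]
  · simp [State.setArr, h]

@[simp] theorem State.setReg_coins (s : State) (i v : ℕ) : (s.setReg i v).coins = s.coins := rfl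

@[simp] theorem State.setArr_coins (s : State) (j i v : ℕ) :
    (s.setArr j i v).coins = s.coins := rfl

/-! ### Written registers and arrays -/

/-- Registers written by a program. -/
def Prog.wr : Prog → List ℕ
  | .set i _ => [i]
  | .put _ _ _ => []
  | .rand i => [i]
  | .seq p q => p.wr ++ q.wr
  | .ite _ p q => p.wr ++ q.wr
  | .loop i _ p => i :: p.wr

/-- Arrays written by a program. -/
def Prog.wa : Prog → List ℕ
  | .set _ _ => []
  | .put j _ _ => [j]
  | .rand _ => []
  | .seq p q => p.wa ++ q.wa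
  | .ite _ p q => p.wa ++ q.wa
  | .loop _ _ p => p.wa

/-- `s'` agrees with `s` outside of the registers in `wr` and the arrays in `wa`. -/
structure Frame (s s' : State) (wr wa : List ℕ) : Prop where
  reg : ∀ k, k ∉ wr → s'.reg k = s.reg k
  arr : ∀ j, j ∉ wa → s'.arr j = s.arr j

theorem Frame.refl (s : State) (wr wa : List ℕ) : Frame s s wr wa :=
  ⟨fun _ _ => rfl, fun _ _ => rfl⟩

theorem Frame.trans {s s' s'' : State} {wr wa : List ℕ} (h : Frame s s' wr wa)
    (h' : Frame s' s'' wr wa) : Frame s s'' wr wa :=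
  ⟨fun k hk => (h'.reg k hk).trans (h.reg k hk), fun k hk => (h'.arr k hk).trans (h.arr k hk)⟩

theorem Frame.mono {s s' : State} {wr wa wr' wa' : List ℕ} (h : Frame s s' wr wa)
    (h1 : ∀ k ∈ wr, k ∈ wr') (h2 : ∀ k ∈ wa, k ∈ wa') : Frame s s' wr' wa' :=
  ⟨fun k hk => h.reg k (fun h' => hk (h1 k h')), fun k hk => h.arr k (fun h' => hk (h2 k h'))⟩

theorem frame_rounds {f : ℕ → State → State} {s : State} {wr wa : List ℕ}
    (h : ∀ t s', Frame s' (f t s') wr wa) (n : ℕ) : Frame s (s.rounds f n) wr wa := by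
  induction n with
  | zero => exact Frame.refl _ _ _
  | succ n ih => exact ih.trans (h _ _)

theorem frame_setReg (s : State) (i v : ℕ) : Frame s (s.setReg i v) [i] [] :=
  ⟨fun k hk => by simp at hk; simp [hk], fun _ _ => rfl⟩

theorem Prog.frame (ρ : ℕ → ℕ) (p : Prog) : ∀ s, Frame s (p.run ρ s) p.wr p.wa := by
  induction p with
  | set i e => intro s; exact frame_setReg _ _ _
  | put j e e' =>
    intro s
    refine ⟨fun _ _ => rfl, fun k hk => ?_⟩
    have : k ≠ j := by simpa [Prog.wa] using hk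
    exact State.setArr_arr_ne _ _ _ this
  | rand i =>
    intro s
    refine ⟨fun k hk => ?_, fun _ _ => rfl⟩
    have : k ≠ i := by simpa [Prog.wr] using hk
    simp [Prog.run, this]
  | seq p q ihp ihq =>
    intro s
    refine ((ihp s).mono ?_ ?_).trans ((ihq _).mono ?_ ?_) <;>
      (intro k hk; simp [Prog.wr, Prog.wa, hk])
  | ite e p q ihp ihq =>
    intro s
    simp only [Prog.run]
    split_ifs
    · exact (ihq s).mono (fun k hk => by simp [Prog.wr, hk]) (fun k hk => by simp [Prog.wa, hk])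
    · exact (ihp s).mono (fun k hk => by simp [Prog.wr, hk]) (fun k hk => by simp [Prog.wa, hk])
  | loop i e p ih =>
    intro s
    apply frame_rounds
    intro t s'
    exact ((frame_setReg s' i t).mono (fun k hk => by simp_all [Prog.wr])
      (fun k hk => by simp at hk)).trans
        ((ih _).mono (fun k hk => by simp [Prog.wr, hk]) (fun k hk => hk))

/-! ### Bounds on the numbers -/

/-- The parameters of a run: the random words, a bound `R` for all stored numbers, a bound `S`
for the size of expressions, the bound `N` for all numbers. -/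
structure Env where
  ρ : ℕ → ℕ
  R : ℕ
  S : ℕ
  N : ℕ
  hR : 2 ≤ R
  hS : 100 ≤ S
  hN : R ^ S < N
  hρ : ∀ i, ρ i < N

/-- All stored numbers are at most `R`, except for the input symbols, which are below `N`. -/
structure Bdd (E : Env) (s : State) : Prop where
  reg : ∀ i, s.reg i ≤ E.R
  arr : ∀ j, 2 ≤ j → ∀ i, s.arr j i ≤ E.R
  x : ∀ i, s.arr 0 i < E.N
  y : ∀ i, s.arr 1 i < E.N

theorem Env.R_lt_N (E : Env) : E.R < E.N := by
  have h1 : E.R ^ 1 ≤ E.R ^ E.S := Nat.pow_le_pow_right (by have := E.hR; omega)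
    (by have := E.hS; omega)
  have := E.hN
  simp at h1
  omega

theorem Bdd.setReg {E : Env} {s : State} (h : Bdd E s) (i : ℕ) {v : ℕ} (hv : v ≤ E.R) :
    Bdd E (s.setReg i v) :=
  ⟨fun j => by simp only [State.setReg_reg]; split_ifs; exacts [hv, h.reg j], h.arr, h.x, h.y⟩

theorem Bdd.setArr {E : Env} {s : State} (h : Bdd E s) {j : ℕ} (hj : 2 ≤ j) (i : ℕ) {v : ℕ}
    (hv : v ≤ E.R) : Bdd E (s.setArr j i v) := by
  refine ⟨h.reg, fun j' hj' i' => ?_, fun i' => ?_, fun i' => ?_⟩
  · simp only [State.setArr_arr]; split_ifs; exacts [hv, h.arr j' hj' i']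
  · rw [State.setArr_arr_ne _ _ _ (by omega)]; exact h.x i'
  · rw [State.setArr_arr_ne _ _ _ (by omega)]; exact h.y i'

/-- Expressions that do not read the input arrays, with small constants. -/
def Expr.Ok (R : ℕ) : Expr → Prop
  | .lit c => c ≤ R
  | .reg _ => True
  | .get j e => 2 ≤ j ∧ e.Ok R
  | .op _ e e' => e.Ok R ∧ e'.Ok R

/-- A check for expressions without the input arrays and with constants at most `2`. -/
def Expr.okb : Expr → Bool
  | .lit c => decide (c ≤ 2)
  | .reg _ => true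
  | .get j e => decide (2 ≤ j) && e.okb
  | .op _ e e' => e.okb && e'.okb

/-- The check together with a size limit. -/
def Expr.small (e : Expr) : Bool := e.okb && decide (e.cost ≤ 100)

theorem Expr.Ok_of_okb {R : ℕ} (hR : 2 ≤ R) (e : Expr) (h : e.okb = true) : e.Ok R := by
  induction e with
  | lit c => simp [Expr.okb] at h; simp [Expr.Ok]; omega
  | reg i => trivial
  | get j e ih => simp [Expr.okb] at h; exact ⟨h.1, ih h.2⟩
  | op o e e' ih ih' => simp [Expr.okb] at h; exact ⟨ih h.1, ih' h.2⟩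

theorem Expr.one_le_cost (e : Expr) : 1 ≤ e.cost := by
  cases e <;> simp [Expr.cost]

theorem Expr.eval_le_top (s : State) (e : Expr) : e.eval s ≤ e.top s := by
  cases e <;> simp [Expr.eval, Expr.top]

theorem Op.eval_le {R a b m n : ℕ} (hR : 2 ≤ R) (o : Op) (ha : a ≤ R ^ m) (hb : b ≤ R ^ n) :
    o.eval a b ≤ R ^ (m + n + 1) := by
  have h1 : R ^ m ≤ R ^ (m + n) := Nat.pow_le_pow_right (by omega) (by omega)
  have h2 : R ^ n ≤ R ^ (m + n) := Nat.pow_le_pow_right (by omega) (by omega)
  have h3 : R ^ (m + n + 1) = R ^ (m + n) * R := pow_succ _ _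
  have h4 : R ^ (m + n) * 2 ≤ R ^ (m + n) * R := Nat.mul_le_mul_left _ hR
  have h5 : 1 ≤ R ^ (m + n) := Nat.one_le_pow _ _ (by omega)
  cases o with
  | add => simp only [Op.eval]; omega
  | sub => simp only [Op.eval]; omega
  | mul =>
    simp only [Op.eval]
    have : a * b ≤ R ^ m * R ^ n := Nat.mul_le_mul ha hb
    rw [← pow_add] at this
    omega
  | div => simp only [Op.eval]; exact (Nat.div_le_self a b).trans (by omega)
  | mod => simp only [Op.eval]; exact (Nat.mod_le a b).trans (by omega)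
  | eq => simp only [Op.eval]; split_ifs <;> omega
  | lt => simp only [Op.eval]; split_ifs <;> omega

theorem Expr.top_le {E : Env} {s : State} (hb : Bdd E s) (e : Expr) (h : e.Ok E.R) :
    e.top s ≤ E.R ^ e.cost := by
  induction e with
  | lit c =>
    have : c ≤ E.R := h
    simpa [Expr.top, Expr.cost] using this
  | reg i => simpa [Expr.top, Expr.cost] using hb.reg i
  | get j e ih =>
    have h1 := ih h.2
    have h2 := hb.arr j h.1 (e.eval s)
    have h3 : E.R ^ e.cost ≤ E.R ^ (e.cost + 1) :=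
      Nat.pow_le_pow_right (by have := E.hR; omega) (by omega)
    have h4 : E.R ^ 1 ≤ E.R ^ (e.cost + 1) :=
      Nat.pow_le_pow_right (by have := E.hR; omega) (by omega)
    simp only [Expr.top, Expr.cost]
    rw [pow_one] at h4
    omega
  | op o e e' ih ih' =>
    have h1 := ih h.1
    have h2 := ih' h.2
    have h3 := Op.eval_le E.hR o ((Expr.eval_le_top s e).trans h1)
      ((Expr.eval_le_top s e').trans h2)
    have h4 : E.R ^ e.cost ≤ E.R ^ (e.cost + e'.cost + 1) :=
      Nat.pow_le_pow_right (by have := E.hR; omega) (by omega)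
    have h5 : E.R ^ e'.cost ≤ E.R ^ (e.cost + e'.cost + 1) :=
      Nat.pow_le_pow_right (by have := E.hR; omega) (by omega)
    simp only [Expr.top, Expr.cost]
    omega

theorem Expr.top_lt {E : Env} {s : State} (hb : Bdd E s) (e : Expr) (h : e.Ok E.R)
    (hc : e.cost ≤ E.S) : e.top s < E.N := by
  have h1 := Expr.top_le hb e h
  have h2 : E.R ^ e.cost ≤ E.R ^ E.S := Nat.pow_le_pow_right (by have := E.hR; omega) hc
  have h3 := E.hN
  omega

theorem Expr.top_lt_small {E : Env} {s : State} (hb : Bdd E s) (e : Expr)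
    (h : e.small = true) : e.top s < E.N := by
  simp only [Expr.small, Bool.and_eq_true, decide_eq_true_eq] at h
  exact Expr.top_lt hb e (Expr.Ok_of_okb E.hR e h.1) (h.2.trans E.hS)

/-! ### Specifications -/

/-- If `s` obeys the bounds then program `p`, started in `s`, runs within the bounds, for at most
`c` steps, and ends in a state with property `Q`. -/
def Spec (E : Env) (s : State) (p : Prog) (c : ℕ) (Q : State → Prop) : Prop :=
  Bdd E s → (Q (p.run E.ρ s) ∧ Bdd E (p.run E.ρ s) ∧ p.time E.ρ s ≤ c ∧ p.top E.ρ s < E.N)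

variable {E : Env} {s : State}

theorem Spec.mono {p : Prog} {c c' : ℕ} {Q Q' : State → Prop} (h : Spec E s p c Q)
    (hc : c ≤ c') (hQ : ∀ s', Q s' → Q' s') : Spec E s p c' Q' := fun hb =>
  ⟨hQ _ (h hb).1, (h hb).2.1, (h hb).2.2.1.trans hc, (h hb).2.2.2⟩

theorem Spec.le {p : Prog} {c c' : ℕ} {Q : State → Prop} (h : Spec E s p c Q)
    (hc : c ≤ c') : Spec E s p c' Q := h.mono hc (fun _ h => h)

theorem Spec.withFrame {p : Prog} {c : ℕ} {Q : State → Prop} (h : Spec E s p c Q) :
    Spec E s p c (fun s' => Frame s s' p.wr p.wa ∧ Q s') := fun hb =>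
  ⟨⟨p.frame E.ρ s, (h hb).1⟩, (h hb).2⟩

/-- Composition; the time budgets are split into a part `a` for straight-line code and a rest. -/
theorem Spec.seq {p q : Prog} {Q' : State → Prop} {a d : ℕ} (a₁ d₁ a₂ d₂ : ℕ) (Q : State → Prop)
    (ha : a₁ + a₂ ≤ a) (hd : d₁ + d₂ ≤ d) (h : Spec E s p (a₁ + d₁) Q)
    (h' : ∀ s', Frame s s' p.wr p.wa → Q s' → Spec E s' q (a₂ + d₂) Q') :
    Spec E s (.seq p q) (a + d) Q' := by
  intro hb
  obtain ⟨h1, h2, h3, h4⟩ := h hb
  obtain ⟨g1, g2, g3, g4⟩ := h' _ (p.frame E.ρ s) h1 h2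
  exact ⟨g1, g2, (Nat.add_le_add h3 g3).trans (by omega), max_lt h4 g4⟩

theorem Expr.ok_cost_of_small {E : Env} {e : Expr} (hs : e.small = true) :
    e.Ok E.R ∧ e.cost ≤ E.S := by
  simp only [Expr.small, Bool.and_eq_true, decide_eq_true_eq] at hs
  exact ⟨Expr.Ok_of_okb E.hR e hs.1, hs.2.trans E.hS⟩

theorem Spec.set_seq' {i : ℕ} {e : Expr} {q : Prog} {a d : ℕ} {Q : State → Prop} (v : ℕ)
    (ho : e.Ok E.R) (hS : e.cost ≤ E.S) (hc : e.cost + 1 ≤ a) (hv : e.eval s = v)
    (hvR : Bdd E s → v ≤ E.R) (h : Spec E (s.setReg i v) q (a - (e.cost + 1) + d) Q) :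
    Spec E s (.seq (.set i e) q) (a + d) Q := by
  intro hb
  subst hv
  obtain ⟨h1, h2, h3, h4⟩ := h (hb.setReg i (hvR hb))
  exact ⟨h1, h2, (Nat.add_le_add (le_refl (e.cost + 1)) h3).trans (by omega),
    max_lt (Expr.top_lt hb e ho hS) h4⟩

theorem Spec.set_seq {i : ℕ} {e : Expr} {q : Prog} {a d : ℕ} {Q : State → Prop} (v : ℕ)
    (hs : e.small = true) (hc : e.cost + 1 ≤ a) (hv : e.eval s = v) (hvR : Bdd E s → v ≤ E.R)
    (h : Spec E (s.setReg i v) q (a - (e.cost + 1) + d) Q) :
    Spec E s (.seq (.set i e) q) (a + d) Q :=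
  Spec.set_seq' v (Expr.ok_cost_of_small hs).1 (Expr.ok_cost_of_small hs).2 hc hv hvR h

theorem Spec.set {i : ℕ} {e : Expr} {a d : ℕ} {Q : State → Prop} (v : ℕ)
    (hs : e.small = true) (hc : e.cost + 1 ≤ a)
    (hv : e.eval s = v) (hvR : Bdd E s → v ≤ E.R) (hQ : Bdd E s → Q (s.setReg i v)) :
    Spec E s (.set i e) (a + d) Q := by
  intro hb
  subst hv
  refine ⟨hQ hb, hb.setReg i (hvR hb), ?_, Expr.top_lt_small hb e hs⟩
  simp only [Prog.time]; omega

theorem Spec.put_seq {j : ℕ} {e e' : Expr} {q : Prog} {a d : ℕ} {Q : State → Prop} (u v : ℕ)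
    (hj : 2 ≤ j) (hs : e.small = true) (hs' : e'.small = true) (hc : e.cost + e'.cost + 1 ≤ a)
    (hu : e.eval s = u) (hv : e'.eval s = v) (hvR : Bdd E s → v ≤ E.R)
    (h : Spec E (s.setArr j u v) q (a - (e.cost + e'.cost + 1) + d) Q) :
    Spec E s (.seq (.put j e e') q) (a + d) Q := by
  intro hb
  subst hv
  subst hu
  obtain ⟨h1, h2, h3, h4⟩ := h (hb.setArr hj _ (hvR hb))
  exact ⟨h1, h2, (Nat.add_le_add (le_refl (e.cost + e'.cost + 1)) h3).trans (by omega),
    max_lt (max_lt (Expr.top_lt_small hb e hs) (Expr.top_lt_small hb e' hs')) h4⟩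

theorem Spec.put {j : ℕ} {e e' : Expr} {a d : ℕ} {Q : State → Prop} (u v : ℕ)
    (hj : 2 ≤ j) (hs : e.small = true) (hs' : e'.small = true) (hc : e.cost + e'.cost + 1 ≤ a)
    (hu : e.eval s = u)
    (hv : e'.eval s = v) (hvR : Bdd E s → v ≤ E.R) (hQ : Bdd E s → Q (s.setArr j u v)) :
    Spec E s (.put j e e') (a + d) Q := by
  intro hb
  subst hv
  subst hu
  refine ⟨hQ hb, hb.setArr hj _ (hvR hb), ?_,
    max_lt (Expr.top_lt_small hb e hs) (Expr.top_lt_small hb e' hs')⟩
  simp only [Prog.time]; omega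

/-- Comparison of two input symbols. -/
theorem Spec.cmp_seq {i : ℕ} {e e' : Expr} {q : Prog} {a d : ℕ} {Q : State → Prop} (u v : ℕ)
    (hs : e.small = true) (hs' : e'.small = true) (hc : e.cost + e'.cost + 4 ≤ a)
    (hu : e.eval s = u) (hv : e'.eval s = v)
    (h : Spec E (s.setReg i (if s.arr 0 u = s.arr 1 v then 1 else 0)) q
      (a - (e.cost + e'.cost + 4) + d) Q) :
    Spec E s (.seq (.set i (.op .eq (.get 0 e) (.get 1 e'))) q) (a + d) Q := by
  intro hb
  subst hv
  subst hu
  have hv : (if s.arr 0 (e.eval s) = s.arr 1 (e'.eval s) then 1 else 0) ≤ 1 := by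
    split_ifs <;> omega
  have hR := E.hR
  obtain ⟨h1, h2, h3, h4⟩ := h (hb.setReg i (by omega))
  refine ⟨h1, h2, (Nat.add_le_add (le_of_eq ?_) h3).trans (?_ : e.cost + e'.cost + 4 +
    (a - (e.cost + e'.cost + 4) + d) ≤ a + d), ?_⟩
  · simp only [Prog.time, Expr.cost]
    omega
  · omega
  · have t1 := Expr.top_lt_small hb e hs
    have t2 := Expr.top_lt_small hb e' hs'
    have t3 := hb.x (e.eval s)
    have t4 := hb.y (e'.eval s)
    have t5 := E.R_lt_N
    have t6 : Op.eval .eq (s.arr 0 (e.eval s)) (s.arr 1 (e'.eval s)) ≤ 1 := by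
      simp only [Op.eval]; split_ifs <;> omega
    exact max_lt (max_lt (max_lt (max_lt t1 t3) (max_lt t2 t4)) (by
      have := E.hR
      exact lt_of_le_of_lt t6 (by omega))) h4

theorem Spec.ite' {e : Expr} {p q : Prog} {a d : ℕ} {Q : State → Prop} (ho : e.Ok E.R)
    (hS : e.cost ≤ E.S) (hc : e.cost + 1 ≤ a)
    (h0 : e.eval s = 0 → Spec E s q (a - (e.cost + 1) + d) Q)
    (h1 : e.eval s ≠ 0 → Spec E s p (a - (e.cost + 1) + d) Q) :
    Spec E s (.ite e p q) (a + d) Q := by
  intro hb
  have t1 := Expr.top_lt hb e ho hS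
  by_cases h : e.eval s = 0
  · obtain ⟨g1, g2, g3, g4⟩ := h0 h hb
    simp only [Prog.run, Prog.time, Prog.top, h, if_true]
    exact ⟨g1, g2, by omega, max_lt t1 g4⟩
  · obtain ⟨g1, g2, g3, g4⟩ := h1 h hb
    simp only [Prog.run, Prog.time, Prog.top, h, if_false]
    exact ⟨g1, g2, by omega, max_lt t1 g4⟩

theorem Spec.ite {e : Expr} {p q : Prog} {a d : ℕ} {Q : State → Prop} (hs : e.small = true)
    (hc : e.cost + 1 ≤ a) (h0 : e.eval s = 0 → Spec E s q (a - (e.cost + 1) + d) Q)
    (h1 : e.eval s ≠ 0 → Spec E s p (a - (e.cost + 1) + d) Q) :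
    Spec E s (.ite e p q) (a + d) Q :=
  Spec.ite' (Expr.ok_cost_of_small hs).1 (Expr.ok_cost_of_small hs).2 hc h0 h1

/-- The rule for loops: `I t` holds before round `t`. -/
theorem Spec.loop {i : ℕ} {e : Expr} {p : Prog} {a d : ℕ} (n c : ℕ) (I : ℕ → State → Prop)
    (hs : e.small = true) (hc : e.cost + 1 ≤ a) (hd : n * (c + 2) ≤ d) (hn : e.eval s = n)
    (hnR : Bdd E s → n ≤ E.R) (h0 : Bdd E s → I 0 s)
    (hstep : ∀ t, t < n → ∀ s', Bdd E s' → Frame s s' (i :: p.wr) p.wa → I t s' →
      Spec E (s'.setReg i t) p c (I (t + 1))) :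
    Spec E s (.loop i e p) (a + d) (I n) := by
  intro hb
  subst hn
  have key : ∀ m, m ≤ e.eval s →
      I m (s.rounds (fun t s' => p.run E.ρ (s'.setReg i t)) m) ∧
      Bdd E (s.rounds (fun t s' => p.run E.ρ (s'.setReg i t)) m) ∧
      ∑ t ∈ Finset.range m,
        (p.time E.ρ ((s.rounds (fun t s' => p.run E.ρ (s'.setReg i t)) t).setReg i t) + 2) ≤
        m * (c + 2) ∧
      ((Finset.range m).sup fun t => p.top E.ρ
        ((s.rounds (fun t s' => p.run E.ρ (s'.setReg i t)) t).setReg i t)) < E.N := by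
    intro m
    induction m with
    | zero =>
      intro _
      have := E.R_lt_N
      exact ⟨h0 hb, hb, by simp, by simp; omega⟩
    | succ m ih =>
      intro hm
      obtain ⟨i1, i2, i3, i4⟩ := ih (by omega)
      have hfr : Frame s (s.rounds (fun t s' => p.run E.ρ (s'.setReg i t)) m)
          (i :: p.wr) p.wa := by
        apply frame_rounds
        intro t s'
        exact ((frame_setReg s' i t).mono (fun k hk => by simp_all)
          (fun k hk => by simp at hk)).trans
            ((p.frame E.ρ _).mono (fun k hk => by simp [hk]) (fun k hk => hk))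
      have hr := hnR hb
      obtain ⟨g1, g2, g3, g4⟩ := hstep m (by omega) _ i2 hfr i1 (i2.setReg i (by omega))
      refine ⟨g1, g2, ?_, ?_⟩
      · rw [Finset.sum_range_succ, Nat.succ_mul]
        omega
      · rw [Finset.range_add_one, Finset.sup_insert]
        exact max_lt g4 i4
  obtain ⟨k1, k2, k3, k4⟩ := key _ le_rfl
  exact ⟨k1, k2, (Nat.add_le_add (le_refl (e.cost + 1)) k3).trans (by omega),
    max_lt (Expr.top_lt_small hb e hs) k4⟩

/-- `min` as an expression. -/
def emin (e e' : Expr) : Expr := .op .sub e (.op .sub e e')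

/-- `max` as an expression. -/
def emax (e e' : Expr) : Expr := .op .add e (.op .sub e' e)

@[simp] theorem emin_eval (s : State) (e e' : Expr) :
    (emin e e').eval s = min (e.eval s) (e'.eval s) := by
  simp only [emin, Expr.eval, Op.eval]; omega

@[simp] theorem emax_eval (s : State) (e e' : Expr) :
    (emax e e').eval s = max (e.eval s) (e'.eval s) := by
  simp only [emax, Expr.eval, Op.eval]; omega

end Vale.Agent.P315
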