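import Vale.Agent.P315.Seg
import Vale.Agent.P315.Logic

/-! The banded dynamic program for the edit distance of two segments. -/

set_option autoImplicit false

namespace Vale.Agent.P315

/-- Sum. -/
def eadd (a b : Expr) : Expr := .op .add a b
/-- Truncated difference. -/
def esub (a b : Expr) : Expr := .op .sub a b
/-- Product. -/
def emul (a b : Expr) : Expr := .op .mul a b
/-- Quotient. -/
def ediv (a b : Expr) : Expr := .op .div a b
/-- Remainder. -/
def emod (a b : Expr) : Expr := .op .mod a b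
/-- Comparison. -/
def elt (a b : Expr) : Expr := .op .lt a b
/-- Equality. -/
def eeq (a b : Expr) : Expr := .op .eq a b

section
variable (s : State) (a b : Expr)
@[simp] theorem eadd_eval : (eadd a b).eval s = a.eval s + b.eval s := rfl
@[simp] theorem esub_eval : (esub a b).eval s = a.eval s - b.eval s := rfl
@[simp] theorem emul_eval : (emul a b).eval s = a.eval s * b.eval s := rfl
@[simp] theorem ediv_eval : (ediv a b).eval s = a.eval s / b.eval s := rfl
@[simp] theorem emod_eval : (emod a b).eval s = a.eval s % b.eval s := rfl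
@[simp] theorem elt_eval : (elt a b).eval s = if a.eval s < b.eval s then 1 else 0 := rfl
@[simp] theorem eeq_eval : (eeq a b).eval s = if a.eval s = b.eval s then 1 else 0 := rfl
@[simp] theorem reg_eval (i : ℕ) : (Expr.reg i).eval s = s.reg i := rfl
@[simp] theorem lit_eval (c : ℕ) : (Expr.lit c).eval s = c := rfl
@[simp] theorem get_eval (j : ℕ) : (Expr.get j a).eval s = s.arr j (a.eval s) := rfl
end

/-- One cell. -/
def dpCell : Prog :=
  .seq (.set 20 (eadd (eadd (.reg 16) (.lit 1)) (.reg 17)))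
  (.seq (.set 19 (.get 2 (.reg 20)))
  (.seq (.set 39 (.op .eq (.get 0 (eadd (.reg 10) (.reg 15)))
    (.get 1 (esub (eadd (.reg 12) (.reg 20)) (.lit 1)))))
  (.seq (.put 2 (.reg 20) (emin (emin (eadd (emin (.get 2 (esub (.reg 20) (.lit 1))) (.reg 19))
      (.lit 1)) (eadd (.reg 18) (esub (.lit 1) (.reg 39)))) (eadd (.reg 14) (.lit 1))))
    (.set 18 (.reg 19)))))

/-- One row. -/
def dpRow : Prog :=
  .seq (.set 16 (esub (.reg 15) (.reg 14)))
  (.seq (.set 18 (.get 2 (.reg 16)))
  (.seq (.put 2 (.reg 16) (emin (eadd (.reg 15) (.lit 1)) (eadd (.reg 14) (.lit 1))))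
    (.loop 17 (esub (emin (.reg 13) (eadd (eadd (.reg 15) (.lit 1)) (.reg 14))) (.reg 16))
      dpCell)))

/-- The dynamic program: afterwards array `2` holds at `j` the distance of `X[px, px+lx)` and
`Y[py, py+j)`, capped at `k + 1`. -/
def dp : Prog :=
  .seq (.loop 17 (eadd (.reg 13) (.lit 1)) (.put 2 (.reg 17) (emin (.reg 17)
    (eadd (.reg 14) (.lit 1)))))
    (.loop 15 (.reg 11) dpRow)

/-- Capped distance. -/
def cap (X Y : ℕ → ℕ) (px py k i j : ℕ) : ℕ := min (dist X Y px i py j) (k + 1)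

theorem cap_succ (X Y : ℕ → ℕ) (px py k i j : ℕ) : cap X Y px py k (i + 1) (j + 1) =
    min (min (min (cap X Y px py k (i + 1) j) (cap X Y px py k i (j + 1)) + 1)
      (cap X Y px py k i j + (1 - if X (px + i) = Y (py + j) then 1 else 0))) (k + 1) := by
  unfold cap
  rw [dist_succ_succ]
  split_ifs <;> omega

theorem cap_zero (X Y : ℕ → ℕ) (px py k j : ℕ) : cap X Y px py k 0 j = min j (k + 1) := by
  unfold cap; rw [dist_zero_left]

theorem cap_left (X Y : ℕ → ℕ) (px py k i : ℕ) : cap X Y px py k i 0 = min i (k + 1) := by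
  unfold cap; rw [dist_zero_right]

theorem cap_far (X Y : ℕ → ℕ) (px py k i j : ℕ) (h : i + k < j ∨ j + k < i) :
    cap X Y px py k i j = k + 1 := by
  have := le_dist X Y px i py j
  unfold cap; omega

theorem dpCell_spec {E : Env} {s : State} {X Y : ℕ → ℕ} {px py ly k i j0 t : ℕ}
    (h0 : s.arr 0 = X) (h1 : s.arr 1 = Y) (h10 : s.reg 10 = px) (h12 : s.reg 12 = py)
    (h14 : s.reg 14 = k) (h15 : s.reg 15 = i) (h16 : s.reg 16 = j0) (h17 : s.reg 17 = t)
    (hlyR : ly ≤ E.R) (hk : k + 1 ≤ E.R) (hj : j0 + 1 + t ≤ ly)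
    (hrow : ∀ j ≤ ly, s.arr 2 j = if j ≤ j0 + t then cap X Y px py k (i + 1) j
      else cap X Y px py k i j)
    (h18 : s.reg 18 = cap X Y px py k i (j0 + t)) :
    Spec E s dpCell (120 + 0) (fun s' => (∀ j ≤ ly, s'.arr 2 j = if j ≤ j0 + (t + 1) then
      cap X Y px py k (i + 1) j else cap X Y px py k i j) ∧
      s'.reg 18 = cap X Y px py k i (j0 + (t + 1))) := by
  have hup : s.arr 2 (j0 + 1 + t) = cap X Y px py k i (j0 + 1 + t) := by
    rw [hrow _ hj, if_neg (by omega)]
  have hleft : s.arr 2 (j0 + t) = cap X Y px py k (i + 1) (j0 + t) := by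
    rw [hrow _ (by omega), if_pos le_rfl]
  have hcap : ∀ i' j', cap X Y px py k i' j' ≤ k + 1 := fun i' j' => min_le_right _ _
  unfold dpCell
  refine Spec.set_seq (j0 + 1 + t) rfl (by decide) ?_ (fun _ => by omega) ?_
  · simp [h16, h17]
  refine Spec.set_seq (cap X Y px py k i (j0 + 1 + t)) rfl (by decide) ?_
    (fun _ => (hcap _ _).trans hk) ?_
  · simp [hup]
  refine Spec.cmp_seq (px + i) (py + (j0 + t)) rfl rfl (by decide) ?_ ?_ ?_
  · simp [h10, h15]
  · simp [h12]; omega
  refine Spec.put_seq (j0 + 1 + t) (cap X Y px py k (i + 1) (j0 + 1 + t)) (by norm_num)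
    rfl rfl (by decide) ?_ ?_ (fun _ => (hcap _ _).trans hk) ?_
  · simp
  · rw [show j0 + 1 + t = (j0 + t) + 1 by ring, cap_succ]
    simp [h18, h14, h0, h1, hleft, show j0 + t + 1 - 1 = j0 + t by omega]
  refine Spec.set (cap X Y px py k i (j0 + 1 + t)) rfl (by decide) ?_
    (fun _ => (hcap _ _).trans hk) ?_
  · simp
  · intro _
    refine ⟨?_, ?_⟩
    · intro j hjl
      by_cases hjj : j = j0 + 1 + t
      · subst hjj; simp; intro h; omega
      · simp [hjj, hrow j hjl]
        by_cases h2 : j ≤ j0 + t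
        · rw [if_pos h2, if_pos (by omega)]
        · rw [if_neg h2, if_neg (by omega)]
    · simp; congr 1; omega

theorem dpRow_spec {E : Env} {s : State} {X Y : ℕ → ℕ} {px py ly k i : ℕ}
    (h0 : s.arr 0 = X) (h1 : s.arr 1 = Y) (h10 : s.reg 10 = px) (h12 : s.reg 12 = py)
    (h13 : s.reg 13 = ly) (h14 : s.reg 14 = k) (h15 : s.reg 15 = i)
    (hk : k + 1 ≤ E.R) (hrow : ∀ j ≤ ly, s.arr 2 j = cap X Y px py k i j) :
    Spec E s dpRow (60 + min ly (2 * k + 1) * 122)
      (fun s' => ∀ j ≤ ly, s'.arr 2 j = cap X Y px py k (i + 1) j) := by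
  have hcap : ∀ i' j', cap X Y px py k i' j' ≤ k + 1 := fun i' j' => min_le_right _ _
  unfold dpRow
  refine Spec.set_seq (i - k) rfl (by decide) ?_ (fun hb => ?_) ?_
  · simp [h15, h14]
  · have := hb.reg 15; omega
  refine Spec.set_seq (s.arr 2 (i - k)) rfl (by decide) ?_ (fun hb => hb.arr 2 le_rfl _) ?_
  · simp
  refine Spec.put_seq (i - k) (min (i + 1) (k + 1)) (by norm_num) rfl rfl (by decide) ?_ ?_
    (fun _ => by omega) ?_
  · simp
  · simp [h15, h14]
  refine Spec.mono (Spec.loop (min ly (i + 1 + k) - (i - k)) (120 + 0)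
    (fun t s' => (∀ j ≤ ly, s'.arr 2 j = if j ≤ (i - k) + t then
      cap X Y px py k (i + 1) j else cap X Y px py k i j) ∧
      ((i - k) + t ≤ ly → s'.reg 18 = cap X Y px py k i ((i - k) + t))) rfl (by decide)
      (Nat.mul_le_mul_right 122 (by omega : min ly (i + 1 + k) - (i - k) ≤
        min ly (2 * k + 1))) ?_ ?_ ?_ ?_) le_rfl ?_
  · simp [h13, h14, h15]
  · intro hb; have := hb.reg 13; simp [h13] at this; omega
  · intro _
    refine ⟨?_, ?_⟩
    · intro j hj
      by_cases hjj : j = i - k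
      · subst hjj
        simp
        rcases Nat.lt_or_ge i k with h | h
        · rw [show i - k = 0 by omega, cap_left]; omega
        · rw [cap_far _ _ _ _ _ _ _ (by omega)]; omega
      · simp [hjj, hrow j hj]
        intro h2
        rw [cap_far _ _ _ _ _ _ _ (by omega), cap_far _ _ _ _ _ _ _ (by omega)]
    · intro h; simp [hrow (i - k) (by omega)]
  · intro t ht s' hb hfr hI
    have g0 : s'.arr 0 = X := by rw [hfr.arr 0 (by decide)]; simpa [State.setArr_arr_ne] using h0
    have g1 : s'.arr 1 = Y := by rw [hfr.arr 1 (by decide)]; simpa [State.setArr_arr_ne] using h1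
    have g10 : s'.reg 10 = px := by rw [hfr.reg 10 (by decide)]; simpa using h10
    have g12 : s'.reg 12 = py := by rw [hfr.reg 12 (by decide)]; simpa using h12
    have g14 : s'.reg 14 = k := by rw [hfr.reg 14 (by decide)]; simpa using h14
    have g15 : s'.reg 15 = i := by rw [hfr.reg 15 (by decide)]; simpa using h15
    have g16 : s'.reg 16 = i - k := by rw [hfr.reg 16 (by decide)]; simp
    have hly : ly ≤ E.R := by
      have := hb.reg 13
      have e : s'.reg 13 = ly := by rw [hfr.reg 13 (by decide)]; simpa using h13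
      omega
    refine Spec.mono (dpCell_spec (X := X) (Y := Y) (px := px) (py := py) (ly := ly) (k := k)
      (i := i) (j0 := i - k) (t := t) (by simpa using g0) (by simpa using g1)
      (by simpa using g10) (by simpa using g12) (by simpa using g14) (by simpa using g15)
      (by simpa using g16) (by simp) hly hk (by omega) (by simpa using hI.1)
      (by simpa using hI.2 (by omega))) le_rfl ?_
    intro s'' h
    exact ⟨h.1, fun _ => h.2⟩
  · rintro s' ⟨h, -⟩ j hj
    rw [h j hj]
    by_cases h2 : j ≤ (i - k) + (min ly (i + 1 + k) - (i - k))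
    · rw [if_pos h2]
    · rw [if_neg h2, cap_far _ _ _ _ _ _ _ (by omega), cap_far _ _ _ _ _ _ _ (by omega)]

theorem dp_spec {E : Env} {s : State} {X Y : ℕ → ℕ} {px lx py ly k : ℕ}
    (h0 : s.arr 0 = X) (h1 : s.arr 1 = Y) (h10 : s.reg 10 = px) (h11 : s.reg 11 = lx)
    (h12 : s.reg 12 = py) (h13 : s.reg 13 = ly) (h14 : s.reg 14 = k)
    (hk : k + 1 ≤ E.R) (hly : ly + 1 ≤ E.R) :
    Spec E s dp (10 + ((ly + 1) * 14 + lx * (62 + min ly (2 * k + 1) * 122)))
      (fun s' => ∀ j ≤ ly, s'.arr 2 j = cap X Y px py k lx j) := by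
  unfold dp
  refine Spec.seq 6 ((ly + 1) * 14) 4 (lx * (62 + min ly (2 * k + 1) * 122))
    (fun s' => ∀ j ≤ ly, s'.arr 2 j = cap X Y px py k 0 j) (by norm_num) le_rfl ?_ ?_
  · refine Spec.mono (Spec.loop (ly + 1) (12 + 0) (fun t s' => ∀ j < t, s'.arr 2 j =
        cap X Y px py k 0 j) rfl (by decide) le_rfl ?_ ?_ ?_ ?_) le_rfl ?_
    · simp [h13]
    · intro _; omega
    · intro _ j hj; omega
    · intro t ht s' hb hfr hI
      have g14 : s'.reg 14 = k := by rw [hfr.reg 14 (by decide)]; exact h14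
      refine Spec.put t (min t (k + 1)) (by norm_num) rfl rfl (by decide) ?_ ?_
        (fun _ => by omega) ?_
      · simp
      · simp [g14]
      · intro _ j hj
        by_cases hjt : j = t
        · subst hjt; simp [cap_zero]
        · simp [hjt, hI j (by omega)]
    · intro s' h j hj; exact h j (by omega)
  · intro s1 hfr1 hrow
    refine Spec.loop lx (60 + min ly (2 * k + 1) * 122) (fun t s' => ∀ j ≤ ly,
      s'.arr 2 j = cap X Y px py k t j) rfl (by decide) (by apply le_of_eq; ring) ?_ ?_ ?_ ?_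
    · simp [hfr1.reg 11 (by decide), h11]
    · intro hb
      have := hb.reg 11
      rwa [hfr1.reg 11 (by decide), h11] at this
    · intro _; exact hrow
    · intro t ht s' hb hfr hI
      refine dpRow_spec (X := X) (Y := Y) ?_ ?_ ?_ ?_ ?_ ?_ ?_ hk ?_
      · simp only [State.setReg_arr]
        rw [hfr.arr 0 (by decide), hfr1.arr 0 (by decide)]; exact h0
      · simp only [State.setReg_arr]
        rw [hfr.arr 1 (by decide), hfr1.arr 1 (by decide)]; exact h1
      · simp; rw [hfr.reg 10 (by decide), hfr1.reg 10 (by decide)]; exact h10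
      · simp; rw [hfr.reg 12 (by decide), hfr1.reg 12 (by decide)]; exact h12
      · simp; rw [hfr.reg 13 (by decide), hfr1.reg 13 (by decide)]; exact h13
      · simp; rw [hfr.reg 14 (by decide), hfr1.reg 14 (by decide)]; exact h14
      · simp
      · simpa using hI

end Vale.Agent.P315
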