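import Vale.Agent.P315.Main

/-! Bounds for the running time. -/

set_option autoImplicit false

namespace Vale.Agent.P315

theorem one_le_prod {a b : ℕ} (ha : 1 ≤ a) (hb : 1 ≤ b) : 1 ≤ a * b := Nat.mul_pos ha hb

theorem cCell_le (P : Par) (hM : 2 ≤ P.M) (k : ℕ) :
    44 + cCell P k ≤ 452 * (P.M ^ 5 * P.r k ^ 2) := by
  have hr : 1 ≤ P.r k := Nat.one_le_pow _ _ (by omega)
  have hM3 : 1 ≤ P.M ^ 3 := Nat.one_le_pow _ _ (by omega)
  have hM2 : 1 ≤ P.M ^ 2 := Nat.one_le_pow _ _ (by omega)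
  have e0 : P.M ^ 5 * P.r k ^ 2 = P.M ^ 2 * P.r k * (P.M ^ 3 * P.r k) := by ring
  have h1 : P.M ^ 3 * P.r k ≤ P.M ^ 5 * P.r k ^ 2 := by
    rw [e0]; exact Nat.le_mul_of_pos_left _ (Nat.mul_pos hM2 hr)
  have h2 : P.M ^ 2 * P.r k ≤ P.M ^ 5 * P.r k ^ 2 := by
    rw [e0]; exact Nat.le_mul_of_pos_right _ (Nat.mul_pos hM3 hr)
  have h3 : P.M ^ 3 ≤ P.M ^ 3 * P.r k := Nat.le_mul_of_pos_right _ hr
  have h4 : P.H * P.r k ≤ 2 * (P.M ^ 3 * P.r k) := by
    unfold Par.H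
    calc (P.M ^ 3 + 1) * P.r k ≤ (P.M ^ 3 + P.M ^ 3) * P.r k :=
          Nat.mul_le_mul_right _ (by omega)
      _ = _ := by ring
  have h5 : P.l k * (62 + P.H * P.r k * 122) ≤ 306 * (P.M ^ 5 * P.r k ^ 2) := by
    have e1 : P.l k = P.M ^ 2 * P.r k := by unfold Par.l; ring
    calc P.l k * (62 + P.H * P.r k * 122) ≤ P.l k * (62 + 2 * (P.M ^ 3 * P.r k) * 122) :=
          Nat.mul_le_mul_left _ (by omega)
      _ = 62 * (P.M ^ 2 * P.r k) + 244 * (P.M ^ 5 * P.r k ^ 2) := by rw [e1]; ring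
      _ ≤ _ := by omega
  have h6 : P.H = P.M ^ 3 + 1 := rfl
  unfold cCell
  rw [h6] at h4 h5 ⊢
  have h7 : (P.M ^ 3 + 1) * P.r k + 1 ≤ 3 * (P.M ^ 5 * P.r k ^ 2) := by omega
  have h8 : P.M ^ 3 + 1 + 1 ≤ 3 * (P.M ^ 5 * P.r k ^ 2) := by omega
  -- 42 + 306 + 60 + 44
  omega

theorem G_bound (P : Par) {k : ℕ} (hly : P.ly ≤ P.n) (hr : P.r k ≤ P.n) :
    (P.G k + 1) * P.r k ≤ 2 * P.n := by
  have : P.G k * P.r k ≤ P.ly := Nat.div_mul_le_self _ _
  rw [Nat.add_mul, Nat.one_mul]; omega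

theorem block_time (P : Par) (hM : 2 ≤ P.M) (hlx : P.lx ≤ P.n) (hly : P.ly ≤ P.n) {k : ℕ}
    (hv : P.Valid k) : P.M * (P.B k * (20 + cBlock P k)) ≤ 1312 * (P.n * P.n) := by
  have hr : 1 ≤ P.r k := Nat.one_le_pow _ _ (by omega)
  obtain ⟨b1, b2, b3, b4, b5, b6, b7⟩ := P.bounds hM hv
  have hrn : P.r k ≤ P.n := by
    have : P.r k * 1 ≤ P.r k * P.M ^ 16 := Nat.mul_le_mul_left _ (Nat.one_le_pow _ _ (by omega))
    have h2 : P.r k * P.M ^ 16 ≤ P.n := hv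
    omega
  have hG := G_bound P hly hrn
  set g := P.G k + 1 with hg
  have hg1 : 1 ≤ g := by omega
  have hc := cCell_le P hM k
  have hMp : ∀ j, 1 ≤ P.M ^ j := fun j => Nat.one_le_pow _ _ (by omega)
  have hr2 : P.M ^ 10 ≤ P.r k ^ 2 := by
    unfold Par.r
    rw [← pow_mul]
    exact Nat.pow_le_pow_right (by omega) (by omega)
  have hx : 1 ≤ P.M ^ 13 * P.r k ^ 2 := one_le_prod (hMp 13) (Nat.one_le_pow _ _ hr)
  have hgx : 1 ≤ g * (P.M ^ 13 * P.r k ^ 2) := one_le_prod hg1 hx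
  have p1 : P.m * (10 + g * (44 + cCell P k)) ≤ 462 * (g * (P.M ^ 13 * P.r k ^ 2)) := by
    have hy : 1 ≤ g * (P.M ^ 5 * P.r k ^ 2) :=
      one_le_prod hg1 (one_le_prod (hMp 5) (Nat.one_le_pow _ _ hr))
    calc P.m * (10 + g * (44 + cCell P k)) ≤
          P.m * (10 * (g * (P.M ^ 5 * P.r k ^ 2)) + g * (452 * (P.M ^ 5 * P.r k ^ 2))) := by
          apply Nat.mul_le_mul_left
          have := Nat.mul_le_mul_left g hc
          omega
      _ = _ := by unfold Par.m; ring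
  have p2 : g * (14 + (P.hm + 1) * (42 + P.m * 38)) ≤ 174 * (g * (P.M ^ 13 * P.r k ^ 2)) := by
    have q1 : P.hm + 1 ≤ 2 * P.M ^ 15 := by
      have : P.hm = P.M ^ 15 := by unfold Par.hm Par.Q; ring
      have := hMp 15
      omega
    have q2 : 42 + P.m * 38 ≤ 80 * P.M ^ 8 := by
      have := hMp 8
      unfold Par.m; omega
    have q3 : (P.hm + 1) * (42 + P.m * 38) ≤ 160 * P.M ^ 23 := by
      calc (P.hm + 1) * (42 + P.m * 38) ≤ 2 * P.M ^ 15 * (80 * P.M ^ 8) :=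
            Nat.mul_le_mul q1 q2
        _ = _ := by ring
    have q4 : P.M ^ 23 ≤ P.M ^ 13 * P.r k ^ 2 := by
      calc P.M ^ 23 = P.M ^ 13 * P.M ^ 10 := by ring
        _ ≤ _ := Nat.mul_le_mul_left _ hr2
    calc g * (14 + (P.hm + 1) * (42 + P.m * 38)) ≤ g * (174 * (P.M ^ 13 * P.r k ^ 2)) := by
          apply Nat.mul_le_mul_left
          omega
      _ = _ := by ring
  have p3 : 20 + cBlock P k ≤ 656 * (g * (P.M ^ 13 * P.r k ^ 2)) := by
    unfold cBlock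
    rw [← hg]
    omega
  have hBW : P.B k * P.W k ≤ P.n := (Nat.div_mul_le_self _ _).trans hlx
  calc P.M * (P.B k * (20 + cBlock P k)) ≤
        P.M * (P.B k * (656 * (g * (P.M ^ 13 * P.r k ^ 2)))) :=
        Nat.mul_le_mul_left _ (Nat.mul_le_mul_left _ p3)
    _ = 656 * ((P.B k * P.W k) * (g * P.r k)) := by
        unfold Par.W Par.l Par.Q; ring
    _ ≤ 656 * (P.n * (2 * P.n)) := Nat.mul_le_mul_left _ (Nat.mul_le_mul hBW hG)
    _ = _ := by ring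

theorem big_time (P : Par) (hM : 2 ≤ P.M) (hlx : P.lx ≤ P.n) (hly : P.ly ≤ P.n)
    (hn : P.M ^ 21 ≤ P.n) :
    P.M * cBig P (1312 * (P.n * P.n) / P.M) ≤ (162 + 1692 * P.K) * (P.n * P.n) := by
  have hv0 : P.Valid 0 := by
    show P.M ^ (5 + 0) * P.M ^ 16 ≤ P.n
    rw [← pow_add]; exact hn
  have hMp : ∀ j, 1 ≤ P.M ^ j := fun j => Nat.one_le_pow _ _ (by omega)
  have hpow : ∀ j, j ≤ 21 → P.M ^ j ≤ P.n := fun j hj =>
    (Nat.pow_le_pow_right (by omega) hj).trans hn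
  have hn1 : 1 ≤ P.n := (hMp 21).trans hn
  have hnn : P.n ≤ P.n * P.n := Nat.le_mul_of_pos_left _ hn1
  have hr : 1 ≤ P.r 0 := hMp _
  have hrn : P.r 0 ≤ P.n := hpow _ (by omega)
  have hG := G_bound P hly hrn
  set g := P.G 0 + 1 with hg
  have hg1 : 1 ≤ g := by omega
  have hBW : P.B 0 * P.W 0 ≤ P.n := (Nat.div_mul_le_self _ _).trans hlx
  have t1 : P.M * (P.m * 12) ≤ 12 * (P.n * P.n) := by
    have := hpow 9 (by omega)
    calc P.M * (P.m * 12) = 12 * P.M ^ 9 := by unfold Par.m; ring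
      _ ≤ _ := by omega
  have t2 : P.M * (P.K * (60 + 1312 * (P.n * P.n) / P.M)) ≤ 1372 * P.K * (P.n * P.n) := by
    have h1 : P.M * (1312 * (P.n * P.n) / P.M) ≤ 1312 * (P.n * P.n) := Nat.mul_div_le _ _
    have h2 : P.M ≤ P.n := by simpa using hpow 1 (by omega)
    have h3 : P.M * (60 + 1312 * (P.n * P.n) / P.M) ≤ 1372 * (P.n * P.n) := by
      rw [Nat.mul_add]; omega
    calc P.M * (P.K * (60 + 1312 * (P.n * P.n) / P.M)) =
          P.K * (P.M * (60 + 1312 * (P.n * P.n) / P.M)) := by ring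
      _ ≤ P.K * (1372 * (P.n * P.n)) := Nat.mul_le_mul_left _ h3
      _ = _ := by ring
  have hMr : P.M ≤ P.r 0 := by
    calc P.M = P.M ^ 1 := (pow_one _).symm
      _ ≤ _ := Nat.pow_le_pow_right (by omega) (by omega)
  have t3 : P.M * (g * 7) ≤ 14 * (P.n * P.n) := by
    have : P.M * g ≤ g * P.r 0 := by rw [Nat.mul_comm]; exact Nat.mul_le_mul_left _ hMr
    calc P.M * (g * 7) = 7 * (P.M * g) := by ring
      _ ≤ _ := by omega
  have t4 : P.M * (P.B 0 * (6 + g * (62 + P.K * (52 + (P.hm + 1) * 54)))) ≤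
      (136 + 320 * P.K) * (P.n * P.n) := by
    have q1 : P.hm + 1 ≤ 2 * P.M ^ 15 := by
      have : P.hm = P.M ^ 15 := by unfold Par.hm Par.Q; ring
      have := hMp 15
      omega
    have q2 : 52 + (P.hm + 1) * 54 ≤ 160 * P.M ^ 15 := by
      have := hMp 15; omega
    have q3 : 6 + g * (62 + P.K * (52 + (P.hm + 1) * 54)) ≤
        (68 + 160 * P.K) * (g * P.M ^ 15) := by
      have h1 : 1 ≤ g * P.M ^ 15 := one_le_prod hg1 (hMp 15)
      have h2 : g ≤ g * P.M ^ 15 := Nat.le_mul_of_pos_right _ (hMp 15)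
      have h3 : g * (P.K * (52 + (P.hm + 1) * 54)) ≤ 160 * P.K * (g * P.M ^ 15) := by
        calc g * (P.K * (52 + (P.hm + 1) * 54)) ≤ g * (P.K * (160 * P.M ^ 15)) :=
              Nat.mul_le_mul_left _ (Nat.mul_le_mul_left _ q2)
          _ = _ := by ring
      rw [Nat.mul_add g, Nat.add_mul 68]
      omega
    calc P.M * (P.B 0 * (6 + g * (62 + P.K * (52 + (P.hm + 1) * 54))))
        ≤ P.M * (P.B 0 * ((68 + 160 * P.K) * (g * P.M ^ 15))) :=
          Nat.mul_le_mul_left _ (Nat.mul_le_mul_left _ q3)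
      _ = (68 + 160 * P.K) * (P.B 0 * g * P.M ^ 16) := by ring
      _ ≤ (68 + 160 * P.K) * (P.B 0 * g * P.M ^ 24) :=
          Nat.mul_le_mul_left _ (Nat.mul_le_mul_left _ (Nat.pow_le_pow_right (by omega)
            (by omega)))
      _ = (68 + 160 * P.K) * ((P.B 0 * P.W 0) * (g * P.r 0)) := by
          unfold Par.W Par.l Par.Q Par.r; ring
      _ ≤ (68 + 160 * P.K) * (P.n * (2 * P.n)) :=
          Nat.mul_le_mul_left _ (Nat.mul_le_mul hBW hG)
      _ = _ := by ring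
  unfold cBig
  rw [← hg]
  calc P.M * (P.m * 12 + P.K * (60 + 1312 * (P.n * P.n) / P.M) + (g * 7 +
        P.B 0 * (6 + g * (62 + P.K * (52 + (P.hm + 1) * 54)))))
      = P.M * (P.m * 12) + P.M * (P.K * (60 + 1312 * (P.n * P.n) / P.M)) + (P.M * (g * 7) +
        P.M * (P.B 0 * (6 + g * (62 + P.K * (52 + (P.hm + 1) * 54))))) := by ring
    _ ≤ 12 * (P.n * P.n) + 1372 * P.K * (P.n * P.n) + (14 * (P.n * P.n) +
        (136 + 320 * P.K) * (P.n * P.n)) :=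
        Nat.add_le_add (Nat.add_le_add t1 t2) (Nat.add_le_add t3 t4)
    _ = _ := by ring

/-- The time of the whole program for large base. -/
theorem total_time (P : Par) (g : ℕ) (hM : 2 ≤ P.M) (hlx : P.lx ≤ P.n) (hly : P.ly ≤ P.n)
    (hn : P.M ^ 21 ≤ P.n) :
    P.M * (400 + (P.n * (4 * g + 20) + ((P.ly + 1) * 14 + P.lx * (62 + (2 * (P.n / P.M) + 1) *
      122)) + cBig P (1312 * (P.n * P.n) / P.M))) ≤
      (1038 + 4 * g + 1692 * P.K) * (P.n * P.n) := by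
  have hb := big_time P hM hlx hly hn
  have hMp : ∀ j, 1 ≤ P.M ^ j := fun j => Nat.one_le_pow _ _ (by omega)
  have hn1 : 1 ≤ P.n := (hMp 21).trans hn
  have hMn : P.M ≤ P.n := by
    have := (Nat.pow_le_pow_right (n := P.M) (by omega) (show 1 ≤ 21 by omega)).trans hn
    simpa using this
  have h1 : P.M * 400 ≤ 400 * (P.n * P.n) := by nlinarith
  have h2 : P.M * (P.n * (4 * g + 20)) ≤ (4 * g + 20) * (P.n * P.n) := by
    calc P.M * (P.n * (4 * g + 20)) ≤ P.n * (P.n * (4 * g + 20)) := Nat.mul_le_mul_right _ hMn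
      _ = _ := by ring
  have h3 : P.M * ((P.ly + 1) * 14) ≤ 28 * (P.n * P.n) := by
    calc P.M * ((P.ly + 1) * 14) ≤ P.n * ((2 * P.n) * 14) :=
          Nat.mul_le_mul hMn (Nat.mul_le_mul_right _ (by omega))
      _ = _ := by ring
  have h4 : P.M * (P.lx * (62 + (2 * (P.n / P.M) + 1) * 122)) ≤ 428 * (P.n * P.n) := by
    have q1 : P.M * (P.n / P.M) ≤ P.n := Nat.mul_div_le _ _
    have q2 : P.M * (62 + (2 * (P.n / P.M) + 1) * 122) ≤ 428 * P.n := by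
      calc P.M * (62 + (2 * (P.n / P.M) + 1) * 122) = 184 * P.M + 244 * (P.M * (P.n / P.M)) := by
            ring
        _ ≤ _ := by omega
    calc P.M * (P.lx * (62 + (2 * (P.n / P.M) + 1) * 122)) =
          P.lx * (P.M * (62 + (2 * (P.n / P.M) + 1) * 122)) := by ring
      _ ≤ P.n * (428 * P.n) := Nat.mul_le_mul hlx q2
      _ = _ := by ring
  calc P.M * (400 + (P.n * (4 * g + 20) + ((P.ly + 1) * 14 + P.lx * (62 + (2 * (P.n / P.M) + 1) *
      122)) + cBig P (1312 * (P.n * P.n) / P.M)))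
      = P.M * 400 + (P.M * (P.n * (4 * g + 20)) + (P.M * ((P.ly + 1) * 14) +
        P.M * (P.lx * (62 + (2 * (P.n / P.M) + 1) * 122))) +
        P.M * cBig P (1312 * (P.n * P.n) / P.M)) := by ring
    _ ≤ 400 * (P.n * P.n) + ((4 * g + 20) * (P.n * P.n) + (28 * (P.n * P.n) +
        428 * (P.n * P.n)) + (162 + 1692 * P.K) * (P.n * P.n)) :=
        Nat.add_le_add h1 (Nat.add_le_add (Nat.add_le_add h2 (Nat.add_le_add h3 h4)) hb)
    _ = _ := by ring

end Vale.Agent.P315
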