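import Vale.Agent.P315.Prob
import Vale.Agent.P315.Time

/-! Assembly. -/

set_option autoImplicit false

namespace Vale.Agent.P315

open Filter Topology

/-- Choice of the least base. -/
theorem exists_base (g K : ℕ) (ε : ℝ) (hε : 0 < ε) : ∃ M0 : ℕ, 2 ≤ M0 ∧ ∀ M : ℕ, M0 ≤ M →
    (19 + 10 * K : ℝ) ≤ ε * M ∧
    6 * (K : ℝ) * ((2 * (M : ℝ)) ^ g) ^ 3 ≤ Real.exp ((M : ℝ) ^ 2 / 16) := by
  have h1 : Tendsto (fun M : ℕ => ((M : ℝ) / 16)) atTop atTop :=
    tendsto_natCast_atTop_atTop.atTop_div_const (by norm_num)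
  have h2 := (Real.tendsto_pow_mul_exp_neg_atTop_nhds_zero (3 * g)).comp h1
  have h3 := h2.const_mul (6 * (K : ℝ) * 32 ^ (3 * g))
  rw [mul_zero] at h3
  have h4 : ∀ᶠ M : ℕ in atTop, 6 * (K : ℝ) * 32 ^ (3 * g) *
      ((fun x => x ^ (3 * g) * Real.exp (-x)) ∘ fun M : ℕ => ((M : ℝ) / 16)) M < 1 :=
    h3.eventually (gt_mem_nhds zero_lt_one)
  have h5 : ∀ᶠ M : ℕ in atTop, (19 + 10 * K : ℝ) / ε ≤ (M : ℝ) :=
    tendsto_natCast_atTop_atTop.eventually_ge_atTop _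
  obtain ⟨M1, hM1⟩ := (h4.and (h5.and (eventually_ge_atTop 2))).exists_forall_of_atTop
  refine ⟨max M1 2, le_max_right _ _, fun M hM => ?_⟩
  obtain ⟨c1, c2, c3⟩ := hM1 M ((le_max_left _ _).trans hM)
  have hM' : (2 : ℝ) ≤ M := by exact_mod_cast c3
  refine ⟨?_, ?_⟩
  · rw [div_le_iff₀ hε] at c2; linarith
  · simp only [Function.comp] at c1
    have e1 : ((2 * (M : ℝ)) ^ g) ^ 3 = 32 ^ (3 * g) * ((M : ℝ) / 16) ^ (3 * g) := by
      rw [← mul_pow, ← pow_mul]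
      congr 1
      · ring
      · ring
    have e2 : Real.exp ((M : ℝ) / 16) ≤ Real.exp ((M : ℝ) ^ 2 / 16) := by
      apply Real.exp_le_exp.mpr
      have : (M : ℝ) ≤ (M : ℝ) ^ 2 := by nlinarith
      linarith
    have e3 : Real.exp (-((M : ℝ) / 16)) * Real.exp ((M : ℝ) / 16) = 1 := by
      rw [← Real.exp_add]; simp
    have e4 := Real.exp_pos ((M : ℝ) / 16)
    rw [e1]
    calc 6 * (K : ℝ) * (32 ^ (3 * g) * ((M : ℝ) / 16) ^ (3 * g))
        = (6 * (K : ℝ) * 32 ^ (3 * g) * (((M : ℝ) / 16) ^ (3 * g) *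
          Real.exp (-((M : ℝ) / 16)))) * Real.exp ((M : ℝ) / 16) := by
          rw [show (6 * (K : ℝ) * 32 ^ (3 * g) * (((M : ℝ) / 16) ^ (3 * g) *
            Real.exp (-((M : ℝ) / 16)))) * Real.exp ((M : ℝ) / 16) =
            6 * (K : ℝ) * (32 ^ (3 * g) * ((M : ℝ) / 16) ^ (3 * g)) *
            (Real.exp (-((M : ℝ) / 16)) * Real.exp ((M : ℝ) / 16)) by ring, e3, mul_one]
      _ ≤ 1 * Real.exp ((M : ℝ) / 16) := mul_le_mul_of_nonneg_right c1.le e4.le
      _ ≤ _ := by rw [one_mul]; exact e2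

/-- Selection of a scale. -/
theorem select_scale (P : Par) {g : ℕ} {γ : ℝ} (hg : 21 ≤ γ * g) (hγ0 : 0 < γ)
    (hM : 2 ≤ P.M) (hMn : P.M ^ g ≤ P.n) (hnM : P.n < (2 * P.M) ^ g) (hK : P.K = 2 * g)
    (hlx : P.lx ≤ P.n) : ∀ r w : ℕ, 1 ≤ r → (P.n : ℝ) ^ γ * r ≤ w → w ≤ P.lx →
      ∃ k < P.K, P.Valid k ∧ r ≤ P.r k ∧ P.M ^ 2 * P.W k ≤ w := by
  intro r w hr hS hw
  have hM' : (2 : ℝ) ≤ P.M := by exact_mod_cast hM
  have hn1 : 1 ≤ P.n := (Nat.one_le_pow g P.M (by omega)).trans hMn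
  have hn1' : (1 : ℝ) ≤ P.n := by exact_mod_cast hn1
  have hr' : (1 : ℝ) ≤ r := by exact_mod_cast hr
  have hpos : (0 : ℝ) ≤ (P.n : ℝ) ^ γ := by positivity
  have h21 : (P.M : ℝ) ^ 21 ≤ (P.n : ℝ) ^ γ := by
    calc (P.M : ℝ) ^ 21 = (P.M : ℝ) ^ ((21 : ℕ) : ℝ) := (Real.rpow_natCast _ _).symm
      _ ≤ (P.M : ℝ) ^ (γ * g) := Real.rpow_le_rpow_of_exponent_le (by linarith) (by
          push_cast; exact hg)
      _ = (((P.M : ℝ) ^ g)) ^ γ := by
          rw [mul_comm, Real.rpow_mul (by linarith), Real.rpow_natCast]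
      _ ≤ (P.n : ℝ) ^ γ := Real.rpow_le_rpow (by positivity) (by exact_mod_cast hMn) hγ0.le
  have hMg : P.n < P.M ^ (2 * g) := by
    calc P.n < (2 * P.M) ^ g := hnM
      _ ≤ (P.M * P.M) ^ g := Nat.pow_le_pow_left (Nat.mul_le_mul_right _ hM) _
      _ = P.M ^ (2 * g) := by rw [← pow_two, ← pow_mul]
  have hrw : r ≤ w := by
    have h1 : (1 : ℝ) ≤ (P.n : ℝ) ^ γ := Real.one_le_rpow hn1' hγ0.le
    have : (r : ℝ) ≤ w := by nlinarith
    exact_mod_cast this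
  have hex : ∃ k, r ≤ P.r k := by
    refine ⟨2 * g, ?_⟩
    have : P.M ^ (2 * g) ≤ P.r (2 * g) := Nat.pow_le_pow_right (by omega) (by omega)
    omega
  classical
  set k := Nat.find hex with hk
  have hkr : r ≤ P.r k := Nat.find_spec hex
  have hWk : P.M ^ 2 * P.W k = P.M ^ (21 + k) := by
    unfold Par.W Par.l Par.Q Par.r; ring
  have hle : P.M ^ (21 + k) ≤ w := by
    rcases Nat.eq_zero_or_pos k with h0 | h0
    · rw [h0]
      have : (P.M : ℝ) ^ 21 ≤ w := by nlinarith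
      exact_mod_cast this
    · have hmin : P.r (k - 1) < r := by
        by_contra hc
        have := Nat.find_min' hex (not_lt.mp hc)
        omega
      have e1 : P.M ^ (21 + k) = P.M ^ 17 * P.r (k - 1) := by
        unfold Par.r; rw [← pow_add]; congr 1; omega
      have e2 : (P.M : ℝ) ^ 17 ≤ (P.M : ℝ) ^ 21 := pow_le_pow_right₀ (by linarith) (by norm_num)
      have e3 : ((P.M ^ (21 + k) : ℕ) : ℝ) ≤ w := by
        rw [e1]; push_cast
        have e4 : (P.r (k - 1) : ℝ) ≤ r := by exact_mod_cast hmin.le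
        calc (P.M : ℝ) ^ 17 * P.r (k - 1) ≤ (P.n : ℝ) ^ γ * r := by
              apply mul_le_mul (e2.trans h21) e4 (by positivity) hpos
          _ ≤ w := hS
      exact_mod_cast e3
  refine ⟨k, ?_, ?_, hkr, by rw [hWk]; exact hle⟩
  · rw [hK]
    have h1 : P.M ^ (21 + k) < P.M ^ (2 * g) := by omega
    have := (Nat.pow_lt_pow_iff_right (show 1 < P.M by omega)).mp h1
    omega
  · show P.r k * P.M ^ 16 ≤ P.n
    have : P.r k * P.M ^ 16 = P.M ^ (21 + k) := by unfold Par.r; ring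
    omega

/-- The guarantee for the value of the last phase. -/
theorem out_guarantee {x y : List ℕ} {ρ : ℕ → ℕ} {n M K g : ℕ} {γ ε : ℝ}
    (hn : n = max x.length y.length)
    (hg : 21 ≤ γ * g) (hγ1 : γ ≤ 1) (hγ0 : 0 < γ) (hM : 2 ≤ M) (hMn : M ^ g ≤ n)
    (hnM : n < (2 * M) ^ g) (hK : K = 2 * g) (hMe : (19 + 10 * K : ℝ) ≤ ε * M)
    (hED : ¬ ED x y ≤ n / M)
    (hA : Acc (mkPar ρ (fun i => x.getD i 0) (fun i => y.getD i 0) x.length y.length n M K)) :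
    Guarantee ε γ x y n
      (mkPar ρ (fun i => x.getD i 0) (fun i => y.getD i 0) x.length y.length n M K).out := by
  set P := mkPar ρ (fun i => x.getD i 0) (fun i => y.getD i 0) x.length y.length n M K with hP
  have hPM : P.M = M := rfl
  have hPn : P.n = n := rfl
  have hPK : P.K = K := rfl
  have hM2 : 2 ≤ P.M := hM
  have hlx : P.lx ≤ P.n := by show x.length ≤ n; omega
  have hg21 : 21 ≤ g := by
    have : (21 : ℝ) ≤ g := by
      have h0 : (0 : ℝ) ≤ g := by positivity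
      nlinarith
    exact_mod_cast this
  have h21 : M ^ 21 ≤ n := (Nat.pow_le_pow_right (by omega) hg21).trans hMn
  refine ⟨?_, ?_⟩
  · rw [ED_eq_dist]
    exact P.sound_out hM2 hA
  · intro f hf
    have hend : f P.lx = P.ly := hf.2
    have h1 := P.out_le hM2 hA hf.1 hend
    have h2 := bad_le P hM2 hlx (f := f) (S := (n : ℝ) ^ γ)
      (select_scale P hg hγ0 hM2 hMn hnM hK hlx)
    have hcost : alignCost x y f = prefixCost P.X P.Y f P.lx := alignCost_eq hf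
    have hEDc := ED_le_alignCost hf
    rw [hcost] at hEDc ⊢
    set F := prefixCost P.X P.Y f P.lx with hF
    have hM' : (2 : ℝ) ≤ M := by exact_mod_cast hM
    have hMpos : (0 : ℝ) < M := by linarith
    -- n < M * F
    have h3 : n < M * F := by
      have : n / M < F := by omega
      rw [Nat.div_lt_iff_lt_mul (by omega)] at this
      rw [Nat.mul_comm]; exact this
    have h3' : (n : ℝ) < M * F := by exact_mod_cast h3
    -- the three error terms, multiplied by M ^ 2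
    have h4 : M ^ 2 * (P.B 0 * (P.Q * P.r 0)) ≤ n := by
      have : M ^ 2 * (P.B 0 * (P.Q * P.r 0)) = P.B 0 * P.W 0 := by
        unfold Par.W Par.l; rw [hPM]; ring
      rw [this]
      exact (Nat.div_mul_le_self _ _).trans hlx
    have h4' : (M : ℝ) ^ 2 * (P.B 0 * (P.Q * P.r 0)) ≤ n := by exact_mod_cast h4
    have h5 : M ^ 2 * P.W 0 ≤ n := by
      have : M ^ 2 * P.W 0 = M ^ 21 := by unfold Par.W Par.l Par.Q Par.r; rw [hPM]; ring
      omega
    have h5' : (M : ℝ) ^ 2 * P.W 0 ≤ n := by exact_mod_cast h5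
    have h6 : P.r 0 ≤ P.W 0 := by
      unfold Par.W Par.l Par.Q
      have h7 : 1 ≤ P.M * P.M * P.M ^ 12 := Nat.mul_pos (Nat.mul_pos (by omega) (by omega))
        (Nat.pow_pos (by omega))
      calc P.r 0 = P.r 0 * 1 := (Nat.mul_one _).symm
        _ ≤ P.r 0 * (P.M * P.M * P.M ^ 12) := Nat.mul_le_mul_left _ h7
        _ = _ := by ring
    have h6' : (P.r 0 : ℝ) ≤ P.W 0 := by exact_mod_cast h6
    have h2' : (M : ℝ) ^ 2 * (P.W 0 * badCount P f (P.B 0)) ≤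
        (M : ℝ) ^ 2 * rough f x.length ((n : ℝ) ^ γ) + K * (5 * n) := by exact_mod_cast h2
    have hM2pos : (0 : ℝ) < (M : ℝ) ^ 2 := by positivity
    have hF0 : (0 : ℝ) ≤ F := by positivity
    have key : (M : ℝ) ^ 2 * P.out ≤ (M : ℝ) ^ 2 * ((1 + ε) * F +
        2 * rough f x.length ((n : ℝ) ^ γ)) := by
      have e1 : (M : ℝ) ^ 2 * P.out ≤ (M : ℝ) ^ 2 * ((1 + 4 / (M : ℝ)) * F +
          12 * (P.B 0 * (P.Q * P.r 0)) + 2 * (P.W 0 * badCount P f (P.B 0)) + 2 * P.W 0 +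
          P.r 0) := mul_le_mul_of_nonneg_left h1 hM2pos.le
      have e2 : (M : ℝ) ^ 2 * ((1 + 4 / (M : ℝ)) * F) = (M : ℝ) ^ 2 * F + 4 * (M * F) := by
        field_simp
      have e3 : (M : ℝ) ^ 2 * P.r 0 ≤ (M : ℝ) ^ 2 * P.W 0 :=
        mul_le_mul_of_nonneg_left h6' hM2pos.le
      have e4 : (19 + 10 * (K : ℝ)) * (M * F) ≤ ε * M * (M * F) :=
        mul_le_mul_of_nonneg_right hMe (by positivity)
      have hK0 : (0 : ℝ) ≤ K := by positivity
      have e5 : (15 + 10 * (K : ℝ)) * n ≤ (15 + 10 * (K : ℝ)) * (M * F) :=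
        mul_le_mul_of_nonneg_left h3'.le (by positivity)
      have e6 : (M : ℝ) ^ 2 * P.out ≤ (M : ℝ) ^ 2 * F + 4 * (M * F) +
          (15 + 10 * (K : ℝ)) * n + 2 * ((M : ℝ) ^ 2 * rough f x.length ((n : ℝ) ^ γ)) := by
        linarith
      linarith
    exact le_of_mul_le_mul_left key hM2pos

theorem guarantee_exact {x y : List ℕ} {n : ℕ} {γ ε : ℝ} (hε : 0 < ε) :
    Guarantee ε γ x y n (ED x y) := by
  refine ⟨le_rfl, fun f hf => ?_⟩
  have h1 : (ED x y : ℝ) ≤ alignCost x y f := by exact_mod_cast ED_le_alignCost hf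
  have h2 : (0 : ℝ) ≤ rough f x.length ((n : ℝ) ^ γ) := by positivity
  have h3 : (0 : ℝ) ≤ alignCost x y f := by positivity
  nlinarith

end Vale.Agent.P315
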