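import Vale.Agent.P315.Count

/-! Alignments with few gaps have few rough positions. -/

set_option autoImplicit false

namespace Vale.Agent.P315

/-- The number of positions below `l` after which the alignment does not advance by exactly
one symbol. -/
noncomputable def gaps (f : ℕ → ℕ) (l : ℕ) : ℕ := Set.ncard {i : ℕ | i < l ∧ f (i + 1) ≠ f i + 1}

theorem gaps_eq (f : ℕ → ℕ) (l : ℕ) :
    gaps f l = ((Finset.range l).filter (fun i => f (i + 1) ≠ f i + 1)).card := by
  unfold gaps
  rw [← Set.ncard_coe_finset]
  congr 1
  ext i
  simp

theorem rough_le_gaps (f : ℕ → ℕ) (l : ℕ) (S : ℝ) (hS : 0 ≤ S) :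
    (rough f l S : ℝ) ≤ (gaps f l + 1) * S + gaps f l := by
  classical
  rw [rough_eq, gaps_eq]
  set G := (Finset.range l).filter (fun i => f (i + 1) ≠ f i + 1) with hG
  set R := (Finset.range l).filter (fun i => ¬ Calm f l S i) with hR
  have hmaps : ∀ i ∈ R \ G, (G.filter (fun j => j < i)).card ∈ Finset.range (G.card + 1) := by
    intro i _
    exact Finset.mem_range.mpr (Nat.lt_succ_of_le (Finset.card_le_card (Finset.filter_subset _ _)))
  have hfib : ∀ v ∈ Finset.range (G.card + 1),
      ((R \ G).filter (fun i => (G.filter (fun j => j < i)).card = v)).card ≤ ⌊S⌋₊ := by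
    intro v _
    set F := (R \ G).filter (fun i => (G.filter (fun j => j < i)).card = v) with hF
    rcases F.eq_empty_or_nonempty with h0 | hne
    · rw [h0]; simp
    · have hi := F.min'_mem hne
      have hi' := F.max'_mem hne
      set i := F.min' hne with hidef
      set i' := F.max' hne with hi'def
      have hsub : F ⊆ Finset.Icc i i' := fun j hj =>
        Finset.mem_Icc.mpr ⟨F.min'_le j hj, F.le_max' j hj⟩
      have hle : i ≤ i' := F.min'_le _ hi'
      have hcard : F.card ≤ i' + 1 - i := by
        have := Finset.card_le_card hsub
        simpa using this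
      have hi1 := Finset.mem_filter.mp hi
      have hi1' := Finset.mem_filter.mp hi'
      have hi2 := Finset.mem_sdiff.mp hi1.1
      have hi2' := Finset.mem_sdiff.mp hi1'.1
      have hi3 := Finset.mem_filter.mp hi2.1
      have hi3' := Finset.mem_filter.mp hi2'.1
      have hl' : i' < l := Finset.mem_range.mp hi3'.1
      have hstep : ∀ j, i ≤ j → j ≤ i' → f (j + 1) = f j + 1 := by
        intro j hj1 hj2
        by_contra hgap
        have hjG : j ∈ G := Finset.mem_filter.mpr ⟨Finset.mem_range.mpr (by omega), hgap⟩
        rcases Nat.lt_or_ge j i' with hlt | hge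
        · have hss : G.filter (fun j => j < i) ⊂ G.filter (fun j => j < i') := by
            refine Finset.ssubset_iff_subset_ne.mpr ⟨?_, ?_⟩
            · intro k hk
              have := Finset.mem_filter.mp hk
              exact Finset.mem_filter.mpr ⟨this.1, by omega⟩
            · intro he
              have : j ∈ G.filter (fun j => j < i) := by
                rw [he]; exact Finset.mem_filter.mpr ⟨hjG, hlt⟩
              have := (Finset.mem_filter.mp this).2
              omega
          have := Finset.card_lt_card hss
          omega
        · have : j = i' := by omega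
          rw [this] at hjG
          exact hi2'.2 hjG
      have haff : ∀ j, i ≤ j → j ≤ i' + 1 → f j = f i + (j - i) := by
        intro j hj1
        induction j with
        | zero =>
          intro _
          have : i = 0 := by omega
          rw [this]; simp
        | succ j ih =>
          intro hj2
          rcases Nat.lt_or_ge j i with hji | hji
          · have : i = j + 1 := by omega
            rw [this]; simp
          · rw [hstep j hji (by omega), ih hji (by omega)]; omega
      have hlt : ((i' + 1 - i : ℕ) : ℝ) < S := by
        by_contra hcon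
        push Not at hcon
        apply hi3.2
        refine ⟨i, i' + 1, 1, le_rfl, by omega, by omega, le_rfl, by simpa using hcon, ?_⟩
        refine ⟨(f i : ℝ) - i, 1, fun j hj1 hj2 => ?_⟩
        rw [haff j hj1 hj2]
        push_cast [Nat.cast_sub hj1]
        rw [show (f i : ℝ) + ((j : ℝ) - i) - ((f i : ℝ) - i + 1 * j) = 0 by ring]
        simp
      exact hcard.trans (Nat.le_floor hlt.le)
  have h1 := Finset.card_le_mul_card_image_of_maps_to hmaps ⌊S⌋₊ hfib
  rw [Finset.card_range] at h1
  have h2 : R.card ≤ (R \ G).card + G.card := by
    have : R ⊆ (R \ G) ∪ G := by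
      intro i hi
      by_cases hg : i ∈ G
      · exact Finset.mem_union_right _ hg
      · exact Finset.mem_union_left _ (Finset.mem_sdiff.mpr ⟨hi, hg⟩)
    exact (Finset.card_le_card this).trans (Finset.card_union_le _ _)
  have h3 : R.card ≤ ⌊S⌋₊ * (G.card + 1) + G.card := by omega
  have h4 : (R.card : ℝ) ≤ (⌊S⌋₊ : ℝ) * (G.card + 1) + G.card := by exact_mod_cast h3
  have h5 : (⌊S⌋₊ : ℝ) ≤ S := Nat.floor_le hS
  have h6 : (0 : ℝ) ≤ (G.card : ℝ) + 1 := by positivity
  nlinarith

end Vale.Agent.P315
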