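import Vale.Agent.P315.Rows

/-! The complete program. -/

set_option autoImplicit false

namespace Vale.Agent.P315

/-- Power of an expression. -/
def powE (e : Expr) : ℕ → Expr
  | 0 => .lit 1
  | j + 1 => emul (powE e j) e

theorem powE_eval (s : State) (e : Expr) (j : ℕ) : (powE e j).eval s = (e.eval s) ^ j := by
  induction j with
  | zero => simp [powE]
  | succ j ih => simp [powE, ih, pow_succ]

theorem powE_ok {R : ℕ} (hR : 2 ≤ R) {e : Expr} (he : e.Ok R) (j : ℕ) : (powE e j).Ok R := by
  induction j with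
  | zero => simp [powE, Expr.Ok]; omega
  | succ j ih => exact ⟨ih, he⟩

theorem powE_cost (e : Expr) (j : ℕ) : (powE e j).cost = 1 + j * (e.cost + 1) := by
  induction j with
  | zero => simp [powE, Expr.cost]
  | succ j ih =>
    simp only [powE, emul, Expr.cost, ih]; ring

/-- The base: the largest power `M` of `2` with `M ^ g ≤ n`. -/
def findM (g n : ℕ) : ℕ → ℕ
  | 0 => 1
  | t + 1 => if (2 * findM g n t) ^ g < n + 1 then 2 * findM g n t else findM g n t

theorem findM_prop (g n t : ℕ) : (∃ e, findM g n t = 2 ^ e) ∧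
    ((findM g n t) ^ g ≤ n ∨ findM g n t = 1) ∧
    (findM g n t = 2 ^ t ∨ n < (2 * findM g n t) ^ g) := by
  induction t with
  | zero => exact ⟨⟨0, rfl⟩, Or.inr rfl, Or.inl rfl⟩
  | succ t ih =>
    obtain ⟨⟨e, he⟩, h2, h3⟩ := ih
    unfold findM
    split_ifs with hc
    · refine ⟨⟨e + 1, by rw [he, pow_succ]; ring⟩, Or.inl (by omega), ?_⟩
      rcases h3 with h | h
      · left; rw [h, pow_succ]; ring
      · omega
    · exact ⟨⟨e, he⟩, h2, Or.inr (by omega)⟩

theorem findM_le {g n : ℕ} (hg : 1 ≤ g) (t : ℕ) : findM g n t ≤ n + 1 := by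
  obtain ⟨⟨e, he⟩, h2, -⟩ := findM_prop g n t
  rcases h2 with h | h
  · have h1 : 1 ≤ findM g n t := by rw [he]; exact Nat.one_le_two_pow
    have : findM g n t ^ 1 ≤ findM g n t ^ g := Nat.pow_le_pow_right h1 hg
    simp at this; omega
  · omega

theorem findM_lt {g n : ℕ} (hg : 1 ≤ g) : n < (2 * findM g n n) ^ g := by
  obtain ⟨⟨e, he⟩, h2, h3⟩ := findM_prop g n n
  rcases h3 with h | h
  · have h1 : n < 2 ^ n := Nat.lt_two_pow_self
    have h4 : (2 * findM g n n) ^ 1 ≤ (2 * findM g n n) ^ g :=
      Nat.pow_le_pow_right (by rw [he]; have := Nat.one_le_two_pow (n := e); omega) hg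
    simp at h4; omega
  · exact h

/-- Computation of the base. -/
def baseProg (g : ℕ) : Prog :=
  .loop 17 (.reg 3) (.ite (elt (powE (emul (.lit 2) (.reg 4)) g) (eadd (.reg 3) (.lit 1)))
    (.set 4 (emul (.lit 2) (.reg 4))) (.set 33 (.lit 0)))

theorem baseProg_spec {E : Env} {s : State} {g n : ℕ} (hg : 1 ≤ g) (h3 : s.reg 3 = n)
    (h4 : s.reg 4 = 1) (hR : 8 * n + 8 ≤ E.R) (hS : 4 * g + 10 ≤ E.S) :
    Spec E s (baseProg g) (2 + n * (4 * g + 20)) (fun s' => s'.reg 4 = findM g n n) := by
  unfold baseProg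
  refine Spec.loop n (4 * g + 18 + 0) (fun t s' => s'.reg 4 = findM g n t) rfl (by decide)
    le_rfl (by simpa using h3) (fun _ => by omega) (fun _ => h4) ?_
  intro t ht s' hb hf hI
  have e3 : s'.reg 3 = n := by rw [hf.reg 3 (by simp [Prog.wr])]; exact h3
  have hcost : (elt (powE (emul (.lit 2) (.reg 4)) g) (eadd (.reg 3) (.lit 1))).cost
      = 4 * g + 5 := by
    simp only [elt, Expr.cost, powE_cost, emul, eadd]; ring
  have hev : (elt (powE (emul (.lit 2) (.reg 4)) g) (eadd (.reg 3) (.lit 1))).eval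
      (s'.setReg 17 t) = if (2 * findM g n t) ^ g < n + 1 then 1 else 0 := by
    simp [powE_eval, hI, e3]
  have hRe := E.hR
  have hok1 : (emul (.lit 2) (.reg 4)).Ok E.R := ⟨hRe, trivial⟩
  have hok : (elt (powE (emul (.lit 2) (.reg 4)) g) (eadd (.reg 3) (.lit 1))).Ok E.R :=
    ⟨powE_ok E.hR hok1 g, trivial, (by show 1 ≤ E.R; omega)⟩
  refine Spec.ite' hok (by omega) (by omega) ?_ ?_
  · intro h0
    rw [hev] at h0
    have hc : ¬ (2 * findM g n t) ^ g < n + 1 := by
      intro hc; rw [if_pos hc] at h0; omega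
    rw [hcost]
    refine Spec.set 0 rfl ?_ (by simp) (fun _ => by omega) ?_
    · simp only [Expr.cost]; omega
    · intro _
      simp only [State.setReg_reg]
      rw [findM, if_neg hc]
      simpa using hI
  · intro h0
    rw [hev] at h0
    have hc : (2 * findM g n t) ^ g < n + 1 := by
      by_contra hc; rw [if_neg hc] at h0; exact h0 rfl
    rw [hcost]
    refine Spec.set (2 * findM g n t) rfl ?_ (by simp [hI]) (fun _ => ?_) ?_
    · simp only [Expr.cost, emul]; omega
    · have := findM_le (n := n) hg t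
      omega
    · intro _
      simp only [State.setReg_reg, if_true]
      rw [findM, if_pos hc]

/-- Programs without random words. -/
def Prog.norand : Prog → Bool
  | .set _ _ => true
  | .put _ _ _ => true
  | .rand _ => false
  | .seq p q => p.norand && q.norand
  | .ite _ p q => p.norand && q.norand
  | .loop _ _ p => p.norand

theorem Prog.coins_eq (ρ : ℕ → ℕ) (p : Prog) (h : p.norand = true) :
    ∀ s, (p.run ρ s).coins = s.coins := by
  induction p with
  | set i e => intro s; rfl
  | put j e e' => intro s; rfl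
  | rand i => simp [Prog.norand] at h
  | seq p q ihp ihq =>
    intro s
    simp only [Prog.norand, Bool.and_eq_true] at h
    rw [Prog.run, ihq h.2, ihp h.1]
  | ite e p q ihp ihq =>
    intro s
    simp only [Prog.norand, Bool.and_eq_true] at h
    simp only [Prog.run]
    split_ifs
    · exact ihq h.2 s
    · exact ihp h.1 s
  | loop i e p ih =>
    intro s
    have key : ∀ m, (s.rounds (fun t s' => p.run ρ (s'.setReg i t)) m).coins = s.coins := by
      intro m
      induction m with
      | zero => rfl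
      | succ m ihm =>
        simp only [State.rounds]
        rw [ih h]
        exact ihm
    exact key _

theorem Spec.withCoins {E : Env} {s : State} {p : Prog} {c : ℕ} {Q : State → Prop}
    (h : Spec E s p c Q) (hp : p.norand = true) :
    Spec E s p c (fun s' => s'.coins = s.coins ∧ Q s') := fun hb =>
  ⟨⟨p.coins_eq E.ρ hp s, (h hb).1⟩, (h hb).2⟩

/-- One sample. -/
def sampleCell : Prog :=
  .seq (.rand 33) (.seq (.put 3 (.reg 17) (emod (.reg 33) (.reg 6))) (.set 33 (.lit 0)))

theorem sampleCell_spec {E : Env} {s : State} {t Q : ℕ} (h17 : s.reg 17 = t) (h6 : s.reg 6 = Q)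
    (hQ : 0 < Q) :
    Spec E s sampleCell (10 + 0) (fun s' => s'.coins = s.coins + 1 ∧
      ∀ p, s'.arr 3 p = if p = t then E.ρ s.coins % Q else s.arr 3 p) := by
  intro hb
  have hR := E.hR
  have hRN := E.R_lt_N
  have hQR : Q ≤ E.R := by rw [← h6]; exact hb.reg 6
  have htR : t ≤ E.R := by rw [← h17]; exact hb.reg 17
  have hρ := E.hρ s.coins
  have hmod : E.ρ s.coins % Q < Q := Nat.mod_lt _ hQ
  refine ⟨⟨rfl, ?_⟩, ?_, ?_, ?_⟩
  · intro p
    simp [sampleCell, Prog.run, State.setReg_reg, h17, h6]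
  · have e : (sampleCell.run E.ρ s).reg = fun i => if i = 33 then 0 else s.reg i := by
      funext i
      by_cases hi : i = 33
      · simp [sampleCell, Prog.run, hi]
      · simp [sampleCell, Prog.run, hi]
    have e' : ∀ j p, (sampleCell.run E.ρ s).arr j p =
        if j = 3 ∧ p = t then E.ρ s.coins % Q else s.arr j p := by
      intro j p
      simp [sampleCell, Prog.run, h17, h6]
    refine ⟨fun i => ?_, fun j hj p => ?_, fun p => ?_, fun p => ?_⟩
    · rw [e]; dsimp only; split_ifs; exacts [by omega, hb.reg i]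
    · rw [e']; split_ifs; exacts [by omega, hb.arr j hj p]
    · rw [e']; simpa using hb.x p
    · rw [e']; simpa using hb.y p
  · simp [sampleCell, Prog.time, Expr.cost, emod]
  · simp only [sampleCell, Prog.top, Expr.top, emod, Prog.run, State.setReg_reg, Op.eval,
      Expr.eval, h17, h6]
    norm_num
    exact ⟨by omega, hρ, by omega, by omega⟩

/-- The samples. -/
def sampleProg : Prog := .loop 17 (.reg 7) sampleCell

theorem sampleProg_spec {E : Env} {s : State} {m Q : ℕ} (h7 : s.reg 7 = m) (h6 : s.reg 6 = Q)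
    (hQ : 0 < Q) (hc : s.coins = 0) :
    Spec E s sampleProg (2 + m * 12) (fun s' => s'.coins = m ∧
      ∀ i < m, s'.arr 3 i = E.ρ i % Q) := by
  unfold sampleProg
  refine Spec.loop m (10 + 0) (fun t s' => s'.coins = t ∧ ∀ i < t, s'.arr 3 i = E.ρ i % Q)
    rfl (by decide) le_rfl (by simpa using h7) ?_ ?_ ?_
  · intro hb; rw [← h7]; exact hb.reg 7
  · intro _; exact ⟨hc, fun i hi => by omega⟩
  · intro t ht s' hb hf hI
    refine Spec.mono (sampleCell_spec (t := t) (Q := Q) (by simp) ?_ hQ) le_rfl ?_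
    · simp [hf.reg 6 (by decide), h6]
    · rintro s'' ⟨h1, h2⟩
      simp only [State.setReg_coins, State.setReg_arr, hI.1] at h1 h2
      refine ⟨h1, fun i hi => ?_⟩
      rw [h2]
      split_ifs with h
      · rw [h]
      · exact hI.2 i (by omega)

/-- The value computed in the last phase. -/
noncomputable def Par.out (P : Par) : ℕ :=
  P.C (P.B 0) (P.G 0) + (P.lx - P.B 0 * P.W 0) + (P.ly - P.G 0 * P.r 0) +
    P.B 0 * (P.Q * P.r 0)

/-- The expression for `Par.out`. -/
def outE : Expr :=
  eadd (eadd (eadd (.get 6 (eadd (emul (.reg 41) (eadd (.reg 40) (.lit 1))) (.reg 40)))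
    (esub (.reg 0) (emul (.reg 41) (.reg 44)))) (esub (.reg 1) (emul (.reg 40) (.reg 43))))
    (emul (.reg 41) (emul (.reg 6) (.reg 43)))

/-- The computation for pairs at large distance. -/
def bigProg (K : ℕ) : Prog :=
  .seq (.set 6 (powE (.reg 4) 12))
  (.seq (.set 7 (powE (.reg 4) 8))
  (.seq (.set 8 (eadd (powE (.reg 4) 3) (.lit 1)))
  (.seq (.set 42 (emul (.reg 6) (powE (.reg 4) 3)))
  (.seq (.set 43 (powE (.reg 4) 5))
  (.seq (.set 44 (emul (emul (emul (.reg 43) (.reg 4)) (.reg 4)) (.reg 6)))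
  (.seq (.set 40 (ediv (.reg 1) (.reg 43)))
  (.seq (.set 41 (ediv (.reg 0) (.reg 44)))
  (.seq (.set 45 (powE (.reg 4) 16))
  (.seq (.set 46 (.lit K))
  (.seq sampleProg
  (.seq phase1
  (.seq phase2
    (.set 2 outE)))))))))))))

/-- The data of the coarse computation. -/
def mkPar (ρ X Y : ℕ → ℕ) (lx ly n M K : ℕ) : Par where
  X := X
  Y := Y
  smp := fun i => ρ i % M ^ 12
  lx := lx
  ly := ly
  n := n
  M := M
  K := K

/-- Time of the last phases. -/
def cBig (P : Par) (T : ℕ) : ℕ :=
  P.m * 12 + P.K * (60 + T) + ((P.G 0 + 1) * 7 +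
        P.B 0 * (6 + (P.G 0 + 1) * (62 + P.K * (52 + (P.hm + 1) * 54))))

theorem bigProg_spec {E : Env} {s : State} {X Y : ℕ → ℕ} {lx ly n M K : ℕ} (P : Par)
    (hP : P = mkPar E.ρ X Y lx ly n M K) (T : ℕ)
    (hx : s.arr 0 = X) (hy : s.arr 1 = Y) (h0 : s.reg 0 = lx) (h1 : s.reg 1 = ly)
    (h3 : s.reg 3 = n) (h4 : s.reg 4 = M) (hc : s.coins = 0)
    (hM : 2 ≤ M) (hR : 8 * n + 8 ≤ E.R) (hRM : M ^ (K + 6) ≤ E.R) (hlx : lx ≤ n) (hly : ly ≤ n)
    (hn : M ^ 21 ≤ n) (hK : K ≤ E.R)
    (hT : ∀ k, P.Valid k → P.B k * (20 + cBlock P k) ≤ T) :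
    Spec E s (bigProg K) (250 + cBig P T) (fun s' => s'.coins = P.m ∧ s'.reg 2 = P.out) := by
  have hQ0 : 0 < M ^ 12 := Nat.pow_pos (by omega)
  have hF : Fit P E := by
    subst hP
    exact ⟨hM, hR, hRM, hlx, hly, hn, fun i _ => Nat.mod_lt _ hQ0⟩
  have hpow : ∀ j, j ≤ 21 → M ^ j ≤ n := fun j hj =>
    (Nat.pow_le_pow_right (by omega) hj).trans hn
  have hv0 : P.Valid 0 := by
    subst hP
    show M ^ (5 + 0) * M ^ 16 ≤ n
    rw [← pow_add]; exact hpow _ (by omega)
  have hPM : P.M = M := by subst hP; rfl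
  obtain ⟨b1, b2, b3, b4, b5, b6, b7⟩ := P.bounds hF.hM hv0
  have hPn : P.n = n := by subst hP; rfl
  rw [hPn] at b1 b2 b3 b4 b5 b6 b7
  unfold bigProg
  refine Spec.set_seq (P.Q) rfl (by decide) ?_ (fun _ => by omega) ?_
  · simp [powE_eval, h4, Par.Q, hPM]
  refine Spec.set_seq (P.m) rfl (by decide) ?_ (fun _ => by omega) ?_
  · simp [powE_eval, h4, Par.m, hPM]
  refine Spec.set_seq (P.H) rfl (by decide) ?_ (fun _ => ?_) ?_
  · simp [powE_eval, h4, Par.H, hPM]
  · have := hpow 3 (by omega)
    unfold Par.H; rw [hPM]; omega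
  refine Spec.set_seq (P.hm) rfl (by decide) ?_ (fun _ => by omega) ?_
  · simp [powE_eval, h4, Par.hm, hPM]
  refine Spec.set_seq (P.r 0) rfl (by decide) ?_ (fun _ => ?_) ?_
  · simp [powE_eval, h4, Par.r, hPM]
  · have := hpow (5 + 0) (by omega)
    unfold Par.r; rw [hPM]; omega
  refine Spec.set_seq (P.W 0) rfl (by decide) ?_ (fun _ => by omega) ?_
  · simp [h4, Par.W, Par.l, hPM]
  refine Spec.set_seq (P.G 0) rfl (by decide) ?_ (fun _ => ?_) ?_
  · simp [h1, Par.G]; subst hP; rfl
  · have : P.G 0 ≤ P.ly := Nat.div_le_self _ _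
    have h2 : P.ly = ly := by subst hP; rfl
    omega
  refine Spec.set_seq (P.B 0) rfl (by decide) ?_ (fun _ => ?_) ?_
  · simp [h0, Par.B]; subst hP; rfl
  · have : P.B 0 ≤ P.lx := Nat.div_le_self _ _
    have h2 : P.lx = lx := by subst hP; rfl
    omega
  refine Spec.set_seq (P.M ^ 16) rfl (by decide) ?_ (fun _ => ?_) ?_
  · simp [powE_eval, h4, hPM]
  · have := hpow 16 (by omega)
    rw [hPM]; omega
  refine Spec.set_seq' K (show K ≤ E.R from hK)
    (show 1 ≤ E.S from by have := E.hS; omega) (by simp [Expr.cost, powE, emul, eadd, ediv])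
    (by simp) (fun _ => hK) ?_
  refine Spec.seq 2 (P.m * 12) 100 (P.K * (60 + T) + ((P.G 0 + 1) * 7 +
        P.B 0 * (6 + (P.G 0 + 1) * (62 + P.K * (52 + (P.hm + 1) * 54))))) _
    (by simp [Expr.cost, powE, emul, eadd, ediv]) (by unfold cBig; omega)
    (sampleProg_spec (m := P.m) (Q := M ^ 12) (by simp) (by simp [Par.Q, hPM]) hQ0
      (by simpa using hc)) ?_
  rintro s1 hf1 ⟨c1, c2⟩
  have hS1 : Glob P s1 :=
    { x := by rw [hf1.arr 0 (by decide)]; subst hP; simpa [mkPar] using hx
      y := by rw [hf1.arr 1 (by decide)]; subst hP; simpa [mkPar] using hy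
      smp := fun i hi => by rw [c2 i hi]; subst hP; rfl
      r0 := by rw [hf1.reg 0 (by decide)]; subst hP; simpa [mkPar] using h0
      r1 := by rw [hf1.reg 1 (by decide)]; subst hP; simpa [mkPar] using h1
      r3 := by rw [hf1.reg 3 (by decide)]; subst hP; simpa [mkPar] using h3
      r4 := by rw [hf1.reg 4 (by decide)]; subst hP; simpa [mkPar] using h4
      r6 := by rw [hf1.reg 6 (by decide)]; simp
      r7 := by rw [hf1.reg 7 (by decide)]; simp
      r8 := by rw [hf1.reg 8 (by decide)]; simp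
      r40 := by rw [hf1.reg 40 (by decide)]; simp
      r41 := by rw [hf1.reg 41 (by decide)]; simp
      r42 := by rw [hf1.reg 42 (by decide)]; simp
      r43 := by rw [hf1.reg 43 (by decide)]; simp
      r44 := by rw [hf1.reg 44 (by decide)]; simp
      r45 := by rw [hf1.reg 45 (by decide)]; simp
      r46 := by rw [hf1.reg 46 (by decide)]; subst hP; simp [mkPar] }
  refine Spec.seq 4 (P.K * (60 + T)) 96 ((P.G 0 + 1) * 7 +
        P.B 0 * (6 + (P.G 0 + 1) * (62 + P.K * (52 + (P.hm + 1) * 54)))) _ (by norm_num) le_rfl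
    ((phase1_spec T hF hS1 hT).withCoins (by decide)) ?_
  rintro s2 hf2 ⟨c3, hL⟩
  have hS2 := hS1.frame hf2 (by decide) (by decide)
  refine Spec.seq 10 ((P.G 0 + 1) * 7 +
        P.B 0 * (6 + (P.G 0 + 1) * (62 + P.K * (52 + (P.hm + 1) * 54)))) 86 0 _
    (by norm_num) le_rfl
    ((phase2_spec hF hS2 (by omega) (by omega) hL).withCoins (by decide)) ?_
  rintro s3 hf3 ⟨c4, hC⟩
  have hS3 := hS2.frame hf3 (by decide) (by decide)
  refine Spec.set P.out rfl (by decide) ?_ (fun _ => ?_) ?_
  · simp [outE, hS3.r0, hS3.r1, hS3.r6, hS3.r40, hS3.r41, hS3.r43, hS3.r44, hC, Par.out]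
  · have t1 := P.C_le (P.B 0) (P.G 0)
    have t2 : P.G 0 * P.r 0 ≤ P.ly := Nat.div_mul_le_self _ _
    have t3 : P.B 0 * P.W 0 ≤ P.lx := Nat.div_mul_le_self _ _
    have t4 : P.B 0 * (P.Q * P.r 0) ≤ P.B 0 * P.W 0 := by
      apply Nat.mul_le_mul_left
      unfold Par.W Par.l
      have : 1 ≤ P.M * P.M := Nat.mul_pos (by rw [hPM]; omega) (by rw [hPM]; omega)
      calc P.Q * P.r 0 = P.r 0 * P.Q * 1 := by ring
        _ ≤ P.r 0 * P.Q * (P.M * P.M) := Nat.mul_le_mul_left _ this
        _ = _ := by ring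
    have t5 : P.lx = lx := by subst hP; rfl
    have t6 : P.ly = ly := by subst hP; rfl
    unfold Par.out
    omega
  · intro _
    refine ⟨?_, by simp⟩
    simp only [State.setReg_coins]
    rw [c4, c3, c1]

/-- The complete program. -/
def mainProg (g K M0 : ℕ) : Prog :=
  .seq (.set 3 (emax (.reg 0) (.reg 1)))
  (.seq (.set 4 (.lit 1))
  (.seq (baseProg g)
  (.seq (.set 10 (.lit 0))
  (.seq (.set 11 (.reg 0))
  (.seq (.set 12 (.lit 0))
  (.seq (.set 13 (.reg 1))
    (.ite (elt (.reg 4) (.lit M0))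
      (.seq (.set 14 (eadd (.reg 0) (.reg 1))) (.seq dp (.set 2 (.get 2 (.reg 1)))))
      (.seq (.set 14 (ediv (.reg 3) (.reg 4))) (.seq dp
        (.ite (elt (.get 2 (.reg 1)) (eadd (.reg 14) (.lit 1)))
          (.set 2 (.get 2 (.reg 1))) (bigProg K)))))))))))

section
variable (x y : List ℕ)
theorem init_reg0 : (State.init x y).reg 0 = x.length := rfl
theorem init_reg1 : (State.init x y).reg 1 = y.length := rfl
theorem init_arr0 : (State.init x y).arr 0 = fun i => x.getD i 0 := rfl
theorem init_arr1 : (State.init x y).arr 1 = fun i => y.getD i 0 := rfl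
theorem init_coins : (State.init x y).coins = 0 := rfl
end

/-- The parameters are large enough. -/
structure Big (E : Env) (g K M0 n : ℕ) : Prop where
  hR : 8 * n + 8 ≤ E.R
  hK : K ≤ E.R
  hM0 : M0 ≤ E.R
  hRK : (n + 1) ^ (K + 6) ≤ E.R
  hS : 4 * g + 10 ≤ E.S
  hg : 21 ≤ g
  hM2 : 2 ≤ M0

theorem main_small {E : Env} {g K M0 n : ℕ} {x y : List ℕ} (hn : n = max x.length y.length)
    (hB : Big E g K M0 n) (hM : findM g n n < M0) :
    Spec E (State.init x y) (mainProg g K M0) (100 + (n * (4 * g + 20) +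
      ((y.length + 1) * 14 + x.length * (62 + y.length * 122))))
      (fun s' => s'.coins = 0 ∧ s'.reg 2 = ED x y) := by
  obtain ⟨hR, hK, hM0, hRK, hS, hg, hM2⟩ := hB
  have hER := E.hR
  have hMn := findM_le (n := n) (g := g) (by omega) n
  unfold mainProg
  refine Spec.set_seq n rfl (by decide) ?_ (fun _ => by omega) ?_
  · simp [init_reg0, init_reg1, hn]
  refine Spec.set_seq 1 rfl (by decide) (by simp) (fun _ => by omega) ?_
  refine Spec.seq 2 (n * (4 * g + 20)) 80 ((y.length + 1) * 14 + x.length *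
      (62 + y.length * 122)) (fun s' => s'.reg 4 = findM g n n ∧ s'.reg 3 = n ∧
      s'.reg 0 = x.length ∧ s'.reg 1 = y.length ∧ s'.arr 0 = (fun i => x.getD i 0) ∧
      s'.arr 1 = (fun i => y.getD i 0) ∧ s'.coins = 0) (by decide) le_rfl ?_ ?_
  · refine Spec.mono ((baseProg_spec (by omega) (by simp) (by simp) hR hS).withFrame.withCoins
      (by simp [Prog.norand, baseProg])) le_rfl ?_
    rintro s' ⟨hc, hf, h4⟩
    refine ⟨h4, ?_, ?_, ?_, ?_, ?_, hc⟩
    · rw [hf.reg 3 (by simp [baseProg, Prog.wr])]; simp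
    · rw [hf.reg 0 (by simp [baseProg, Prog.wr])]; simp [init_reg0]
    · rw [hf.reg 1 (by simp [baseProg, Prog.wr])]; simp [init_reg1]
    · rw [hf.arr 0 (by simp [baseProg, Prog.wa])]; simp [init_arr0]
    · rw [hf.arr 1 (by simp [baseProg, Prog.wa])]; simp [init_arr1]
  · rintro s1 - ⟨e4, e3, e0, e1, ex, ey, ec⟩
    have hlx : x.length ≤ n := by omega
    have hly : y.length ≤ n := by omega
    refine Spec.set_seq 0 rfl (by decide) (by simp) (fun _ => by omega) ?_
    refine Spec.set_seq x.length rfl (by decide) (by simp [e0]) (fun _ => by omega) ?_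
    refine Spec.set_seq 0 rfl (by decide) (by simp) (fun _ => by omega) ?_
    refine Spec.set_seq y.length rfl (by decide) (by simp [e1]) (fun _ => by omega) ?_
    refine Spec.ite' (show True ∧ M0 ≤ E.R from ⟨trivial, hM0⟩)
      (show 3 ≤ E.S from by have := E.hS; omega) (by simp [Expr.cost, elt]) ?_ ?_
    · intro h
      exfalso
      simp [e4, hM] at h
    · intro _
      have ha : 59 ≤ (80 - ((Expr.lit 0).cost + 1) - ((Expr.reg 0).cost + 1) -
        ((Expr.lit 0).cost + 1) - ((Expr.reg 1).cost + 1) -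
        ((elt (.reg 4) (.lit M0)).cost + 1)) := by simp [Expr.cost, elt]
      refine Spec.le (c := 59 + ((y.length + 1) * 14 + x.length * (62 + y.length * 122))) ?_
        (Nat.add_le_add_right ha _)
      refine Spec.set_seq (x.length + y.length) rfl (by decide) (by simp [e0, e1])
        (fun _ => by omega) ?_
      refine Spec.seq 10 ((y.length + 1) * 14 + x.length * (62 + y.length * 122)) 10 0
        (fun s' => s'.reg 1 = y.length ∧ s'.arr 2 y.length = ED x y ∧ s'.coins = 0) (by decide)
        le_rfl ?_ ?_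
      · refine Spec.mono ((dp_spec (X := fun i => x.getD i 0) (Y := fun i => y.getD i 0)
          (px := 0) (lx := x.length) (py := 0) (ly := y.length) (k := x.length + y.length)
          (by simpa using ex) (by simpa using ey) (by simp) (by simp) (by simp) (by simp)
          (by simp) (by omega) (by omega)).withFrame.withCoins (by decide)) ?_ ?_
        · refine Nat.add_le_add_left (Nat.add_le_add_left (Nat.mul_le_mul_left _ ?_) _) _
          exact Nat.add_le_add_left (Nat.mul_le_mul_right _ (min_le_left _ _)) _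
        · rintro s' ⟨hc, hf, hd⟩
          refine ⟨by rw [hf.reg 1 (by decide)]; simpa using e1, ?_, by rw [hc]; simpa using ec⟩
          rw [hd _ le_rfl, ED_eq_dist, cap, pre]
          have := dist_le (fun i => x.getD i 0) (fun i => y.getD i 0) 0 x.length 0 y.length
          omega
      · rintro s2 - ⟨k1, k2, k3⟩
        refine Spec.set (ED x y) rfl (by decide) (by simp [k1, k2]) (fun hb => ?_) ?_
        · rw [← k2]; exact hb.arr 2 le_rfl _
        · intro _; exact ⟨by simpa using k3, by simp⟩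

theorem main_big {E : Env} {g K M0 n : ℕ} {x y : List ℕ} (hn : n = max x.length y.length)
    (hB : Big E g K M0 n) (hM : M0 ≤ findM g n n) (P : Par)
    (hP : P = mkPar E.ρ (fun i => x.getD i 0) (fun i => y.getD i 0) x.length y.length n
      (findM g n n) K) (T : ℕ) (hT : ∀ k, P.Valid k → P.B k * (20 + cBlock P k) ≤ T) :
    Spec E (State.init x y) (mainProg g K M0) (400 + (n * (4 * g + 20) +
      ((y.length + 1) * 14 + x.length * (62 + (2 * (n / findM g n n) + 1) * 122)) + cBig P T))
      (fun s' => if ED x y ≤ n / findM g n n then s'.reg 2 = ED x y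
        else s'.coins = P.m ∧ s'.reg 2 = P.out) := by
  obtain ⟨hR, hK, hM0, hRK, hS, hg, hM2⟩ := hB
  have hER := E.hR
  have hMn := findM_le (n := n) (g := g) (by omega) n
  obtain ⟨-, hMg, -⟩ := findM_prop g n n
  have hlx : x.length ≤ n := by omega
  have hly : y.length ≤ n := by omega
  have hkn : n / findM g n n ≤ n := Nat.div_le_self _ _
  unfold mainProg
  refine Spec.set_seq n rfl (by decide) ?_ (fun _ => by omega) ?_
  · simp [init_reg0, init_reg1, hn]
  refine Spec.set_seq 1 rfl (by decide) (by simp) (fun _ => by omega) ?_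
  refine Spec.seq 2 (n * (4 * g + 20)) 380 (((y.length + 1) * 14 + x.length *
      (62 + (2 * (n / findM g n n) + 1) * 122)) + cBig P T) (fun s' => s'.reg 4 = findM g n n ∧
      s'.reg 3 = n ∧
      s'.reg 0 = x.length ∧ s'.reg 1 = y.length ∧ s'.arr 0 = (fun i => x.getD i 0) ∧
      s'.arr 1 = (fun i => y.getD i 0) ∧ s'.coins = 0) (by decide) (by omega) ?_ ?_
  · refine Spec.mono ((baseProg_spec (by omega) (by simp) (by simp) hR hS).withFrame.withCoins
      (by simp [Prog.norand, baseProg])) le_rfl ?_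
    rintro s' ⟨hc, hf, h4⟩
    refine ⟨h4, ?_, ?_, ?_, ?_, ?_, hc⟩
    · rw [hf.reg 3 (by simp [baseProg, Prog.wr])]; simp
    · rw [hf.reg 0 (by simp [baseProg, Prog.wr])]; simp [init_reg0]
    · rw [hf.reg 1 (by simp [baseProg, Prog.wr])]; simp [init_reg1]
    · rw [hf.arr 0 (by simp [baseProg, Prog.wa])]; simp [init_arr0]
    · rw [hf.arr 1 (by simp [baseProg, Prog.wa])]; simp [init_arr1]
  · rintro s1 - ⟨e4, e3, e0, e1, ex, ey, ec⟩
    refine Spec.set_seq 0 rfl (by decide) (by simp) (fun _ => by omega) ?_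
    refine Spec.set_seq x.length rfl (by decide) (by simp [e0]) (fun _ => by omega) ?_
    refine Spec.set_seq 0 rfl (by decide) (by simp) (fun _ => by omega) ?_
    refine Spec.set_seq y.length rfl (by decide) (by simp [e1]) (fun _ => by omega) ?_
    refine Spec.ite' (show True ∧ M0 ≤ E.R from ⟨trivial, hM0⟩)
      (show 3 ≤ E.S from by have := E.hS; omega) (by simp [Expr.cost, elt]) ?_ ?_
    · intro _
      have ha : 360 ≤ (380 - ((Expr.lit 0).cost + 1) - ((Expr.reg 0).cost + 1) -
        ((Expr.lit 0).cost + 1) - ((Expr.reg 1).cost + 1) -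
        ((elt (.reg 4) (.lit M0)).cost + 1)) := by simp [Expr.cost, elt]
      refine Spec.le (c := 360 + (((y.length + 1) * 14 + x.length *
        (62 + (2 * (n / findM g n n) + 1) * 122)) + cBig P T)) ?_
        (Nat.add_le_add_right ha _)
      refine Spec.set_seq (n / findM g n n) rfl (by decide) (by simp [e3, e4])
        (fun _ => by omega) ?_
      refine Spec.seq 10 ((y.length + 1) * 14 + x.length *
        (62 + (2 * (n / findM g n n) + 1) * 122)) 340 (cBig P T)
        (fun s' => s'.reg 4 = findM g n n ∧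
          s'.reg 3 = n ∧ s'.reg 14 = n / findM g n n ∧
          s'.reg 0 = x.length ∧ s'.reg 1 = y.length ∧ s'.arr 0 = (fun i => x.getD i 0) ∧
          s'.arr 1 = (fun i => y.getD i 0) ∧ s'.coins = 0 ∧
          s'.arr 2 y.length = min (ED x y) (n / findM g n n + 1)) (by decide)
        le_rfl ?_ ?_
      · refine Spec.mono ((dp_spec (X := fun i => x.getD i 0) (Y := fun i => y.getD i 0)
          (px := 0) (lx := x.length) (py := 0) (ly := y.length) (k := n / findM g n n)
          (by simpa using ex) (by simpa using ey) (by simp) (by simp) (by simp) (by simp)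
          (by simp) (by omega) (by omega)).withFrame.withCoins (by decide)) ?_ ?_
        · refine Nat.add_le_add_left (Nat.add_le_add_left (Nat.mul_le_mul_left _ ?_) _) _
          exact Nat.add_le_add_left (Nat.mul_le_mul_right _ (min_le_right _ _)) _
        · rintro s' ⟨hc, hf, hd⟩
          refine ⟨?_, ?_, ?_, ?_, ?_, ?_, ?_, by rw [hc]; simpa using ec, ?_⟩
          · rw [hf.reg 4 (by decide)]; simpa using e4
          · rw [hf.reg 3 (by decide)]; simpa using e3
          · rw [hf.reg 14 (by decide)]; simp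
          · rw [hf.reg 0 (by decide)]; simpa using e0
          · rw [hf.reg 1 (by decide)]; simpa using e1
          · rw [hf.arr 0 (by decide)]; simpa using ex
          · rw [hf.arr 1 (by decide)]; simpa using ey
          · rw [hd _ le_rfl, ED_eq_dist, cap, pre]
      · rintro s2 - ⟨k4, k3, k14, k0, k1, kx, ky, kc, k2⟩
        refine Spec.ite rfl (by decide) ?_ ?_
        · intro h0
          have hED : ¬ ED x y ≤ n / findM g n n := by
            intro h
            simp [k1, k14, k2] at h0
            omega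
          have ha' : 250 ≤ 340 - ((elt (.get 2 (.reg 1)) (eadd (.reg 14) (.lit 1))).cost + 1) := by
            decide
          refine Spec.mono (bigProg_spec P hP T kx ky k0 k1 k3 k4 kc (by omega) hR ?_ hlx hly ?_
            hK hT) (Nat.add_le_add_right ha' _) ?_
          · exact (Nat.pow_le_pow_left hMn _).trans hRK
          · rcases hMg with h | h
            · exact (Nat.pow_le_pow_right (by omega) hg).trans h
            · omega
          · intro s' h
            rw [if_neg hED]; exact h
        · intro h1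
          have hED : ED x y ≤ n / findM g n n := by
            by_contra h
            apply h1
            simp [k1, k14, k2]
            omega
          refine Spec.set (ED x y) rfl (by decide) ?_ (fun hb => ?_) ?_
          · simp [k1, k2]; omega
          · have := hb.arr 2 le_rfl y.length
            rw [k2] at this; omega
          · intro _; rw [if_pos hED]; simp
    · intro h
      exfalso
      have : ¬ findM g n n < M0 := by omega
      simp [e4, this] at h

end Vale.Agent.P315
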