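import Vale.Agent.P315.Model

/-! Edit distance: the recursion, subadditivity, and the equivalence with edit sequences. -/

set_option autoImplicit false

namespace Vale.Agent.P315

/-- Edit scripts. -/
inductive Script : List ℕ → List ℕ → ℕ → Prop
  | nil : Script [] [] 0
  | del {xs ys : List ℕ} {c : ℕ} (a : ℕ) (h : Script xs ys c) : Script (a :: xs) ys (c + 1)
  | ins {xs ys : List ℕ} {c : ℕ} (b : ℕ) (h : Script xs ys c) : Script xs (b :: ys) (c + 1)
  | sub {xs ys : List ℕ} {c : ℕ} (a b : ℕ) (h : Script xs ys c) :
      Script (a :: xs) (b :: ys) (c + if a = b then 0 else 1)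

/-- The recursion for the edit distance. -/
def lev : List ℕ → List ℕ → ℕ
  | [], ys => ys.length
  | _ :: xs, [] => xs.length + 1
  | x :: xs, y :: ys =>
      min (min (lev xs (y :: ys) + 1) (lev (x :: xs) ys + 1)) (lev xs ys + if x = y then 0 else 1)
termination_by xs ys => xs.length + ys.length

theorem lev_nil_left (ys : List ℕ) : lev [] ys = ys.length := by
  cases ys <;> simp [lev]

theorem lev_nil_right (xs : List ℕ) : lev xs [] = xs.length := by
  cases xs <;> simp [lev]

theorem lev_cons_cons (x y : ℕ) (xs ys : List ℕ) : lev (x :: xs) (y :: ys) =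
    min (min (lev xs (y :: ys) + 1) (lev (x :: xs) ys + 1))
      (lev xs ys + if x = y then 0 else 1) := by
  rw [lev]

theorem lev_del_le (x : ℕ) (xs ys : List ℕ) : lev (x :: xs) ys ≤ lev xs ys + 1 := by
  cases ys with
  | nil => simp [lev_nil_right]
  | cons y ys => rw [lev_cons_cons]; omega

theorem lev_ins_le (y : ℕ) (xs ys : List ℕ) : lev xs (y :: ys) ≤ lev xs ys + 1 := by
  cases xs with
  | nil => simp [lev_nil_left]
  | cons x xs => rw [lev_cons_cons]; omega

theorem lev_sub_le (x y : ℕ) (xs ys : List ℕ) :
    lev (x :: xs) (y :: ys) ≤ lev xs ys + if x = y then 0 else 1 := by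
  rw [lev_cons_cons]; omega

theorem Script.lev_le {xs ys : List ℕ} {c : ℕ} (h : Script xs ys c) : lev xs ys ≤ c := by
  induction h with
  | nil => simp [lev_nil_left]
  | del a h ih => exact (lev_del_le _ _ _).trans (by omega)
  | ins b h ih => exact (lev_ins_le _ _ _).trans (by omega)
  | sub a b h ih => exact (lev_sub_le _ _ _ _).trans (by omega)

theorem script_nil_left (ys : List ℕ) : Script [] ys ys.length := by
  induction ys with
  | nil => exact Script.nil
  | cons y ys ih => exact Script.ins y ih

theorem script_nil_right (xs : List ℕ) : Script xs [] xs.length := by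
  induction xs with
  | nil => exact Script.nil
  | cons y ys ih => exact Script.del y ih

theorem script_lev (xs ys : List ℕ) : Script xs ys (lev xs ys) := by
  induction xs generalizing ys with
  | nil => rw [lev_nil_left]; exact script_nil_left ys
  | cons x xs ihx =>
    induction ys with
    | nil => rw [lev_nil_right]; exact script_nil_right _
    | cons y ys ihy =>
      rw [lev_cons_cons]
      rcases min_choice (min (lev xs (y :: ys) + 1) (lev (x :: xs) ys + 1))
        (lev xs ys + if x = y then 0 else 1) with h | h
      · rw [h]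
        rcases min_choice (lev xs (y :: ys) + 1) (lev (x :: xs) ys + 1) with h' | h'
        · rw [h']; exact Script.del x (ihx _)
        · rw [h']; exact Script.ins y ihy
      · rw [h]; exact Script.sub x y (ihx _)

theorem Script.append {xs ys xs' ys' : List ℕ} {c c' : ℕ} (h : Script xs ys c)
    (h' : Script xs' ys' c') : Script (xs ++ xs') (ys ++ ys') (c + c') := by
  induction h with
  | nil => simpa using h'
  | del a h ih =>
    have := Script.del a ih
    rw [show _ + 1 + c' = _ + c' + 1 from by ring]; exact this
  | ins b h ih =>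
    have := Script.ins b ih
    rw [show _ + 1 + c' = _ + c' + 1 from by ring]; exact this
  | @sub xs ys c a b h ih =>
    have := Script.sub a b ih
    rw [show c + (if a = b then 0 else 1) + c' = c + c' + (if a = b then 0 else 1) from by ring]
    exact this

theorem script_one_del (a : ℕ) : Script [a] [] 1 := Script.del a Script.nil
theorem script_one_ins (a : ℕ) : Script [] [a] 1 := Script.ins a Script.nil
theorem script_one_sub (a b : ℕ) : Script [a] [b] (if a = b then 0 else 1) := by
  simpa using Script.sub a b Script.nil

theorem Script.reverse {xs ys : List ℕ} {c : ℕ} (h : Script xs ys c) :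
    Script xs.reverse ys.reverse c := by
  induction h with
  | nil => exact Script.nil
  | del a h ih => simpa using ih.append (script_one_del a)
  | ins b h ih => simpa using ih.append (script_one_ins b)
  | sub a b h ih => simpa using ih.append (script_one_sub a b)

theorem lev_reverse (xs ys : List ℕ) : lev xs.reverse ys.reverse = lev xs ys := by
  apply le_antisymm
  · exact (script_lev xs ys).reverse.lev_le
  · simpa using (script_lev xs.reverse ys.reverse).reverse.lev_le

theorem Script.symm {xs ys : List ℕ} {c : ℕ} (h : Script xs ys c) : Script ys xs c := by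
  induction h with
  | nil => exact Script.nil
  | del a h ih => exact Script.ins a ih
  | ins b h ih => exact Script.del b ih
  | @sub xs ys c a b h ih =>
    have := Script.sub b a ih
    rw [show (if a = b then 0 else 1) = (if b = a then 0 else 1) from by
      by_cases hab : a = b
      · simp [hab]
      · simp [hab, Ne.symm hab]]
    exact this

theorem lev_append_le (xs xs' ys ys' : List ℕ) :
    lev (xs ++ xs') (ys ++ ys') ≤ lev xs ys + lev xs' ys' :=
  ((script_lev xs ys).append (script_lev xs' ys')).lev_le

theorem lev_snoc_snoc (x y : ℕ) (xs ys : List ℕ) : lev (xs ++ [x]) (ys ++ [y]) =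
    min (min (lev xs (ys ++ [y]) + 1) (lev (xs ++ [x]) ys + 1))
      (lev xs ys + if x = y then 0 else 1) := by
  have h := lev_cons_cons x y xs.reverse ys.reverse
  have e1 : lev (x :: xs.reverse) (y :: ys.reverse) = lev (xs ++ [x]) (ys ++ [y]) := by
    rw [← lev_reverse (xs ++ [x])]; simp
  have e2 : lev xs.reverse (y :: ys.reverse) = lev xs (ys ++ [y]) := by
    rw [← lev_reverse xs]; simp
  have e3 : lev (x :: xs.reverse) ys.reverse = lev (xs ++ [x]) ys := by
    rw [← lev_reverse (xs ++ [x])]; simp
  rw [e1, e2, e3, lev_reverse] at h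
  exact h

theorem Script.length_le {xs ys : List ℕ} {c : ℕ} (h : Script xs ys c) :
    ys.length ≤ xs.length + c ∧ xs.length ≤ ys.length + c := by
  induction h with
  | nil => simp
  | del a h ih => simp only [List.length_cons]; omega
  | ins b h ih => simp only [List.length_cons]; omega
  | sub a b h ih => simp only [List.length_cons]; omega

theorem length_le_lev (xs ys : List ℕ) :
    ys.length ≤ xs.length + lev xs ys ∧ xs.length ≤ ys.length + lev xs ys :=
  (script_lev xs ys).length_le

theorem lev_le_length (xs ys : List ℕ) : lev xs ys ≤ xs.length + ys.length := by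
  have := lev_append_le xs [] [] ys
  simpa [lev_nil_left, lev_nil_right] using this

/-! ### Splitting -/

theorem Script.split {xs w : List ℕ} {c : ℕ} (h : Script xs w c) : ∀ u v : List ℕ, w = u ++ v →
    ∃ x1 x2 c1 c2, xs = x1 ++ x2 ∧ c = c1 + c2 ∧ Script x1 u c1 ∧ Script x2 v c2 := by
  induction h with
  | nil =>
    intro u v huv
    have hu : u = [] ∧ v = [] := by simpa using huv
    exact ⟨[], [], 0, 0, rfl, rfl, by rw [hu.1]; exact Script.nil, by rw [hu.2]; exact Script.nil⟩
  | del a h ih =>
    intro u v huv
    obtain ⟨x1, x2, c1, c2, h1, h2, h3, h4⟩ := ih u v huv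
    exact ⟨a :: x1, x2, c1 + 1, c2, by simp [h1], by omega, Script.del a h3, h4⟩
  | @ins xs ys c b h ih =>
    intro u v huv
    cases u with
    | nil =>
      refine ⟨[], xs, 0, c + 1, rfl, by omega, Script.nil, ?_⟩
      have : v = b :: ys := by simpa using huv.symm
      rw [this]; exact Script.ins b h
    | cons b' u =>
      have hh : b = b' ∧ ys = u ++ v := by simpa using huv
      obtain ⟨x1, x2, c1, c2, h1, h2, h3, h4⟩ := ih u v hh.2
      refine ⟨x1, x2, c1 + 1, c2, h1, by omega, ?_, h4⟩
      rw [← hh.1]; exact Script.ins b h3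
  | @sub xs ys c a b h ih =>
    intro u v huv
    cases u with
    | nil =>
      refine ⟨[], a :: xs, 0, c + (if a = b then 0 else 1), rfl, by omega, Script.nil, ?_⟩
      have : v = b :: ys := by simpa using huv.symm
      rw [this]; exact Script.sub a b h
    | cons b' u =>
      have hh : b = b' ∧ ys = u ++ v := by simpa using huv
      obtain ⟨x1, x2, c1, c2, h1, h2, h3, h4⟩ := ih u v hh.2
      refine ⟨a :: x1, x2, c1 + (if a = b then 0 else 1), c2, by simp [h1], by omega, ?_, h4⟩
      rw [← hh.1]; exact Script.sub a b h3

theorem Script.del_head {xs w : List ℕ} {c : ℕ} (h : Script xs w c) : ∀ (b : ℕ) (v : List ℕ),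
    w = b :: v → ∃ c', c' ≤ c + 1 ∧ Script xs v c' := by
  induction h with
  | nil => intro b v h; simp at h
  | del a h ih =>
    intro b v hb
    obtain ⟨c', h1, h2⟩ := ih b v hb
    exact ⟨c' + 1, by omega, Script.del a h2⟩
  | @ins xs ys c b' h ih =>
    intro b v hb
    have hh : b' = b ∧ ys = v := by simpa using hb
    exact ⟨c, by omega, hh.2 ▸ h⟩
  | @sub xs ys c a b' h ih =>
    intro b v hb
    have hh : b' = b ∧ ys = v := by simpa using hb
    exact ⟨c + 1, by omega, hh.2 ▸ Script.del a h⟩

theorem Script.sub_head {xs w : List ℕ} {c : ℕ} (h : Script xs w c) : ∀ (b b' : ℕ) (v : List ℕ),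
    w = b :: v → ∃ c', c' ≤ c + 1 ∧ Script xs (b' :: v) c' := by
  induction h with
  | nil => intro b b' v h; simp at h
  | del a h ih =>
    intro b b' v hb
    obtain ⟨c', h1, h2⟩ := ih b b' v hb
    exact ⟨c' + 1, by omega, Script.del a h2⟩
  | @ins xs ys c b'' h ih =>
    intro b b' v hb
    have hh : b'' = b ∧ ys = v := by simpa using hb
    exact ⟨c + 1, by omega, hh.2 ▸ Script.ins b' h⟩
  | @sub xs ys c a b'' h ih =>
    intro b b' v hb
    have hh : b'' = b ∧ ys = v := by simpa using hb
    refine ⟨c + (if a = b' then 0 else 1), ?_, hh.2 ▸ Script.sub a b' h⟩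
    split_ifs <;> omega

theorem Script.editStep {xs y z : List ℕ} {c : ℕ} (h : Script xs y c) (h' : EditStep y z) :
    ∃ c', c' ≤ c + 1 ∧ Script xs z c' := by
  cases h' with
  | ins u v a =>
    obtain ⟨x1, x2, c1, c2, h1, h2, h3, h4⟩ := h.split u v rfl
    exact ⟨c1 + (c2 + 1), by omega, h1 ▸ h3.append (Script.ins a h4)⟩
  | del u v a =>
    obtain ⟨x1, x2, c1, c2, h1, h2, h3, h4⟩ := h.split u (a :: v) rfl
    obtain ⟨c', h5, h6⟩ := h4.del_head a v rfl
    exact ⟨c1 + c', by omega, h1 ▸ h3.append h6⟩
  | sub u v a b =>
    obtain ⟨x1, x2, c1, c2, h1, h2, h3, h4⟩ := h.split u (a :: v) rfl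
    obtain ⟨c', h5, h6⟩ := h4.sub_head a b v rfl
    exact ⟨c1 + c', by omega, h1 ▸ h3.append h6⟩

theorem lev_self (x : List ℕ) : lev x x = 0 := by
  induction x with
  | nil => simp [lev_nil_left]
  | cons a x ih =>
    have := lev_sub_le a a x x
    simp [ih] at this
    exact this

theorem lev_le_of_edits {k : ℕ} {x y : List ℕ} (h : Edits k x y) : lev x y ≤ k := by
  induction h with
  | refl x => simp [lev_self]
  | step h h' ih =>
    obtain ⟨c', h1, h2⟩ := (script_lev _ _).editStep h'
    exact h2.lev_le.trans (by omega)

theorem EditStep.cons (a : ℕ) {x y : List ℕ} (h : EditStep x y) :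
    EditStep (a :: x) (a :: y) := by
  cases h with
  | ins u v b => exact EditStep.ins (a :: u) v b
  | del u v b => exact EditStep.del (a :: u) v b
  | sub u v b c => exact EditStep.sub (a :: u) v b c

theorem Edits.cons (a : ℕ) {k : ℕ} {x y : List ℕ} (h : Edits k x y) :
    Edits k (a :: x) (a :: y) := by
  induction h with
  | refl x => exact Edits.refl _
  | step h h' ih => exact Edits.step ih (h'.cons a)

theorem Edits.trans {k l : ℕ} {x y z : List ℕ} (h : Edits k x y) (h' : Edits l y z) :
    Edits (k + l) x z := by
  induction h' with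
  | refl x => exact h
  | step _ h'' ih => exact Edits.step (ih h) h''

theorem Script.edits {xs ys : List ℕ} {c : ℕ} (h : Script xs ys c) : Edits c xs ys := by
  induction h with
  | nil => exact Edits.refl _
  | @del xs ys c a h ih =>
    have h1 : Edits 1 (a :: xs) xs := Edits.step (Edits.refl _) (EditStep.del [] xs a)
    rw [add_comm]; exact h1.trans ih
  | @ins xs ys c b h ih => exact Edits.step ih (EditStep.ins [] ys b)
  | @sub xs ys c a b h ih =>
    by_cases hab : a = b
    · subst hab; simpa using ih.cons a
    · simp only [hab, if_false]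
      exact Edits.step (ih.cons a) (EditStep.sub [] ys a b)

theorem ED_eq_lev (x y : List ℕ) : ED x y = lev x y := by
  apply le_antisymm
  · exact Nat.sInf_le (script_lev x y).edits
  · have : Edits (ED x y) x y := Nat.sInf_mem (s := {k : ℕ | Edits k x y}) ⟨_, (script_lev x y).edits⟩
    exact lev_le_of_edits this

theorem lev_triangle (x y z : List ℕ) : lev x z ≤ lev x y + lev y z :=
  lev_le_of_edits ((script_lev x y).edits.trans (script_lev y z).edits)

theorem lev_drop_right (xs ys zs : List ℕ) : lev xs ys ≤ lev xs (ys ++ zs) + zs.length := by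
  refine (lev_triangle xs (ys ++ zs) ys).trans ?_
  have := lev_append_le ys zs ys []
  simp only [lev_self, lev_nil_right, List.append_nil] at this
  omega

theorem lev_drop_left (xs ys zs : List ℕ) : lev xs ys ≤ lev xs (zs ++ ys) + zs.length := by
  refine (lev_triangle xs (zs ++ ys) ys).trans ?_
  have := lev_append_le zs ys [] ys
  simp only [lev_self, lev_nil_right, List.nil_append] at this
  omega

theorem lev_add_right (xs ys zs : List ℕ) : lev xs (ys ++ zs) ≤ lev xs ys + zs.length := by
  have := lev_append_le xs [] ys zs
  simpa [lev_nil_left] using this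

theorem lev_add_left (xs ys zs : List ℕ) : lev xs (zs ++ ys) ≤ lev xs ys + zs.length := by
  have := lev_append_le [] xs zs ys
  simp only [lev_nil_left, List.nil_append] at this
  omega

end Vale.Agent.P315
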