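import Vale.Agent.P315.Complete

/-! The upper bound for the coarse table in terms of an alignment. -/

set_option autoImplicit false

namespace Vale.Agent.P315

/-- The fine block `v` lies in no good block. -/
def BadF (P : Par) (f : ℕ → ℕ) (v : ℕ) : Prop :=
  ∀ k w, Good P f k w → ¬ (w * P.M ^ k ≤ v ∧ v < (w + 1) * P.M ^ k)

/-- The fine grid point `u` is strictly inside of a good block. -/
def Inner (P : Par) (f : ℕ → ℕ) (u : ℕ) : Prop :=
  ∃ k w, Good P f k w ∧ w * P.M ^ k < u ∧ u < (w + 1) * P.M ^ k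

open Classical in
/-- Number of bad fine blocks. -/
noncomputable def badCount (P : Par) (f : ℕ → ℕ) (u : ℕ) : ℕ :=
  ((Finset.range u).filter (fun v => BadF P f v)).card

theorem badCount_mono (P : Par) (f : ℕ → ℕ) {u u' : ℕ} (h : u ≤ u') :
    badCount P f u ≤ badCount P f u' := by
  classical
  unfold badCount
  apply Finset.card_le_card
  apply Finset.filter_subset_filter
  exact Finset.range_mono h

theorem badCount_succ (P : Par) (f : ℕ → ℕ) {u : ℕ} (h : BadF P f u) :
    badCount P f (u + 1) = badCount P f u + 1 := by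
  classical
  unfold badCount
  rw [Finset.range_add_one, Finset.filter_insert, if_pos h, Finset.card_insert_of_notMem]
  simp

theorem Par.complete (P : Par) (hM : 2 ≤ P.M) (hA : Acc P) {f : ℕ → ℕ} (hf : Monotone f)
    (hend : f P.lx = P.ly) : ∀ u ≤ P.B 0, ¬ Inner P f u →
    (P.C u (f (u * P.W 0) / P.r 0) : ℝ) ≤ (1 + 4 / (P.M : ℝ)) *
      prefixCost P.X P.Y f (u * P.W 0) + 11 * (u * (P.Q * P.r 0)) +
        2 * (P.W 0 * badCount P f u) := by
  have hr : 0 < P.r 0 := Nat.pow_pos (by omega)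
  have hQ : 0 < P.Q := Nat.pow_pos (by omega)
  have hM' : (2 : ℝ) ≤ P.M := by exact_mod_cast hM
  have h4M : (0 : ℝ) ≤ 4 / (P.M : ℝ) := by positivity
  intro u
  induction u using Nat.strong_induction_on with
  | _ u ih =>
    intro hu hI
    rcases Nat.eq_zero_or_pos u with hu0 | hu0
    · subst hu0
      have h1 : P.C 0 (f (0 * P.W 0) / P.r 0) ≤ prefixCost P.X P.Y f (0 * P.W 0) := by
        rw [P.C_zero, Nat.zero_mul, prefixCost_zero]
        exact Nat.div_mul_le_self _ _
      have h2 : (P.C 0 (f (0 * P.W 0) / P.r 0) : ℝ) ≤ prefixCost P.X P.Y f (0 * P.W 0) := by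
        exact_mod_cast h1
      have h3 : (0 : ℝ) ≤ 4 / (P.M : ℝ) * prefixCost P.X P.Y f (0 * P.W 0) := by positivity
      have h4 : (0 : ℝ) ≤ 2 * (P.W 0 * badCount P f 0) := by positivity
      push_cast
      linarith
    · obtain ⟨u', rfl⟩ : ∃ u', u = u' + 1 := ⟨u - 1, by omega⟩
      by_cases hb : BadF P f u'
      · have hI' : ¬ Inner P f u' := by
          rintro ⟨k, w, hg, h1, h2⟩
          exact hb k w hg ⟨h1.le, h2⟩
        have i1 := ih u' (by omega) (by omega) hI'
        have i2 := P.step_del hM hf 0 u'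
        rw [pow_zero, Nat.mul_one, Nat.mul_one] at i2
        have i3 : (P.C (u' + 1) (f ((u' + 1) * P.W 0) / P.r 0) : ℝ) +
            prefixCost P.X P.Y f (u' * P.W 0) ≤ P.C u' (f (u' * P.W 0) / P.r 0) +
            prefixCost P.X P.Y f ((u' + 1) * P.W 0) + 2 * P.W 0 + P.r 0 := by
          exact_mod_cast i2
        have i4 : (badCount P f (u' + 1) : ℝ) = badCount P f u' + 1 := by
          rw [badCount_succ P f hb]; push_cast; ring
        have i5 : (P.r 0 : ℝ) ≤ P.Q * P.r 0 := by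
          have : (1 : ℝ) ≤ P.Q := by exact_mod_cast hQ
          nlinarith [(Nat.cast_nonneg (P.r 0) : (0 : ℝ) ≤ (P.r 0 : ℝ))]
        have i6 : (prefixCost P.X P.Y f (u' * P.W 0) : ℝ) ≤
            prefixCost P.X P.Y f ((u' + 1) * P.W 0) := by
          exact_mod_cast prefixCost_mono P.X P.Y f (Nat.mul_le_mul_right _ (by omega))
        have i7 : 4 / (P.M : ℝ) * prefixCost P.X P.Y f (u' * P.W 0) ≤
            4 / (P.M : ℝ) * prefixCost P.X P.Y f ((u' + 1) * P.W 0) :=
          mul_le_mul_of_nonneg_left i6 h4M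
        have i8 : (0 : ℝ) ≤ P.Q * P.r 0 := by positivity
        rw [i4]
        push_cast
        linarith
      · -- a good block of maximal scale
        have hex : ∃ k, k < P.K ∧ ∃ w, Good P f k w ∧ w * P.M ^ k ≤ u' ∧
            u' < (w + 1) * P.M ^ k := by
          unfold BadF at hb
          push Not at hb
          obtain ⟨k, w, hg, h1, h2⟩ := hb
          exact ⟨k, hg.1, w, hg, h1, h2⟩
        obtain ⟨k, ⟨hkK, w, hg, h1, h2⟩, hmax⟩ : ∃ k, (k < P.K ∧ ∃ w, Good P f k w ∧
            w * P.M ^ k ≤ u' ∧ u' < (w + 1) * P.M ^ k) ∧ ∀ k', k < k' → ¬ (k' < P.K ∧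
            ∃ w, Good P f k' w ∧ w * P.M ^ k' ≤ u' ∧ u' < (w + 1) * P.M ^ k') := by
          classical
          obtain ⟨k, hk⟩ := hex
          let S := (Finset.range P.K).filter (fun k => k < P.K ∧ ∃ w, Good P f k w ∧
            w * P.M ^ k ≤ u' ∧ u' < (w + 1) * P.M ^ k)
          have hS : S.Nonempty := ⟨k, by simp only [S, Finset.mem_filter, Finset.mem_range]; exact ⟨hk.1, hk⟩⟩
          refine ⟨S.max' hS, ?_, ?_⟩
          · have := S.max'_mem hS
            exact (Finset.mem_filter.mp this).2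
          · intro k' hk' hc
            have hmem : k' ∈ S := by
              simp only [S, Finset.mem_filter, Finset.mem_range]; exact ⟨hc.1, hc⟩
            have := S.le_max' k' hmem
            omega
        have hMk : 0 < P.M ^ k := Nat.pow_pos (by omega)
        have e1 : (w + 1) * P.M ^ k = u' + 1 := by
          by_contra hne
          exact hI ⟨k, w, hg, by omega, by omega⟩
        have e2 : w * P.M ^ k + P.M ^ k = u' + 1 := by rw [← e1]; ring
        have hI' : ¬ Inner P f (w * P.M ^ k) := by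
          rintro ⟨k', w', hg', g1, g2⟩
          have hMk' : 0 < P.M ^ k' := Nat.pow_pos (by omega)
          rcases Nat.lt_or_ge k k' with hkk | hkk
          · apply hmax k' hkk
            refine ⟨hg'.1, w', hg', by omega, ?_⟩
            have hd : P.M ^ k' = P.M ^ k * P.M ^ (k' - k) := by
              rw [← pow_add]; congr 1; omega
            have g3 : w * P.M ^ k < (w' + 1) * P.M ^ (k' - k) * P.M ^ k := by
              calc w * P.M ^ k < (w' + 1) * P.M ^ k' := g2
                _ = _ := by rw [hd]; ring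
            have g4 : w < (w' + 1) * P.M ^ (k' - k) := Nat.lt_of_mul_lt_mul_right g3
            have g5 : (w + 1) * P.M ^ k ≤ (w' + 1) * P.M ^ (k' - k) * P.M ^ k :=
              Nat.mul_le_mul_right _ g4
            have g6 : (w' + 1) * P.M ^ (k' - k) * P.M ^ k = (w' + 1) * P.M ^ k' := by
              rw [hd]; ring
            omega
          · have hd : P.M ^ k = P.M ^ k' * P.M ^ (k - k') := by
              rw [← pow_add]; congr 1; omega
            have g3 : w * P.M ^ k = w * P.M ^ (k - k') * P.M ^ k' := by rw [hd]; ring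
            rw [g3] at g1 g2
            have g4 := Nat.lt_of_mul_lt_mul_right g1
            have g5 := Nat.lt_of_mul_lt_mul_right g2
            omega
        have i1 := ih (w * P.M ^ k) (by omega) (by omega) hI'
        have i2 := P.step_good hM hA hf hend hg
        rw [e1, show (w + 1) * P.W k = (u' + 1) * P.W 0 by rw [P.W_eq k, ← e1]; ring,
          show w * P.W k = w * P.M ^ k * P.W 0 by rw [P.W_eq k]; ring] at i2
        have i3 : (P.Q : ℝ) * P.r k = (P.M : ℝ) ^ k * (P.Q * P.r 0) := by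
          rw [P.r_eq k]; push_cast; ring
        have i4 : ((u' + 1 : ℕ) : ℝ) = (w : ℝ) * (P.M : ℝ) ^ k + (P.M : ℝ) ^ k := by
          rw [← e2]; push_cast; ring
        have i5 : (P.W 0 : ℝ) * badCount P f (w * P.M ^ k) ≤ P.W 0 * badCount P f (u' + 1) := by
          have h1 : (badCount P f (w * P.M ^ k) : ℝ) ≤ badCount P f (u' + 1) := by
            exact_mod_cast badCount_mono P f (by omega)
          exact mul_le_mul_of_nonneg_left h1 (by positivity)
        rw [i3] at i2
        rw [i4]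
        push_cast at i1
        linarith

theorem Par.out_le (P : Par) (hM : 2 ≤ P.M) (hA : Acc P) {f : ℕ → ℕ} (hf : Monotone f)
    (hend : f P.lx = P.ly) :
    (P.out : ℝ) ≤ (1 + 4 / (P.M : ℝ)) * prefixCost P.X P.Y f P.lx +
      12 * (P.B 0 * (P.Q * P.r 0)) + 2 * (P.W 0 * badCount P f (P.B 0)) + 2 * P.W 0 + P.r 0 := by
  have hr : 0 < P.r 0 := Nat.pow_pos (by omega)
  have hM' : (2 : ℝ) ≤ P.M := by exact_mod_cast hM
  have h4M : (0 : ℝ) ≤ 4 / (P.M : ℝ) := by positivity
  have hI : ¬ Inner P f (P.B 0) := by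
    rintro ⟨k, w, hg, h1, h2⟩
    have h3 : (w + 1) * P.M ^ k ≤ P.B k * P.M ^ k := Nat.mul_le_mul_right _ hg.2.2.1
    have h4 : P.B k * P.M ^ k ≤ P.B 0 := by rw [P.B_eq]; exact Nat.div_mul_le_self _ _
    omega
  have i1 := P.complete hM hA hf hend (P.B 0) le_rfl hI
  have hBW : P.B 0 * P.W 0 ≤ P.lx := Nat.div_mul_le_self _ _
  have hBW' : P.lx < P.B 0 * P.W 0 + P.W 0 := Nat.lt_div_mul_add (P.W_pos hM 0)
  have hfl : f (P.B 0 * P.W 0) ≤ P.ly := by rw [← hend]; exact hf hBW
  have ha : f (P.B 0 * P.W 0) / P.r 0 ≤ P.G 0 := Nat.div_le_div_right hfl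
  have i2 := P.C_right' (P.B 0) ha
  have i3 : P.G 0 * P.r 0 ≤ P.ly := Nat.div_mul_le_self _ _
  have i4 : f (P.B 0 * P.W 0) < f (P.B 0 * P.W 0) / P.r 0 * P.r 0 + P.r 0 :=
    Nat.lt_div_mul_add hr
  have i4' : f (P.B 0 * P.W 0) / P.r 0 * P.r 0 ≤ f (P.B 0 * P.W 0) := Nat.div_mul_le_self _ _
  have i4'' : f (P.B 0 * P.W 0) / P.r 0 * P.r 0 ≤ P.G 0 * P.r 0 := Nat.mul_le_mul_right _ ha
  have i5 : (P.G 0 - f (P.B 0 * P.W 0) / P.r 0) * P.r 0 + (P.ly - P.G 0 * P.r 0) ≤
      P.ly - f (P.B 0 * P.W 0) + P.r 0 := by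
    rw [Nat.sub_mul]; omega
  have i6 := dist_le_prefixCost P.X P.Y hf (P.B 0 * P.W 0) (P.lx - P.B 0 * P.W 0)
  rw [show P.B 0 * P.W 0 + (P.lx - P.B 0 * P.W 0) = P.lx by omega, hend] at i6
  have i7 := le_dist P.X P.Y (P.B 0 * P.W 0) (P.lx - P.B 0 * P.W 0) (f (P.B 0 * P.W 0))
    (P.ly - f (P.B 0 * P.W 0))
  have i8 : P.out + prefixCost P.X P.Y f (P.B 0 * P.W 0) ≤
      P.C (P.B 0) (f (P.B 0 * P.W 0) / P.r 0) + prefixCost P.X P.Y f P.lx + 2 * P.W 0 + P.r 0 +
        P.B 0 * (P.Q * P.r 0) := by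
    unfold Par.out; omega
  have i9 : (P.out : ℝ) + prefixCost P.X P.Y f (P.B 0 * P.W 0) ≤
      P.C (P.B 0) (f (P.B 0 * P.W 0) / P.r 0) + prefixCost P.X P.Y f P.lx + 2 * P.W 0 + P.r 0 +
        P.B 0 * (P.Q * P.r 0) := by exact_mod_cast i8
  have j1 : (prefixCost P.X P.Y f (P.B 0 * P.W 0) : ℝ) ≤ prefixCost P.X P.Y f P.lx := by
    exact_mod_cast prefixCost_mono P.X P.Y f hBW
  have j2 : 4 / (P.M : ℝ) * prefixCost P.X P.Y f (P.B 0 * P.W 0) ≤
      4 / (P.M : ℝ) * prefixCost P.X P.Y f P.lx := mul_le_mul_of_nonneg_left j1 h4M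
  linarith

end Vale.Agent.P315
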