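import Vale.Agent.P315.DP

/-! Sampled costs of lines at one scale. -/

set_option autoImplicit false

namespace Vale.Agent.P315

/-- The data of the coarse computation: input, samples, lengths, base, number of scales. -/
structure Par where
  X : ℕ → ℕ
  Y : ℕ → ℕ
  smp : ℕ → ℕ
  lx : ℕ
  ly : ℕ
  n : ℕ
  M : ℕ
  K : ℕ

namespace Par
variable (P : Par)
/-- Number of sub-blocks per block. -/
def Q : ℕ := P.M ^ 12
/-- Number of samples. -/
def m : ℕ := P.M ^ 8
/-- Largest window of a sub-block, in grid units. -/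
def H : ℕ := P.M ^ 3 + 1
/-- Largest window of a block, in grid units. -/
def hm : ℕ := P.Q * P.M ^ 3
/-- Grid width at scale `k`. -/
def r (k : ℕ) : ℕ := P.M ^ (5 + k)
/-- Length of the sub-blocks at scale `k`. -/
def l (k : ℕ) : ℕ := P.r k * P.M * P.M
/-- Length of the blocks at scale `k`. -/
def W (k : ℕ) : ℕ := P.l k * P.Q
/-- Number of grid columns at scale `k`. -/
def G (k : ℕ) : ℕ := P.ly / P.r k
/-- Number of blocks at scale `k`. -/
def B (k : ℕ) : ℕ := P.lx / P.W k
/-- Address of the value of a line. -/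
def idx (k u a h : ℕ) : ℕ := ((k * (P.B 0 + 1) + u) * (P.G 0 + 1) + a) * (P.hm + 1) + h
/-- Cost of one sampled sub-block with one window. -/
def tv (k u q g h : ℕ) : ℕ :=
  dist P.X P.Y (u * P.W k + q * P.l k) (P.l k) (g * P.r k) (h * P.r k)
/-- Sampled cost of a line. -/
def lv (k u a h : ℕ) : ℕ :=
  (∑ i ∈ Finset.range P.m, P.tv k u (P.smp i) (a + h * P.smp i / P.Q)
    (h * (P.smp i + 1) / P.Q - h * P.smp i / P.Q)) * P.Q / P.m
end Par

/-- The registers with the global data. -/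
structure Glob (P : Par) (s : State) : Prop where
  x : s.arr 0 = P.X
  y : s.arr 1 = P.Y
  smp : ∀ i, i < P.m → s.arr 3 i = P.smp i
  r0 : s.reg 0 = P.lx
  r1 : s.reg 1 = P.ly
  r3 : s.reg 3 = P.n
  r4 : s.reg 4 = P.M
  r6 : s.reg 6 = P.Q
  r7 : s.reg 7 = P.m
  r8 : s.reg 8 = P.H
  r40 : s.reg 40 = P.G 0
  r41 : s.reg 41 = P.B 0
  r42 : s.reg 42 = P.hm
  r43 : s.reg 43 = P.r 0
  r44 : s.reg 44 = P.W 0
  r45 : s.reg 45 = P.M ^ 16
  r46 : s.reg 46 = P.K

/-- The registers with the data of scale `k`. -/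
structure Stage (P : Par) (k : ℕ) (s : State) : Prop extends Glob P s where
  r9 : s.reg 9 = k
  r5 : s.reg 5 = P.r k
  r21 : s.reg 21 = P.W k
  r22 : s.reg 22 = P.l k
  r23 : s.reg 23 = P.G k
  r24 : s.reg 24 = P.B k

/-- Registers with global data. -/
def keysG : List ℕ := [0, 1, 3, 4, 6, 7, 8, 40, 41, 42, 43, 44, 45, 46]
/-- Registers with the data of a scale. -/
def keysS : List ℕ := [5, 9, 21, 22, 23, 24]

theorem Glob.frame {P : Par} {s s' : State} (h : Glob P s) {wr wa : List ℕ}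
    (hf : Frame s s' wr wa) (h1 : ∀ k ∈ keysG, k ∉ wr) (h2 : ∀ j ∈ [0, 1, 3], j ∉ wa) :
    Glob P s' where
  x := (hf.arr 0 (h2 0 (by decide))).trans h.x
  y := (hf.arr 1 (h2 1 (by decide))).trans h.y
  smp := fun i hi => by rw [hf.arr 3 (h2 3 (by decide))]; exact h.smp i hi
  r0 := (hf.reg 0 (h1 0 (by decide))).trans h.r0
  r1 := (hf.reg 1 (h1 1 (by decide))).trans h.r1
  r3 := (hf.reg 3 (h1 3 (by decide))).trans h.r3
  r4 := (hf.reg 4 (h1 4 (by decide))).trans h.r4
  r6 := (hf.reg 6 (h1 6 (by decide))).trans h.r6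
  r7 := (hf.reg 7 (h1 7 (by decide))).trans h.r7
  r8 := (hf.reg 8 (h1 8 (by decide))).trans h.r8
  r40 := (hf.reg 40 (h1 40 (by decide))).trans h.r40
  r41 := (hf.reg 41 (h1 41 (by decide))).trans h.r41
  r42 := (hf.reg 42 (h1 42 (by decide))).trans h.r42
  r43 := (hf.reg 43 (h1 43 (by decide))).trans h.r43
  r44 := (hf.reg 44 (h1 44 (by decide))).trans h.r44
  r45 := (hf.reg 45 (h1 45 (by decide))).trans h.r45
  r46 := (hf.reg 46 (h1 46 (by decide))).trans h.r46

theorem Stage.frame {P : Par} {k : ℕ} {s s' : State} (h : Stage P k s) {wr wa : List ℕ}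
    (hf : Frame s s' wr wa) (h1 : ∀ k ∈ keysG ++ keysS, k ∉ wr)
    (h2 : ∀ j ∈ [0, 1, 3], j ∉ wa) : Stage P k s' where
  toGlob := h.toGlob.frame hf (fun k hk => h1 k (List.mem_append_left _ hk)) h2
  r9 := (hf.reg 9 (h1 9 (by decide))).trans h.r9
  r5 := (hf.reg 5 (h1 5 (by decide))).trans h.r5
  r21 := (hf.reg 21 (h1 21 (by decide))).trans h.r21
  r22 := (hf.reg 22 (h1 22 (by decide))).trans h.r22
  r23 := (hf.reg 23 (h1 23 (by decide))).trans h.r23
  r24 := (hf.reg 24 (h1 24 (by decide))).trans h.r24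

theorem Glob.setReg {P : Par} {s : State} (h : Glob P s) (i v : ℕ) (h1 : i ∉ keysG) :
    Glob P (s.setReg i v) :=
  h.frame (frame_setReg s i v) (fun k hk hk' => h1 (by simp at hk'; exact hk' ▸ hk))
    (fun _ _ => by simp)

theorem Stage.setReg {P : Par} {k : ℕ} {s : State} (h : Stage P k s) (i v : ℕ)
    (h1 : i ∉ keysG ++ keysS) : Stage P k (s.setReg i v) :=
  h.frame (frame_setReg s i v) (fun k hk hk' => h1 (by simp at hk'; exact hk' ▸ hk))
    (fun _ _ => by simp)

theorem frame_setArr (s : State) (j i v : ℕ) : Frame s (s.setArr j i v) [] [j] :=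
  ⟨fun _ _ => rfl, fun k hk => State.setArr_arr_ne _ _ _ (by simpa using hk)⟩

theorem Stage.setArr {P : Par} {k : ℕ} {s : State} (h : Stage P k s) (j i v : ℕ)
    (h1 : j ∉ [0, 1, 3]) : Stage P k (s.setArr j i v) :=
  h.frame (frame_setArr s j i v) (fun _ _ => by simp)
    (fun k hk hk' => h1 (by simp at hk'; exact hk' ▸ hk))

theorem Glob.setArr {P : Par} {s : State} (h : Glob P s) (j i v : ℕ)
    (h1 : j ∉ [0, 1, 3]) : Glob P (s.setArr j i v) :=
  h.frame (frame_setArr s j i v) (fun _ _ => by simp)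
    (fun k hk hk' => h1 (by simp at hk'; exact hk' ▸ hk))

/-- The number relations used in the verification of the bounds. -/
structure Fit (P : Par) (E : Env) : Prop where
  hM : 2 ≤ P.M
  hR : 8 * P.n + 8 ≤ E.R
  hRM : P.M ^ (P.K + 6) ≤ E.R
  hlx : P.lx ≤ P.n
  hly : P.ly ≤ P.n
  hn : P.M ^ 21 ≤ P.n
  hsmp : ∀ i, i < P.m → P.smp i < P.Q

/-- Cost of the computation of the windows of one sampled sub-block at one grid point. -/
def tabCell : Prog :=
  .seq (.set 10 (eadd (emul (.reg 25) (.reg 21)) (emul (.reg 27) (.reg 22))))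
  (.seq (.set 11 (.reg 22))
  (.seq (.set 12 (emul (.reg 28) (.reg 5)))
  (.seq (.set 13 (emul (.reg 8) (.reg 5)))
  (.seq (.set 14 (eadd (.reg 22) (emul (.reg 8) (.reg 5))))
  (.seq dp
    (.loop 29 (eadd (.reg 8) (.lit 1))
      (.put 4 (eadd (emul (eadd (emul (.reg 26) (eadd (.reg 23) (.lit 1))) (.reg 28))
        (eadd (.reg 8) (.lit 1))) (.reg 29)) (.get 2 (emul (.reg 29) (.reg 5))))))))))

/-- The content of the table at address `p`. -/
def Par.tabVal (P : Par) (k u p : ℕ) : ℕ :=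
  P.tv k u (P.smp (p / (P.H + 1) / (P.G k + 1))) (p / (P.H + 1) % (P.G k + 1)) (p % (P.H + 1))

theorem mul_add_div_mod (a d h : ℕ) (hh : h < d) : (a * d + h) / d = a ∧ (a * d + h) % d = h := by
  have hd : 0 < d := by omega
  constructor
  · rw [Nat.add_comm, Nat.add_mul_div_right _ _ hd, Nat.div_eq_of_lt hh]; omega
  · rw [Nat.add_comm, Nat.add_mul_mod_self_right, Nat.mod_eq_of_lt hh]

theorem Par.tabVal_eq (P : Par) (k u i g h : ℕ) (hg : g ≤ P.G k) (hh : h ≤ P.H) :
    P.tabVal k u ((i * (P.G k + 1) + g) * (P.H + 1) + h) = P.tv k u (P.smp i) g h := by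
  have h1 := mul_add_div_mod (i * (P.G k + 1) + g) (P.H + 1) h (by omega)
  have h2 := mul_add_div_mod i (P.G k + 1) g (by omega)
  unfold Par.tabVal
  rw [h1.1, h1.2, h2.1, h2.2]

/-- Time for `tabCell`. -/
def cCell (P : Par) (k : ℕ) : ℕ :=
  ((P.H * P.r k + 1) * 14 + P.l k * (62 + P.H * P.r k * 122)) + (P.H + 1) * 20

theorem tabCell_spec {E : Env} {P : Par} {k u i g : ℕ} {s : State} (hS : Stage P k s)
    (h25 : s.reg 25 = u) (h26 : s.reg 26 = i) (h27 : s.reg 27 = P.smp i) (h28 : s.reg 28 = g)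
    (hg : g ≤ P.G k) (hR1 : P.l k + P.H * P.r k + 1 ≤ E.R)
    (hR2 : u * P.W k + P.smp i * P.l k ≤ E.R) (hR3 : g * P.r k ≤ E.R) (hR4 : P.H + 1 ≤ E.R)
    (htab : ∀ p < (i * (P.G k + 1) + g) * (P.H + 1), s.arr 4 p = P.tabVal k u p) :
    Spec E s tabCell (42 + cCell P k)
      (fun s' => ∀ p < (i * (P.G k + 1) + (g + 1)) * (P.H + 1), s'.arr 4 p = P.tabVal k u p) := by
  unfold tabCell
  refine Spec.set_seq (u * P.W k + P.smp i * P.l k) rfl (by decide) ?_ (fun _ => hR2) ?_
  · simp [h25, h27, hS.r21, hS.r22]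
  have hS1 := hS.setReg 10 (u * P.W k + P.smp i * P.l k) (by decide)
  refine Spec.set_seq (P.l k) rfl (by decide) ?_ (fun _ => by omega) ?_
  · simp [hS.r22]
  refine Spec.set_seq (g * P.r k) rfl (by decide) ?_ (fun _ => hR3) ?_
  · simp [h28, hS.r5]
  refine Spec.set_seq (P.H * P.r k) rfl (by decide) ?_ (fun _ => by omega) ?_
  · simp [hS.r8, hS.r5]
  refine Spec.set_seq (P.l k + P.H * P.r k) rfl (by decide) ?_ (fun _ => by omega) ?_
  · simp [hS.r8, hS.r5, hS.r22]
  refine Spec.seq 10 ((P.H * P.r k + 1) * 14 + P.l k * (62 + P.H * P.r k * 122))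
    4 ((P.H + 1) * 20)
    (fun s' => ∀ j ≤ P.H * P.r k, s'.arr 2 j =
      cap P.X P.Y (u * P.W k + P.smp i * P.l k) (g * P.r k) (P.l k + P.H * P.r k) (P.l k) j)
    (by decide) le_rfl ?_ ?_
  · refine Spec.le (dp_spec (X := P.X) (Y := P.Y) ?_ ?_ ?_ ?_ ?_ ?_ ?_ hR1 (by omega)) ?_
    · simpa using hS.x
    · simpa using hS.y
    · simp
    · simp
    · simp
    · simp
    · simp
    · refine Nat.add_le_add_left (Nat.add_le_add_left (Nat.mul_le_mul_left _ ?_) _) _
      exact Nat.add_le_add_left (Nat.mul_le_mul_right _ (min_le_left _ _)) _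
  · intro s1 hf1 hdp
    have hcap : ∀ h, h ≤ P.H → s1.arr 2 (h * P.r k) = P.tv k u (P.smp i) g h := by
      intro h hh
      have h1 : h * P.r k ≤ P.H * P.r k := Nat.mul_le_mul_right _ hh
      rw [hdp _ h1, cap, Par.tv]
      have := dist_le P.X P.Y (u * P.W k + P.smp i * P.l k) (P.l k) (g * P.r k) (h * P.r k)
      omega
    have g5 : s1.reg 5 = P.r k := by rw [hf1.reg 5 (by decide)]; simpa using hS.r5
    have g8 : s1.reg 8 = P.H := by rw [hf1.reg 8 (by decide)]; simpa using hS.r8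
    have g23 : s1.reg 23 = P.G k := by rw [hf1.reg 23 (by decide)]; simpa using hS.r23
    have g26 : s1.reg 26 = i := by rw [hf1.reg 26 (by decide)]; simpa using h26
    have g28 : s1.reg 28 = g := by rw [hf1.reg 28 (by decide)]; simpa using h28
    have g4 : s1.arr 4 = s.arr 4 := by rw [hf1.arr 4 (by decide)]; rfl
    refine Spec.mono (Spec.loop (P.H + 1) (18 + 0) (fun h s' =>
      (∀ p < (i * (P.G k + 1) + g) * (P.H + 1) + h, s'.arr 4 p = P.tabVal k u p))
      rfl (by decide) le_rfl ?_ (fun _ => hR4) ?_ ?_) le_rfl ?_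
    · simp [g8]
    · intro _ p hp; rw [g4]; exact htab p (by omega)
    · intro h hh s' hb hf hI
      have e5 : s'.reg 5 = P.r k := by rw [hf.reg 5 (by decide)]; exact g5
      have e8 : s'.reg 8 = P.H := by rw [hf.reg 8 (by decide)]; exact g8
      have e23 : s'.reg 23 = P.G k := by rw [hf.reg 23 (by decide)]; exact g23
      have e26 : s'.reg 26 = i := by rw [hf.reg 26 (by decide)]; exact g26
      have e28 : s'.reg 28 = g := by rw [hf.reg 28 (by decide)]; exact g28
      have e2 : s'.arr 2 = s1.arr 2 := hf.arr 2 (by decide)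
      refine Spec.put ((i * (P.G k + 1) + g) * (P.H + 1) + h) (P.tv k u (P.smp i) g h)
        (by norm_num) rfl rfl (by decide) ?_ ?_ (fun _ => ?_) ?_
      · simp [e8, e23, e26, e28]
      · simp [e5, e2]; exact hcap h (by omega)
      · rw [← hcap h (by omega), ← e2]; exact hb.arr 2 le_rfl _
      · intro _ p hp
        by_cases hpp : p = (i * (P.G k + 1) + g) * (P.H + 1) + h
        · subst hpp; simp; rw [Par.tabVal_eq _ _ _ _ _ _ hg (by omega)]
        · simp [hpp]; exact hI p (by omega)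
    · intro s' h p hp
      apply h p
      have : (i * (P.G k + 1) + (g + 1)) * (P.H + 1) =
        (i * (P.G k + 1) + g) * (P.H + 1) + (P.H + 1) := by ring
      omega

/-- The table of one block at one scale. -/
def tabProg : Prog :=
  .loop 26 (.reg 7) (.seq (.set 27 (.get 3 (.reg 26)))
    (.loop 28 (eadd (.reg 23) (.lit 1)) tabCell))

theorem tabProg_spec {E : Env} {P : Par} {k u : ℕ} {s : State} (hF : Fit P E) (hS : Stage P k s)
    (h25 : s.reg 25 = u) (hR1 : P.l k + P.H * P.r k + 1 ≤ E.R)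
    (hu : u < P.B k) (hmR : P.m ≤ E.R) (hQR : P.Q ≤ E.R) :
    Spec E s tabProg (2 + P.m * (10 + (P.G k + 1) * (44 + cCell P k)))
      (fun s' => ∀ i < P.m, ∀ g ≤ P.G k, ∀ h ≤ P.H,
        s'.arr 4 ((i * (P.G k + 1) + g) * (P.H + 1) + h) = P.tv k u (P.smp i) g h) := by
  have hWk : (u + 1) * P.W k ≤ P.lx := by
    have h1 : P.B k * P.W k ≤ P.lx := Nat.div_mul_le_self _ _
    have h2 : (u + 1) * P.W k ≤ P.B k * P.W k := Nat.mul_le_mul_right _ (by omega)
    omega
  have hlxR : P.lx ≤ E.R := by have := hF.hlx; have := hF.hR; omega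
  have hlyR : P.ly + 1 ≤ E.R := by have := hF.hly; have := hF.hR; omega
  have hGr : P.G k * P.r k ≤ P.ly := Nat.div_mul_le_self _ _
  have hr1 : 1 ≤ P.r k := Nat.one_le_pow _ _ (by have := hF.hM; omega)
  have hG1 : P.G k ≤ P.ly := Nat.div_le_self _ _
  unfold tabProg
  refine Spec.mono (Spec.loop P.m (8 + (P.G k + 1) * (44 + cCell P k))
    (fun i s' => ∀ p < (i * (P.G k + 1)) * (P.H + 1), s'.arr 4 p = P.tabVal k u p)
    rfl (by decide) (le_of_eq (by ring)) ?_ (fun _ => hmR) ?_ ?_) le_rfl ?_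
  · simp [hS.r7]
  · intro _ p hp; omega
  · intro i hi s' hb hf hI
    have hS' := hS.frame hf (by decide) (by decide)
    have e25 : s'.reg 25 = u := by rw [hf.reg 25 (by decide)]; exact h25
    refine Spec.set_seq (P.smp i) rfl (by decide) ?_ (fun _ => ?_) ?_
    · simp [hS'.smp i hi]
    · have := hF.hsmp i hi; omega
    refine Spec.mono (Spec.loop (P.G k + 1) (42 + cCell P k)
      (fun g s'' => ∀ p < (i * (P.G k + 1) + g) * (P.H + 1), s''.arr 4 p = P.tabVal k u p)
      rfl (by decide) (le_of_eq (by ring)) ?_ (fun _ => by omega) ?_ ?_) le_rfl ?_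
    · simp [hS'.r23]
    · intro _ p hp; simpa using hI p (by omega)
    · intro g hg s'' hb'' hf'' hI''
      have hS'' := (((hS'.setReg 26 i (by decide)).setReg 27 (P.smp i) (by decide)).frame hf''
        (by decide) (by decide)).setReg 28 g (by decide)
      refine tabCell_spec hS'' ?_ ?_ ?_ ?_ (by omega) hR1 ?_ ?_ ?_ ?_
      · simp; rw [hf''.reg 25 (by decide)]; simpa using e25
      · simp; rw [hf''.reg 26 (by decide)]; simp
      · simp; rw [hf''.reg 27 (by decide)]; simp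
      · simp
      · have h1 : P.smp i * P.l k ≤ P.Q * P.l k := Nat.mul_le_mul_right _
          (hF.hsmp i hi).le
        have h2 : P.Q * P.l k = P.W k := by unfold Par.W; ring
        have h3 : (u + 1) * P.W k = u * P.W k + P.W k := by ring
        omega
      · have : g * P.r k ≤ P.G k * P.r k := Nat.mul_le_mul_right _ (by omega)
        omega
      · have : P.H * 1 ≤ P.H * P.r k := Nat.mul_le_mul_left _ hr1
        omega
      · simpa using hI''
    · intro s'' h p hp
      apply h p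
      rw [show i * (P.G k + 1) + (P.G k + 1) = (i + 1) * (P.G k + 1) by ring]
      exact hp
  · intro s' h i hi g hg hh hhh
    rw [h, Par.tabVal_eq _ _ _ _ _ _ hg hhh]
    have h1 : i * (P.G k + 1) + g + 1 ≤ P.m * (P.G k + 1) := by
      have : (i + 1) * (P.G k + 1) ≤ P.m * (P.G k + 1) := Nat.mul_le_mul_right _ (by omega)
      have h2 : (i + 1) * (P.G k + 1) = i * (P.G k + 1) + (P.G k + 1) := by ring
      omega
    have h2 : (i * (P.G k + 1) + g + 1) * (P.H + 1) ≤ P.m * (P.G k + 1) * (P.H + 1) :=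
      Nat.mul_le_mul_right _ h1
    have h3 : (i * (P.G k + 1) + g + 1) * (P.H + 1) =
      (i * (P.G k + 1) + g) * (P.H + 1) + (P.H + 1) := by ring
    omega

end Vale.Agent.P315
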