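import Vale.Agent.P315.Sampling

/-! With probability at least two thirds all sampled lines are accurate. -/

set_option autoImplicit false

namespace Vale.Agent.P315

/-- Cost of one sub-block along a line. -/
def Par.dl (P : Par) (k u a h q : ℕ) : ℕ :=
  P.tv k u q (a + h * q / P.Q) (h * (q + 1) / P.Q - h * q / P.Q)

theorem Par.line_acc (P : Par) (hM : 2 ≤ P.M) (k u a h : ℕ)
    (h1 : P.m * ∑ q ∈ Finset.range P.Q, P.dl k u a h q ≤
      P.Q * ∑ i ∈ Finset.range P.m, P.dl k u a h (P.smp i) + P.m * (P.Q * P.r k))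
    (h2 : P.Q * ∑ i ∈ Finset.range P.m, P.dl k u a h (P.smp i) ≤
      P.m * ∑ q ∈ Finset.range P.Q, P.dl k u a h q + P.m * (P.Q * P.r k)) :
    P.hl k u a h ≤ P.lv k u a h + P.Q * P.r k ∧ P.lv k u a h ≤ P.hl k u a h + P.Q * P.r k := by
  have hm : 0 < P.m := Nat.pow_pos (by omega)
  have e1 : P.hl k u a h = ∑ q ∈ Finset.range P.Q, P.dl k u a h q := rfl
  have e2 : P.lv k u a h = (∑ i ∈ Finset.range P.m, P.dl k u a h (P.smp i)) * P.Q / P.m := rfl
  rw [e1, e2]
  set S := ∑ i ∈ Finset.range P.m, P.dl k u a h (P.smp i) with hS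
  set H := ∑ q ∈ Finset.range P.Q, P.dl k u a h q with hH
  constructor
  · have : H - P.Q * P.r k ≤ S * P.Q / P.m := by
      rw [Nat.le_div_iff_mul_le hm, Nat.sub_mul]
      have e3 : H * P.m = P.m * H := by ring
      have e4 : P.Q * P.r k * P.m = P.m * (P.Q * P.r k) := by ring
      have e5 : S * P.Q = P.Q * S := by ring
      omega
    omega
  · apply Nat.div_le_of_le_mul
    have e3 : P.m * (H + P.Q * P.r k) = P.m * H + P.m * (P.Q * P.r k) := by ring
    have e5 : S * P.Q = P.Q * S := by ring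
    omega

theorem two_thirds {X Y : ℕ → ℕ} {lx ly n M K N T : ℕ} (hM : 2 ≤ M) (hlx : lx ≤ n)
    (hly : ly ≤ n) (hN : M ^ 12 ∣ N) (hT : M ^ 8 ≤ T)
    (hexp : 6 * K * ((n : ℝ) + 1) ^ 3 ≤ Real.exp ((M : ℝ) ^ 2 / 16)) :
    2 * Nat.card (Fin T → Fin N) ≤
      3 * Nat.card {ρ : Fin T → Fin N // Acc (mkPar (tape ρ) X Y lx ly n M K)} := by
  classical
  set P0 := mkPar (fun _ => 0) X Y lx ly n M K with hP0
  have hM' : (2 : ℝ) ≤ M := by exact_mod_cast hM
  have hQ : 0 < M ^ 12 := Nat.pow_pos (by omega)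
  have hm : 0 < M ^ 8 := Nat.pow_pos (by omega)
  -- the bad event of one line
  have hone : ∀ k u a h : ℕ, h ≤ P0.hm →
      ((Finset.univ.filter (fun ρ : Fin T → Fin N => ¬ (M ^ 8 * ∑ q ∈ Finset.range (M ^ 12),
        P0.dl k u a h q ≤ M ^ 12 * ∑ i ∈ Finset.range (M ^ 8), P0.dl k u a h (tape ρ i % M ^ 12) +
        M ^ 8 * (M ^ 12 * P0.r k) ∧
      M ^ 12 * ∑ i ∈ Finset.range (M ^ 8), P0.dl k u a h (tape ρ i % M ^ 12) ≤
        M ^ 8 * ∑ q ∈ Finset.range (M ^ 12), P0.dl k u a h q +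
          M ^ 8 * (M ^ 12 * P0.r k)))).card : ℝ) ≤
      2 * (Real.exp (-((M : ℝ) ^ 2 / 16)) * (N : ℝ) ^ T) := by
    intro k u a h hh
    have hr : 0 < P0.r k := Nat.pow_pos (by show 0 < M; omega)
    have hL : 0 < P0.l k + P0.H * P0.r k := by
      have : 0 < P0.H * P0.r k := Nat.mul_pos (Nat.succ_pos _) hr
      omega
    have hη : (1 : ℝ) / (2 * (M : ℝ) ^ 3) * ((P0.l k + P0.H * P0.r k : ℕ) : ℝ) ≤ P0.r k := by
      have e1 : ((P0.l k + P0.H * P0.r k : ℕ) : ℝ) = P0.r k * ((M : ℝ) ^ 2 + (M : ℝ) ^ 3 + 1) := by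
        have : P0.l k + P0.H * P0.r k = P0.r k * (M ^ 2 + M ^ 3 + 1) := by
          unfold Par.l Par.H
          show P0.r k * M * M + (M ^ 3 + 1) * P0.r k = _
          ring
        rw [this]; push_cast; ring
      rw [e1, one_div, inv_mul_le_iff₀ (by positivity)]
      have h2 : (M : ℝ) ^ 2 + (M : ℝ) ^ 3 + 1 ≤ 2 * (M : ℝ) ^ 3 := by
        have : (M : ℝ) ^ 3 = M * (M : ℝ) ^ 2 := by ring
        nlinarith [sq_nonneg ((M : ℝ) - 2)]
      have h3 : (0 : ℝ) ≤ P0.r k := by positivity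
      nlinarith
    have hη1 : (1 : ℝ) / (2 * (M : ℝ) ^ 3) ≤ 1 := by
      rw [div_le_one (by positivity)]
      have : (1 : ℝ) ≤ (M : ℝ) ^ 3 := one_le_pow₀ (by linarith)
      linarith
    have key := tail_two (T := T) (N := N) (m := M ^ 8) hQ hN hT (fun q => P0.dl k u a h q) hL
      (fun q _ => P0.tv_le k u q _ _ (P0.window_le hQ hh)) (by positivity) hη1 hη hm
    refine key.trans ?_
    have e2 : ((M ^ 8 : ℕ) : ℝ) * (1 / (2 * (M : ℝ) ^ 3)) ^ 2 / 4 = (M : ℝ) ^ 2 / 16 := by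
      have : (M : ℝ) ≠ 0 := by positivity
      push_cast
      field_simp
      norm_num
    rw [e2]
  -- the union
  set box := (Finset.range K) ×ˢ ((Finset.range (n + 1)) ×ˢ ((Finset.range (n + 1)) ×ˢ
    (Finset.range (n + 1)))) with hbox
  have hsub : (Finset.univ.filter (fun ρ : Fin T → Fin N =>
      ¬ Acc (mkPar (tape ρ) X Y lx ly n M K))) ⊆ box.biUnion (fun z =>
      Finset.univ.filter (fun ρ : Fin T → Fin N => z.2.2.2 ≤ P0.hm ∧
        ¬ (M ^ 8 * ∑ q ∈ Finset.range (M ^ 12),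
        P0.dl z.1 z.2.1 z.2.2.1 z.2.2.2 q ≤ M ^ 12 * ∑ i ∈ Finset.range (M ^ 8),
          P0.dl z.1 z.2.1 z.2.2.1 z.2.2.2 (tape ρ i % M ^ 12) + M ^ 8 * (M ^ 12 * P0.r z.1) ∧
      M ^ 12 * ∑ i ∈ Finset.range (M ^ 8),
          P0.dl z.1 z.2.1 z.2.2.1 z.2.2.2 (tape ρ i % M ^ 12) ≤
        M ^ 8 * ∑ q ∈ Finset.range (M ^ 12), P0.dl z.1 z.2.1 z.2.2.1 z.2.2.2 q +
          M ^ 8 * (M ^ 12 * P0.r z.1)))) := by
    intro ρ hρ
    have hρ' := (Finset.mem_filter.mp hρ).2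
    unfold Acc at hρ'
    push Not at hρ'
    obtain ⟨k, hk, hv, u, hu, a, ha, h, hh, hah, hne⟩ := hρ'
    have hMP : 2 ≤ (mkPar (tape ρ) X Y lx ly n M K).M := hM
    obtain ⟨b1, b2, b3, b4, b5, b6, b7⟩ := (mkPar (tape ρ) X Y lx ly n M K).bounds hMP hv
    have hB : (mkPar (tape ρ) X Y lx ly n M K).B k ≤ lx := Nat.div_le_self _ _
    have hG : (mkPar (tape ρ) X Y lx ly n M K).G k ≤ ly := Nat.div_le_self _ _
    have hhn : h ≤ n := hh.trans b6
    rw [Finset.mem_biUnion]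
    refine ⟨(k, u, a, h), ?_, ?_⟩
    · rw [hbox]
      simp only [Finset.mem_product, Finset.mem_range]
      have hk' : k < K := hk
      omega
    · rw [Finset.mem_filter]
      refine ⟨Finset.mem_univ _, hh, ?_⟩
      rintro ⟨g1, g2⟩
      have := (mkPar (tape ρ) X Y lx ly n M K).line_acc hMP k u a h g1 g2
      have h3 := hne this.1
      omega
  have hcard : ((Finset.univ.filter (fun ρ : Fin T → Fin N =>
      ¬ Acc (mkPar (tape ρ) X Y lx ly n M K))).card : ℝ) ≤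
      K * ((n : ℝ) + 1) ^ 3 * (2 * (Real.exp (-((M : ℝ) ^ 2 / 16)) * (N : ℝ) ^ T)) := by
    refine (Nat.cast_le.mpr (Finset.card_le_card hsub)).trans ?_
    refine (Nat.cast_le.mpr Finset.card_biUnion_le).trans ?_
    rw [Nat.cast_sum]
    calc _ ≤ ∑ z ∈ box, (2 * (Real.exp (-((M : ℝ) ^ 2 / 16)) * (N : ℝ) ^ T)) := by
          apply Finset.sum_le_sum
          intro z _
          by_cases hz : z.2.2.2 ≤ P0.hm
          · refine le_trans ?_ (hone z.1 z.2.1 z.2.2.1 z.2.2.2 hz)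
            apply Nat.cast_le.mpr
            apply Finset.card_le_card
            intro ρ hρ
            exact Finset.mem_filter.mpr ⟨Finset.mem_univ _, (Finset.mem_filter.mp hρ).2.2⟩
          · have : (Finset.univ.filter (fun ρ : Fin T → Fin N => z.2.2.2 ≤ P0.hm ∧
              ¬ (M ^ 8 * ∑ q ∈ Finset.range (M ^ 12),
              P0.dl z.1 z.2.1 z.2.2.1 z.2.2.2 q ≤ M ^ 12 * ∑ i ∈ Finset.range (M ^ 8),
                P0.dl z.1 z.2.1 z.2.2.1 z.2.2.2 (tape ρ i % M ^ 12) +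
                  M ^ 8 * (M ^ 12 * P0.r z.1) ∧
              M ^ 12 * ∑ i ∈ Finset.range (M ^ 8),
                P0.dl z.1 z.2.1 z.2.2.1 z.2.2.2 (tape ρ i % M ^ 12) ≤
              M ^ 8 * ∑ q ∈ Finset.range (M ^ 12), P0.dl z.1 z.2.1 z.2.2.1 z.2.2.2 q +
                M ^ 8 * (M ^ 12 * P0.r z.1)))) = ∅ := by
              apply Finset.filter_eq_empty_iff.mpr
              intro ρ _ hc
              exact hz hc.1
            rw [this]
            simp only [Finset.card_empty, Nat.cast_zero]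
            positivity
      _ = _ := by
          rw [Finset.sum_const, nsmul_eq_mul, hbox]
          simp only [Finset.card_product, Finset.card_range]
          push_cast; ring
  have hbad : 3 * ((Finset.univ.filter (fun ρ : Fin T → Fin N =>
      ¬ Acc (mkPar (tape ρ) X Y lx ly n M K))).card : ℝ) ≤ (N : ℝ) ^ T := by
    have h1 : 6 * K * ((n : ℝ) + 1) ^ 3 * Real.exp (-((M : ℝ) ^ 2 / 16)) ≤ 1 := by
      rw [Real.exp_neg]
      have h2 := Real.exp_pos ((M : ℝ) ^ 2 / 16)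
      rw [← div_eq_mul_inv, div_le_one h2]
      exact hexp
    have h3 : (0 : ℝ) ≤ (N : ℝ) ^ T := by positivity
    calc 3 * ((Finset.univ.filter (fun ρ : Fin T → Fin N =>
      ¬ Acc (mkPar (tape ρ) X Y lx ly n M K))).card : ℝ) ≤
        3 * (K * ((n : ℝ) + 1) ^ 3 * (2 * (Real.exp (-((M : ℝ) ^ 2 / 16)) * (N : ℝ) ^ T))) := by
          linarith
      _ = (6 * K * ((n : ℝ) + 1) ^ 3 * Real.exp (-((M : ℝ) ^ 2 / 16))) * (N : ℝ) ^ T := by ring
      _ ≤ 1 * (N : ℝ) ^ T := mul_le_mul_of_nonneg_right h1 h3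
      _ = _ := by ring
  have hbad' : 3 * (Finset.univ.filter (fun ρ : Fin T → Fin N =>
      ¬ Acc (mkPar (tape ρ) X Y lx ly n M K))).card ≤ N ^ T := by exact_mod_cast hbad
  have htot := Finset.card_filter_add_card_filter_not (s := (Finset.univ :
    Finset (Fin T → Fin N))) (fun ρ => Acc (mkPar (tape ρ) X Y lx ly n M K))
  have hall : (Finset.univ : Finset (Fin T → Fin N)).card = N ^ T := by
    rw [Finset.card_univ]; simp
  rw [hall] at htot
  rw [Nat.card_eq_fintype_card, Nat.card_eq_fintype_card, Fintype.card_subtype]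
  simp only [Fintype.card_fun, Fintype.card_fin]
  omega

end Vale.Agent.P315
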