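import Vale.Agent.P315.Stage

/-! The coarse dynamic program over all scales. -/

set_option autoImplicit false

namespace Vale.Agent.P315

open Classical in
/-- Minimum over the first lines at scale `k` that end in block row `u + 1`, column `a`. -/
noncomputable def Par.lb (P : Par) (C : ℕ → ℕ → ℕ) (k u a acc : ℕ) : ℕ → ℕ
  | 0 => acc
  | h + 1 => min (P.lb C k u a acc h) (C (u + 1 - P.M ^ k) (a - h * P.M ^ k) +
      P.lv k ((u + 1) / P.M ^ k - 1) (a / P.M ^ k - h) h)

open Classical in
/-- Minimum over the deletion of a block and the lines of the scales below `k`. -/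
noncomputable def Par.kb (P : Par) (C : ℕ → ℕ → ℕ) (u a : ℕ) : ℕ → ℕ
  | 0 => C u a + P.W 0
  | k + 1 => if P.Valid k ∧ P.M ^ k ∣ u + 1 ∧ P.M ^ k ∣ a then
      P.lb C k u a (P.kb C u a k) (min (a / P.M ^ k) P.hm + 1) else P.kb C u a k

/-- The row after row `u`. -/
noncomputable def Par.newrow (P : Par) (C : ℕ → ℕ → ℕ) (u : ℕ) : ℕ → ℕ
  | 0 => P.kb C u 0 P.K
  | a + 1 => min (P.kb C u (a + 1) P.K) (P.newrow C u a + P.r 0)

/-- The rows up to `u`. -/
noncomputable def Par.tab (P : Par) : ℕ → ℕ → ℕ → ℕ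
  | 0 => fun _ a => a * P.r 0
  | u + 1 => fun u' => if u' ≤ u then P.tab u u' else P.newrow (P.tab u) u

/-- The coarse cost table. -/
noncomputable def Par.C (P : Par) (u a : ℕ) : ℕ := P.tab u u a

theorem Par.tab_of_le (P : Par) {u u' : ℕ} (h : u' ≤ u) (a : ℕ) : P.tab u u' a = P.C u' a := by
  induction u with
  | zero => have : u' = 0 := by omega
            subst this; rfl
  | succ u ih =>
    rcases Nat.lt_or_ge u' (u + 1) with h1 | h1
    · have h2 : u' ≤ u := by omega
      rw [← ih h2]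
      simp [Par.tab, h2]
    · have : u' = u + 1 := by omega
      subst this; rfl

theorem Par.C_succ (P : Par) (u a : ℕ) : P.C (u + 1) a = P.newrow (P.tab u) u a := by
  simp [Par.C, Par.tab]

theorem Par.lb_le (P : Par) (C : ℕ → ℕ → ℕ) (k u a acc h : ℕ) : P.lb C k u a acc h ≤ acc := by
  induction h with
  | zero => exact le_rfl
  | succ h ih => exact (min_le_left _ _).trans ih

theorem Par.kb_le (P : Par) (C : ℕ → ℕ → ℕ) (u a k : ℕ) : P.kb C u a k ≤ C u a + P.W 0 := by
  induction k with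
  | zero => exact le_rfl
  | succ k ih =>
    unfold Par.kb
    split_ifs
    · exact (P.lb_le _ _ _ _ _ _).trans ih
    · exact ih

theorem Par.newrow_le (P : Par) (C : ℕ → ℕ → ℕ) (u a : ℕ) : P.newrow C u a ≤ C u a + P.W 0 := by
  cases a with
  | zero => exact P.kb_le _ _ _ _
  | succ a => exact (min_le_left _ _).trans (P.kb_le _ _ _ _)

theorem Par.C_le (P : Par) (u a : ℕ) : P.C u a ≤ a * P.r 0 + u * P.W 0 := by
  induction u with
  | zero => simp [Par.C, Par.tab]
  | succ u ih =>
    rw [P.C_succ]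
    have h1 := P.newrow_le (P.tab u) u a
    rw [P.tab_of_le le_rfl] at h1
    have : (u + 1) * P.W 0 = u * P.W 0 + P.W 0 := by ring
    omega

theorem Par.W_eq (P : Par) (k : ℕ) : P.W k = P.W 0 * P.M ^ k := by
  unfold Par.W Par.l Par.r; ring

theorem Par.r_eq (P : Par) (k : ℕ) : P.r k = P.r 0 * P.M ^ k := by
  unfold Par.r; ring

theorem Par.B_eq (P : Par) (k : ℕ) : P.B k = P.B 0 / P.M ^ k := by
  unfold Par.B; rw [P.W_eq k, Nat.div_div_eq_div_mul]

theorem Par.G_eq (P : Par) (k : ℕ) : P.G k = P.G 0 / P.M ^ k := by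
  unfold Par.G; rw [P.r_eq k, Nat.div_div_eq_div_mul]

/-- The test whether scale `k` is used for the cell. -/
def condE : Expr :=
  emul (emul (elt (emul (emul (.reg 43) (.reg 34)) (.reg 45)) (eadd (.reg 3) (.lit 1)))
    (eeq (emod (eadd (.reg 25) (.lit 1)) (.reg 34)) (.lit 0)))
    (eeq (emod (.reg 30) (.reg 34)) (.lit 0))

/-- The candidate of a line. -/
def candE : Expr :=
  eadd (.get 6 (eadd (emul (esub (eadd (.reg 25) (.lit 1)) (.reg 34)) (eadd (.reg 40) (.lit 1)))
    (esub (.reg 30) (emul (.reg 29) (.reg 34)))))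
    (.get 5 (eadd (emul (eadd (emul (eadd (emul (.reg 9) (eadd (.reg 41) (.lit 1)))
      (esub (ediv (eadd (.reg 25) (.lit 1)) (.reg 34)) (.lit 1))) (eadd (.reg 40) (.lit 1)))
      (esub (ediv (.reg 30) (.reg 34)) (.reg 29))) (eadd (.reg 42) (.lit 1))) (.reg 29)))

/-- The contribution of one scale to one cell. -/
def scaleCell : Prog :=
  .seq (.ite condE (.loop 29 (eadd (emin (ediv (.reg 30) (.reg 34)) (.reg 42)) (.lit 1))
    (.set 31 (emin (.reg 31) candE))) (.set 33 (.lit 0)))
    (.set 34 (emul (.reg 34) (.reg 4)))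

/-- The lines computed in the first phase. -/
def LinesOk (P : Par) (A : ℕ → ℕ) : Prop :=
  ∀ k < P.K, P.Valid k → ∀ u < P.B k, ∀ a ≤ P.G k, ∀ h ≤ P.hm, a + h ≤ P.G k →
    A (P.idx k u a h) = P.lv k u a h

theorem scaleCell_spec {E : Env} {P : Par} {k u a : ℕ} {s : State} (hF : Fit P E)
    (hS : Glob P s) (hk : k < P.K) (h9 : s.reg 9 = k) (h25 : s.reg 25 = u) (h30 : s.reg 30 = a)
    (h34 : s.reg 34 = P.M ^ k) (h31 : s.reg 31 = P.kb (P.tab u) u a k)
    (hu : u < P.B 0) (ha : a ≤ P.G 0) (hhm : P.hm + 1 ≤ E.R)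
    (hCR : P.C u a + P.W 0 ≤ E.R)
    (h6 : ∀ u' ≤ u, ∀ a' ≤ P.G 0, s.arr 6 (u' * (P.G 0 + 1) + a') = P.C u' a')
    (h5 : LinesOk P (s.arr 5)) :
    Spec E s scaleCell (50 + (P.hm + 1) * 54)
      (fun s' => s'.reg 34 = P.M ^ (k + 1) ∧ s'.reg 31 = P.kb (P.tab u) u a (k + 1)) := by
  have hM := hF.hM
  have hRM := hF.hRM
  have hMk : 0 < P.M ^ k := Nat.pow_pos (by omega)
  have hMR : P.M ^ (k + 1) ≤ E.R :=
    (Nat.pow_le_pow_right (by omega) (by omega) : P.M ^ (k + 1) ≤ P.M ^ (P.K + 6)).trans hRM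
  have hcond : condE.eval s ≠ 0 ↔ (P.Valid k ∧ P.M ^ k ∣ u + 1 ∧ P.M ^ k ∣ a) := by
    simp only [condE, emul_eval, elt_eval, eeq_eval, emod_eval, eadd_eval, reg_eval, lit_eval,
      hS.r43, h34, hS.r45, hS.r3, h25, h30, Nat.dvd_iff_mod_eq_zero, Par.Valid]
    rw [← P.r_eq k]
    by_cases c1 : P.r k * P.M ^ 16 ≤ P.n
    · have c1' : P.r k * P.M ^ 16 < P.n + 1 := by omega
      by_cases c2 : (u + 1) % P.M ^ k = 0
      · by_cases c3 : a % P.M ^ k = 0
        · simp [c1, c1', c2, c3]
        · simp [c3]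
      · simp [c2]
    · have c1' : ¬ P.r k * P.M ^ 16 < P.n + 1 := by omega
      simp [c1, c1']
  unfold scaleCell
  refine Spec.seq 46 ((P.hm + 1) * 54) 4 0
    (fun s' => s'.reg 34 = P.M ^ k ∧ s'.reg 4 = P.M ∧
      s'.reg 31 = P.kb (P.tab u) u a (k + 1)) (by norm_num) le_rfl ?_ ?_
  · refine Spec.ite rfl (by decide) ?_ ?_
    · intro h0
      have hn : ¬ (P.Valid k ∧ P.M ^ k ∣ u + 1 ∧ P.M ^ k ∣ a) := by
        rw [← hcond]; simp [h0]
      refine Spec.set 0 rfl (by decide) (by simp) (fun _ => by omega) ?_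
      intro _
      refine ⟨by simpa using h34, by simpa using hS.r4, ?_⟩
      rw [Par.kb, if_neg hn]
      simpa using h31
    · intro h1
      have hc := hcond.mp h1
      obtain ⟨hv, hd1, hd2⟩ := hc
      have hle : P.M ^ k ≤ u + 1 := Nat.le_of_dvd (by omega) hd1
      refine Spec.mono (Spec.loop (min (a / P.M ^ k) P.hm + 1) (52 + 0)
        (fun h s' => s'.reg 31 = P.lb (P.tab u) k u a (P.kb (P.tab u) u a k) h)
        rfl (by decide) (Nat.mul_le_mul_right 54 (by omega)) ?_ (fun _ => by omega)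
        (fun _ => h31) ?_).withFrame le_rfl ?_
      · simp [h30, h34, hS.r42]
      · intro h hh s' hb hf hI
        have hS' : Glob P (s'.setReg 29 h) :=
          (hS.frame hf (by decide) (by decide)).setReg 29 h (by decide)
        have e9 : s'.reg 9 = k := by rw [hf.reg 9 (by decide)]; exact h9
        have e25 : s'.reg 25 = u := by rw [hf.reg 25 (by decide)]; exact h25
        have e30 : s'.reg 30 = a := by rw [hf.reg 30 (by decide)]; exact h30
        have e34 : s'.reg 34 = P.M ^ k := by rw [hf.reg 34 (by decide)]; exact h34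
        have e40 : s'.reg 40 = P.G 0 := by rw [hf.reg 40 (by decide)]; exact hS.r40
        have e41 : s'.reg 41 = P.B 0 := by rw [hf.reg 41 (by decide)]; exact hS.r41
        have e42 : s'.reg 42 = P.hm := by rw [hf.reg 42 (by decide)]; exact hS.r42
        have e6 : s'.arr 6 = s.arr 6 := hf.arr 6 (by decide)
        have e5 : s'.arr 5 = s.arr 5 := hf.arr 5 (by decide)
        have hha : h ≤ a / P.M ^ k := by omega
        have hhm' : h ≤ P.hm := by omega
        have hhM : h * P.M ^ k ≤ a :=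
          (Nat.mul_le_mul_right _ hha).trans (Nat.div_mul_le_self _ _)
        have q1 : 1 ≤ (u + 1) / P.M ^ k := (Nat.one_le_div_iff hMk).mpr hle
        have q2 : (u + 1) / P.M ^ k ≤ P.B k := by
          rw [P.B_eq]; exact Nat.div_le_div_right (by omega)
        have q3 : a / P.M ^ k ≤ P.G k := by
          rw [P.G_eq]; exact Nat.div_le_div_right (by omega)
        refine Spec.set (P.lb (P.tab u) k u a (P.kb (P.tab u) u a k) (h + 1)) rfl (by decide) ?_
          (fun _ => ?_) (fun _ => by simp)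
        · simp only [emin_eval, candE, eadd_eval, get_eval, emul_eval, esub_eval, ediv_eval,
            reg_eval, lit_eval, State.setReg_reg, State.setReg_arr]
          simp only [show ¬ (31 : ℕ) = 29 by decide, show ¬ (25 : ℕ) = 29 by decide,
            show ¬ (34 : ℕ) = 29 by decide, show ¬ (40 : ℕ) = 29 by decide,
            show ¬ (30 : ℕ) = 29 by decide, show ¬ (9 : ℕ) = 29 by decide,
            show ¬ (41 : ℕ) = 29 by decide, show ¬ (42 : ℕ) = 29 by decide, if_false, if_true,
            e9, e25, e30, e34, e40, e41, e42, e6, e5, hI]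
          rw [h6 _ (by omega) _ (by omega)]
          have hl := h5 k hk hv ((u + 1) / P.M ^ k - 1) (by omega) (a / P.M ^ k - h) (by omega)
            h hhm' (by omega)
          rw [Par.idx] at hl
          rw [hl, Par.lb, P.tab_of_le (by omega)]
        · refine (P.lb_le _ _ _ _ _ _).trans ((P.kb_le _ _ _ _).trans ?_)
          rw [P.tab_of_le le_rfl]; exact hCR
      · rintro s' ⟨hf, hI⟩
        refine ⟨by rw [hf.reg 34 (by decide)]; exact h34,
          by rw [hf.reg 4 (by decide)]; exact hS.r4, ?_⟩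
        rw [hI, Par.kb, if_pos ⟨hv, hd1, hd2⟩]
  · rintro s' hf ⟨g34, g4, g31⟩
    refine Spec.set (P.M ^ (k + 1)) rfl (by decide) ?_ (fun _ => hMR) ?_
    · simp [g34, g4, pow_succ]
    · intro _; exact ⟨by simp, by simpa using g31⟩

/-- One cell of the coarse table. -/
def cellProg : Prog :=
  .seq (.set 31 (eadd (.get 6 (eadd (emul (.reg 25) (eadd (.reg 40) (.lit 1))) (.reg 30)))
    (.reg 44)))
  (.seq (.set 34 (.lit 1))
  (.seq (.loop 9 (.reg 46) scaleCell)
  (.seq (.ite (.reg 30) (.set 31 (emin (.reg 31) (eadd (.get 6 (esub (eadd (emul (eadd (.reg 25)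
    (.lit 1)) (eadd (.reg 40) (.lit 1))) (.reg 30)) (.lit 1))) (.reg 43)))) (.set 33 (.lit 0)))
    (.put 6 (eadd (emul (eadd (.reg 25) (.lit 1)) (eadd (.reg 40) (.lit 1))) (.reg 30))
      (.reg 31)))))

theorem cellProg_spec {E : Env} {P : Par} {u a : ℕ} {s : State} (hF : Fit P E)
    (hS : Glob P s) (h25 : s.reg 25 = u) (h30 : s.reg 30 = a)
    (hu : u < P.B 0) (ha : a ≤ P.G 0) (hhm : P.hm + 1 ≤ E.R)
    (hCR : P.C u a + P.W 0 ≤ E.R)
    (h6 : ∀ u' ≤ u, ∀ a' ≤ P.G 0, s.arr 6 (u' * (P.G 0 + 1) + a') = P.C u' a')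
    (h6' : ∀ a' < a, s.arr 6 ((u + 1) * (P.G 0 + 1) + a') = P.C (u + 1) a')
    (h5 : LinesOk P (s.arr 5)) :
    Spec E s cellProg (60 + P.K * (52 + (P.hm + 1) * 54))
      (fun s' => ∀ p, s'.arr 6 p = if p = (u + 1) * (P.G 0 + 1) + a then P.C (u + 1) a
        else s.arr 6 p) := by
  have hM := hF.hM
  have hR := E.hR
  unfold cellProg
  refine Spec.set_seq (P.C u a + P.W 0) rfl (by decide) ?_ (fun _ => hCR) ?_
  · simp [h25, h30, hS.r40, hS.r44, h6 u le_rfl a ha]
  refine Spec.set_seq 1 rfl (by decide) (by simp) (fun _ => by omega) ?_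
  have hS1 : Glob P ((s.setReg 31 (P.C u a + P.W 0)).setReg 34 1) :=
    (hS.setReg 31 _ (by decide)).setReg 34 _ (by decide)
  refine Spec.seq 2 (P.K * (52 + (P.hm + 1) * 54)) 40 0
    (fun s' => Glob P s' ∧ s'.reg 25 = u ∧ s'.reg 30 = a ∧ s'.arr 6 = s.arr 6 ∧
      s'.reg 31 = P.kb (P.tab u) u a P.K) (by decide) le_rfl ?_ ?_
  · refine Spec.mono (Spec.loop P.K (50 + (P.hm + 1) * 54)
      (fun k s' => s'.reg 34 = P.M ^ k ∧ s'.reg 31 = P.kb (P.tab u) u a k) rfl (by decide)
      (le_of_eq (by ring)) ?_ ?_ ?_ ?_).withFrame le_rfl ?_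
    · simp [hS.r46]
    · intro hb
      have := hb.reg 46
      simpa [hS.r46] using this
    · intro _
      refine ⟨by simp, ?_⟩
      simp [Par.kb, P.tab_of_le le_rfl]
    · intro k hk s' hb hf hI
      have hS' : Glob P (s'.setReg 9 k) :=
        (hS1.frame hf (by decide) (by decide)).setReg 9 k (by decide)
      refine scaleCell_spec hF hS' hk (by simp) ?_ ?_ (by simpa using hI.1)
        (by simpa using hI.2) hu ha hhm hCR ?_ ?_
      · simp [hf.reg 25 (by decide), h25]
      · simp [hf.reg 30 (by decide), h30]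
      · intro u' hu' a' ha'
        simp only [State.setReg_arr]
        rw [hf.arr 6 (by decide)]
        simpa using h6 u' hu' a' ha'
      · simp only [State.setReg_arr]
        rw [hf.arr 5 (by decide)]
        simpa using h5
    · rintro s' ⟨hf, hI⟩
      refine ⟨hS1.frame hf (by decide) (by decide), ?_, ?_, ?_, hI.2⟩
      · rw [hf.reg 25 (by decide)]; simpa using h25
      · rw [hf.reg 30 (by decide)]; simpa using h30
      · rw [hf.arr 6 (by decide)]; rfl
  · rintro s' - ⟨gS, g25, g30, g6, g31⟩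
    refine Spec.seq 26 0 14 0
      (fun s' => Glob P s' ∧ s'.reg 25 = u ∧ s'.reg 30 = a ∧ s'.arr 6 = s.arr 6 ∧
        s'.reg 31 = P.C (u + 1) a) (by norm_num) le_rfl ?_ ?_
    · refine Spec.ite rfl (by decide) ?_ ?_
      · intro h0
        have ha0 : a = 0 := by rw [← g30]; simpa using h0
        refine Spec.set 0 rfl (by decide) (by simp) (fun _ => by omega) ?_
        intro _
        refine ⟨gS.setReg 33 _ (by decide), by simpa using g25, by simpa using g30,
          by simpa using g6, ?_⟩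
        rw [P.C_succ, ha0, Par.newrow]
        simpa [ha0] using g31
      · intro h1
        have ha0 : a ≠ 0 := by rw [← g30]; simpa using h1
        obtain ⟨a', rfl⟩ : ∃ a', a = a' + 1 := ⟨a - 1, by omega⟩
        refine Spec.set (P.C (u + 1) (a' + 1)) rfl (by decide) ?_ (fun _ => ?_) ?_
        · have h2 := h6' a' (by omega)
          simp only [emin_eval, eadd_eval, get_eval, esub_eval, emul_eval, reg_eval, lit_eval,
            g25, g30, g31, g6, gS.r40, gS.r43]
          rw [show (u + 1) * (P.G 0 + 1) + (a' + 1) - 1 = (u + 1) * (P.G 0 + 1) + a' by omega,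
            h2, P.C_succ, P.C_succ, Par.newrow]
        · rw [P.C_succ]
          refine (P.newrow_le _ _ _).trans ?_
          rw [P.tab_of_le le_rfl]; exact hCR
        · intro _
          exact ⟨gS.setReg 31 _ (by decide), by simpa using g25, by simpa using g30,
            by simpa using g6, by simp⟩
    · rintro s2 - ⟨kS, k25, k30, k6, k31⟩
      refine Spec.put ((u + 1) * (P.G 0 + 1) + a) (P.C (u + 1) a) (by norm_num) rfl rfl
        (by decide) ?_ ?_ (fun hb => ?_) ?_
      · simp [k25, k30, kS.r40]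
      · simp [k31]
      · rw [← k31]; exact hb.reg 31
      · intro _ p
        simp [k6]

/-- The whole coarse table. -/
def phase2 : Prog :=
  .seq (.loop 30 (eadd (.reg 40) (.lit 1)) (.put 6 (.reg 30) (emul (.reg 30) (.reg 43))))
    (.loop 25 (.reg 41) (.loop 30 (eadd (.reg 40) (.lit 1)) cellProg))

theorem Par.C_zero (P : Par) (a : ℕ) : P.C 0 a = a * P.r 0 := rfl

theorem phase2_spec {E : Env} {P : Par} {s : State} (hF : Fit P E)
    (hS : Glob P s) (hhm : P.hm + 1 ≤ E.R) (hW : P.W 0 ≤ P.n)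
    (h5 : LinesOk P (s.arr 5)) :
    Spec E s phase2 (10 + ((P.G 0 + 1) * 7 +
        P.B 0 * (6 + (P.G 0 + 1) * (62 + P.K * (52 + (P.hm + 1) * 54)))))
      (fun s' => s'.arr 6 (P.B 0 * (P.G 0 + 1) + P.G 0) = P.C (P.B 0) (P.G 0)) := by
  have hM := hF.hM
  have hR := hF.hR
  have hlx := hF.hlx
  have hly := hF.hly
  have hGr : P.G 0 * P.r 0 ≤ P.ly := Nat.div_mul_le_self _ _
  have hBW : P.B 0 * P.W 0 ≤ P.lx := Nat.div_mul_le_self _ _
  have hG1 : P.G 0 ≤ P.ly := Nat.div_le_self _ _
  have hB1 : P.B 0 ≤ P.lx := Nat.div_le_self _ _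
  have hCR : ∀ u a, u ≤ P.B 0 → a ≤ P.G 0 → P.C u a + P.W 0 ≤ E.R := by
    intro u a hu ha
    have h1 := P.C_le u a
    have h2 : a * P.r 0 ≤ P.G 0 * P.r 0 := Nat.mul_le_mul_right _ ha
    have h3 : u * P.W 0 ≤ P.B 0 * P.W 0 := Nat.mul_le_mul_right _ hu
    omega
  unfold phase2
  refine Spec.seq 4 ((P.G 0 + 1) * 7) 6
    (P.B 0 * (6 + (P.G 0 + 1) * (62 + P.K * (52 + (P.hm + 1) * 54))))
    (fun s' => ∀ a ≤ P.G 0, s'.arr 6 a = P.C 0 a) (by norm_num) le_rfl ?_ ?_
  · refine Spec.mono (Spec.loop (P.G 0 + 1) (5 + 0)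
      (fun a s' => ∀ a' < a, s'.arr 6 a' = P.C 0 a') rfl (by decide) le_rfl ?_
      (fun _ => by omega) (fun _ a' ha' => by omega) ?_) le_rfl ?_
    · simp [hS.r40]
    · intro a ha s' hb hf hI
      have e43 : s'.reg 43 = P.r 0 := by rw [hf.reg 43 (by decide)]; exact hS.r43
      refine Spec.put a (a * P.r 0) (by norm_num) rfl rfl (by decide) (by simp) ?_
        (fun _ => ?_) ?_
      · simp [e43]
      · have := hCR 0 a (by omega) (by omega)
        rw [P.C_zero] at this; omega
      · intro _ a' ha'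
        by_cases h : a' = a
        · subst h; simp [P.C_zero]
        · simp [h]; exact hI a' (by omega)
    · intro s' h a ha; exact h a (by omega)
  · intro s1 hf1 h0
    have hS1 := hS.frame hf1 (by decide) (by decide)
    have h51 : LinesOk P (s1.arr 5) := by rw [hf1.arr 5 (by decide)]; exact h5
    refine Spec.mono (Spec.loop (P.B 0) (4 + (P.G 0 + 1) * (62 + P.K * (52 + (P.hm + 1) * 54)))
      (fun u s' => ∀ u' ≤ u, ∀ a ≤ P.G 0, s'.arr 6 (u' * (P.G 0 + 1) + a) = P.C u' a)
      rfl (by decide) (le_of_eq (by ring)) ?_ (fun _ => by omega) ?_ ?_) le_rfl ?_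
    · simp [hS1.r41]
    · intro _ u' hu' a ha
      have : u' = 0 := by omega
      subst this
      simpa using h0 a ha
    · intro u hu s' hb hf hI
      have hS' := (hS1.frame hf (by decide) (by decide)).setReg 25 u (by decide)
      have h5' : LinesOk P (s'.arr 5) := by rw [hf.arr 5 (by decide)]; exact h51
      refine Spec.mono (Spec.loop (P.G 0 + 1) (60 + P.K * (52 + (P.hm + 1) * 54))
        (fun a s'' => (∀ u' ≤ u, ∀ a ≤ P.G 0, s''.arr 6 (u' * (P.G 0 + 1) + a) = P.C u' a) ∧
          (∀ a' < a, s''.arr 6 ((u + 1) * (P.G 0 + 1) + a') = P.C (u + 1) a'))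
        rfl (by decide) (le_of_eq (by ring)) ?_ (fun _ => by omega) ?_ ?_) le_rfl ?_
      · simp [hf.reg 40 (by decide), hS1.r40]
      · intro _
        exact ⟨by simpa using hI, fun a' ha' => by omega⟩
      · intro a ha s'' hb'' hf'' hI''
        have hS'' := (hS'.frame hf'' (by decide) (by decide)).setReg 30 a (by decide)
        have h5'' : LinesOk P (s''.arr 5) := by
          rw [hf''.arr 5 (by decide)]; simpa using h5'
        refine Spec.mono (cellProg_spec (u := u) (a := a) hF hS'' ?_ (by simp) hu (by omega) hhm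
          (hCR u a (by omega) (by omega)) (by simpa using hI''.1) (by simpa using hI''.2)
          (by simpa using h5'')) le_rfl ?_
        · simp [hf''.reg 25 (by decide)]
        · intro s3 h6
          simp only [State.setReg_arr] at h6
          constructor
          · intro u' hu' a' ha'
            rw [h6, if_neg]
            · exact hI''.1 u' hu' a' ha'
            · intro he
              have := pair_inj he (by omega) (by omega)
              omega
          · intro a' ha'
            rw [h6]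
            split_ifs with he
            · have : a' = a := by omega
              rw [this]
            · exact hI''.2 a' (by
                rcases Nat.lt_or_ge a' a with h | h
                · exact h
                · exact absurd (by rw [show a' = a by omega]) he)
      · rintro s'' ⟨i1, i2⟩ u' hu' a ha
        rcases Nat.lt_or_ge u' (u + 1) with h | h
        · exact i1 u' (by omega) a ha
        · have : u' = u + 1 := by omega
          subst this
          exact i2 a (by omega)
    · intro s' h; exact h _ le_rfl _ le_rfl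

end Vale.Agent.P315
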