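import Vale.Agent.P315.Count

/-! The samples are accurate with high probability. -/

set_option autoImplicit false

namespace Vale.Agent.P315

theorem sum_mod (Q : ℕ) (φ : ℕ → ℝ) (k : ℕ) :
    ∑ w ∈ Finset.range (Q * k), φ (w % Q) = k * ∑ q ∈ Finset.range Q, φ q := by
  induction k with
  | zero => simp
  | succ k ih =>
    rw [Nat.mul_succ, Finset.sum_range_add, ih]
    have : ∀ x ∈ Finset.range Q, φ ((Q * k + x) % Q) = φ x := by
      intro x hx
      rw [Nat.mul_add_mod, Nat.mod_eq_of_lt (Finset.mem_range.mp hx)]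
    rw [Finset.sum_congr rfl this]
    push_cast; ring

theorem exp_bound {x : ℝ} (h : |x| ≤ 1) : Real.exp x ≤ 1 + x + x ^ 2 := by
  have := (abs_le.mp (Real.abs_exp_sub_one_sub_id_le h)).2
  linarith

/-- The exponential moment of one sample. -/
theorem moment_one {Q N : ℕ} (hQ : 0 < Q) (hd : Q ∣ N) (c : ℕ → ℝ)
    (hc0 : ∀ q < Q, 0 ≤ c q) (hc1 : ∀ q < Q, c q ≤ 1) {lam : ℝ} (h0 : 0 ≤ lam) (h1 : lam ≤ 1) :
    ∑ w : Fin N, Real.exp (lam * (c (w.val % Q) - (∑ q ∈ Finset.range Q, c q) / Q)) ≤
      N * Real.exp (lam ^ 2) := by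
  obtain ⟨k, rfl⟩ := hd
  set μ := (∑ q ∈ Finset.range Q, c q) / Q with hμ
  have hQ' : (0 : ℝ) < Q := by exact_mod_cast hQ
  have hμ0 : 0 ≤ μ := div_nonneg (Finset.sum_nonneg (fun q hq => hc0 q (Finset.mem_range.mp hq)))
    hQ'.le
  have hμ1 : μ ≤ 1 := by
    rw [hμ, div_le_one hQ']
    calc ∑ q ∈ Finset.range Q, c q ≤ ∑ q ∈ Finset.range Q, (1 : ℝ) :=
          Finset.sum_le_sum (fun q hq => hc1 q (Finset.mem_range.mp hq))
      _ = Q := by simp
  rw [Fin.sum_univ_eq_sum_range (fun w => Real.exp (lam * (c (w % Q) - μ))) (Q * k),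
    sum_mod Q (fun q => Real.exp (lam * (c q - μ)))]
  have h2 : ∑ q ∈ Finset.range Q, Real.exp (lam * (c q - μ)) ≤ Q * Real.exp (lam ^ 2) := by
    calc ∑ q ∈ Finset.range Q, Real.exp (lam * (c q - μ))
        ≤ ∑ q ∈ Finset.range Q, (1 + lam * (c q - μ) + lam ^ 2) := by
          apply Finset.sum_le_sum
          intro q hq
          have hq := Finset.mem_range.mp hq
          have habs : |c q - μ| ≤ 1 := by
            rw [abs_le]; constructor
            · linarith [hc0 q hq]
            · linarith [hc1 q hq]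
          have habs2 : |lam * (c q - μ)| ≤ 1 := by
            rw [abs_mul, abs_of_nonneg h0]
            calc lam * |c q - μ| ≤ 1 * 1 := mul_le_mul h1 habs (abs_nonneg _) zero_le_one
              _ = 1 := by ring
          refine (exp_bound habs2).trans ?_
          have : (lam * (c q - μ)) ^ 2 ≤ lam ^ 2 := by
            rw [mul_pow]
            have h3 : (c q - μ) ^ 2 ≤ 1 := by
              rw [← sq_abs]; exact pow_le_one₀ (abs_nonneg _) habs
            nlinarith [sq_nonneg lam]
          linarith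
      _ = Q * (1 + lam ^ 2) + lam * (∑ q ∈ Finset.range Q, c q - Q * μ) := by
          rw [Finset.sum_add_distrib, Finset.sum_add_distrib, ← Finset.mul_sum,
            Finset.sum_sub_distrib]
          simp
          ring
      _ = Q * (1 + lam ^ 2) := by
          rw [hμ, mul_div_cancel₀ _ hQ'.ne']; ring
      _ ≤ Q * Real.exp (lam ^ 2) := by
          apply mul_le_mul_of_nonneg_left _ hQ'.le
          have := Real.add_one_le_exp (lam ^ 2)
          linarith
  push_cast
  calc (k : ℝ) * ∑ q ∈ Finset.range Q, Real.exp (lam * (c q - μ))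
      ≤ k * (Q * Real.exp (lam ^ 2)) := mul_le_mul_of_nonneg_left h2 (by positivity)
    _ = _ := by ring

theorem prod_first {T m : ℕ} (hm : m ≤ T) (g : ℕ → ℝ) :
    ∏ i : Fin T, (if i.val < m then g i.val else 1) = ∏ i ∈ Finset.range m, g i := by
  rw [Fin.prod_univ_eq_prod_range (fun i => if i < m then g i else 1) T, ← Finset.prod_filter]
  congr 1
  ext i
  simp only [Finset.mem_filter, Finset.mem_range]
  omega

/-- Upper tail for `m` samples. -/
theorem tail_upper {Q N T m : ℕ} (hQ : 0 < Q) (hd : Q ∣ N) (hm : m ≤ T) (c : ℕ → ℝ)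
    (hc0 : ∀ q < Q, 0 ≤ c q) (hc1 : ∀ q < Q, c q ≤ 1) {η : ℝ} (h0 : 0 ≤ η) (h1 : η ≤ 1)
    {μ : ℝ} (hμ : μ = (∑ q ∈ Finset.range Q, c q) / Q)
    [DecidablePred (fun ρ : Fin T → Fin N => m * μ + m * η ≤
      ∑ i ∈ Finset.range m, c (tape ρ i % Q))] :
    ((Finset.univ.filter (fun ρ : Fin T → Fin N =>
      m * μ + m * η ≤ ∑ i ∈ Finset.range m, c (tape ρ i % Q))).card : ℝ) ≤
      Real.exp (-(m * η ^ 2 / 4)) * (N : ℝ) ^ T := by
  set lam := η / 2 with hlam
  have hl0 : 0 ≤ lam := by rw [hlam]; linarith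
  have hl1 : lam ≤ 1 := by rw [hlam]; linarith
  -- total exponential moment
  have hmom : ∑ ρ : Fin T → Fin N, Real.exp (lam * (∑ i ∈ Finset.range m, c (tape ρ i % Q) -
      m * μ)) ≤ (N : ℝ) ^ T * Real.exp (m * lam ^ 2) := by
    have e1 : ∀ ρ : Fin T → Fin N, Real.exp (lam * (∑ i ∈ Finset.range m, c (tape ρ i % Q) -
        m * μ)) = ∏ i : Fin T, (if i.val < m then Real.exp (lam * (c ((ρ i).val % Q) - μ))
          else 1) := by
      intro ρ
      have t1 : ∀ i : Fin T, tape ρ i.val = (ρ i).val := by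
        intro i; simp [tape]
      calc Real.exp (lam * (∑ i ∈ Finset.range m, c (tape ρ i % Q) - m * μ))
          = Real.exp (∑ i ∈ Finset.range m, lam * (c (tape ρ i % Q) - μ)) := by
            congr 1
            rw [← Finset.mul_sum, Finset.sum_sub_distrib]
            simp
        _ = ∏ i ∈ Finset.range m, Real.exp (lam * (c (tape ρ i % Q) - μ)) := Real.exp_sum _ _
        _ = ∏ i : Fin T, (if i.val < m then Real.exp (lam * (c (tape ρ i.val % Q) - μ))
            else 1) := (prod_first hm _).symm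
        _ = _ := by
            apply Finset.prod_congr rfl
            intro i _
            rw [t1 i]
    calc ∑ ρ : Fin T → Fin N, Real.exp (lam * (∑ i ∈ Finset.range m, c (tape ρ i % Q) - m * μ))
        = ∑ ρ : Fin T → Fin N, ∏ i : Fin T, (if i.val < m then
            Real.exp (lam * (c ((ρ i).val % Q) - μ)) else 1) :=
          Finset.sum_congr rfl (fun ρ _ => e1 ρ)
      _ = ∏ i : Fin T, ∑ w : Fin N, (if i.val < m then
            Real.exp (lam * (c (w.val % Q) - μ)) else 1) := by
          rw [Finset.prod_univ_sum]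
          rw [Fintype.piFinset_univ]
      _ ≤ ∏ i : Fin T, ((N : ℝ) * (if i.val < m then Real.exp (lam ^ 2) else 1)) := by
          apply Finset.prod_le_prod
          · intro i _
            apply Finset.sum_nonneg
            intro w _
            split_ifs
            · exact (Real.exp_pos _).le
            · exact zero_le_one
          · intro i _
            split_ifs with hi
            · rw [hμ]; exact moment_one hQ hd c hc0 hc1 hl0 hl1
            · simp
      _ = (N : ℝ) ^ T * Real.exp (m * lam ^ 2) := by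
          rw [Finset.prod_mul_distrib, Finset.prod_const, prod_first hm (fun _ =>
            Real.exp (lam ^ 2)), Finset.prod_const, Finset.card_range, Finset.card_univ,
            Fintype.card_fin, ← Real.exp_nat_mul]
  have hmark : ((Finset.univ.filter (fun ρ : Fin T → Fin N => m * μ + m * η ≤
        ∑ i ∈ Finset.range m, c (tape ρ i % Q))).card : ℝ) * Real.exp (lam * (m * η)) ≤
      (N : ℝ) ^ T * Real.exp (m * lam ^ 2) := by
    refine le_trans ?_ hmom
    calc ((Finset.univ.filter (fun ρ : Fin T → Fin N => m * μ + m * η ≤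
        ∑ i ∈ Finset.range m, c (tape ρ i % Q))).card : ℝ) * Real.exp (lam * (m * η))
        = ∑ ρ ∈ Finset.univ.filter (fun ρ : Fin T → Fin N => m * μ + m * η ≤
          ∑ i ∈ Finset.range m, c (tape ρ i % Q)), Real.exp (lam * (m * η)) := by
          rw [Finset.sum_const, nsmul_eq_mul]
      _ ≤ ∑ ρ ∈ Finset.univ.filter (fun ρ : Fin T → Fin N => m * μ + m * η ≤
          ∑ i ∈ Finset.range m, c (tape ρ i % Q)), Real.exp (lam *
            (∑ i ∈ Finset.range m, c (tape ρ i % Q) - m * μ)) := by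
          apply Finset.sum_le_sum
          intro ρ hρ
          have := (Finset.mem_filter.mp hρ).2
          apply Real.exp_le_exp.mpr
          apply mul_le_mul_of_nonneg_left _ hl0
          linarith
      _ ≤ _ := Finset.sum_le_sum_of_subset_of_nonneg (Finset.filter_subset _ _)
          (fun _ _ _ => (Real.exp_pos _).le)
  have hexp : Real.exp (-(m * η ^ 2 / 4)) * Real.exp (lam * (m * η)) =
      Real.exp (m * lam ^ 2) := by
    rw [← Real.exp_add]; congr 1; rw [hlam]; ring
  have hpos := Real.exp_pos (lam * (m * η))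
  have : ((Finset.univ.filter (fun ρ : Fin T → Fin N => m * μ + m * η ≤
        ∑ i ∈ Finset.range m, c (tape ρ i % Q))).card : ℝ) * Real.exp (lam * (m * η)) ≤
      (Real.exp (-(m * η ^ 2 / 4)) * (N : ℝ) ^ T) * Real.exp (lam * (m * η)) := by
    calc _ ≤ (N : ℝ) ^ T * Real.exp (m * lam ^ 2) := hmark
      _ = _ := by rw [← hexp]; ring
  exact le_of_mul_le_mul_right this hpos

/-- Two-sided tail for the sampled average of `d`, where `0 ≤ d ≤ L`. -/
theorem tail_two {Q N T m : ℕ} (hQ : 0 < Q) (hd : Q ∣ N) (hm : m ≤ T) (d : ℕ → ℕ) {L r : ℕ}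
    (hL : 0 < L) (hdL : ∀ q < Q, d q ≤ L) {η : ℝ} (h0 : 0 ≤ η) (h1 : η ≤ 1)
    (hr : η * L ≤ r) (hm0 : 0 < m)
    [DecidablePred (fun ρ : Fin T → Fin N => ¬ (m * ∑ q ∈ Finset.range Q, d q ≤
      Q * ∑ i ∈ Finset.range m, d (tape ρ i % Q) + m * (Q * r) ∧
      Q * ∑ i ∈ Finset.range m, d (tape ρ i % Q) ≤
        m * ∑ q ∈ Finset.range Q, d q + m * (Q * r)))] :
    ((Finset.univ.filter (fun ρ : Fin T → Fin N => ¬ (m * ∑ q ∈ Finset.range Q, d q ≤
      Q * ∑ i ∈ Finset.range m, d (tape ρ i % Q) + m * (Q * r) ∧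
      Q * ∑ i ∈ Finset.range m, d (tape ρ i % Q) ≤
        m * ∑ q ∈ Finset.range Q, d q + m * (Q * r)))).card : ℝ) ≤
      2 * (Real.exp (-(m * η ^ 2 / 4)) * (N : ℝ) ^ T) := by
  classical
  have hL' : (0 : ℝ) < L := by exact_mod_cast hL
  have hQ' : (0 : ℝ) < Q := by exact_mod_cast hQ
  have hm' : (0 : ℝ) < m := by exact_mod_cast hm0
  have u1 := tail_upper (T := T) (m := m) hQ hd hm (fun q => (d q : ℝ) / L)
    (fun q _ => by positivity)
    (fun q hq => by rw [div_le_one hL']; exact_mod_cast hdL q hq) h0 h1 rfl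
  have u2 := tail_upper (T := T) (m := m) hQ hd hm (fun q => 1 - (d q : ℝ) / L)
    (fun q hq => by
      rw [sub_nonneg, div_le_one hL']; exact_mod_cast hdL q hq)
    (fun q _ => by
      have : (0 : ℝ) ≤ (d q : ℝ) / L := by positivity
      linarith) h0 h1 rfl
  have u3 := add_le_add u1 u2
  rw [← two_mul] at u3
  refine le_trans ?_ u3
  rw [← Nat.cast_add]
  refine Nat.cast_le.mpr (le_trans (Finset.card_le_card ?_) (Finset.card_union_le _ _))
  intro ρ hρ
  have hρ' := (Finset.mem_filter.mp hρ).2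
  rw [not_and_or, not_le, not_le] at hρ'
  simp only [Finset.mem_union, Finset.mem_filter, Finset.mem_univ, true_and]
  set S := ∑ i ∈ Finset.range m, d (tape ρ i % Q) with hS
  set H := ∑ q ∈ Finset.range Q, d q with hH
  have e1 : ∑ q ∈ Finset.range Q, (d q : ℝ) / L = H / L := by
    rw [← Finset.sum_div, hH]; push_cast; rfl
  have e2 : ∑ i ∈ Finset.range m, (d (tape ρ i % Q) : ℝ) / L = S / L := by
    rw [← Finset.sum_div, hS]; push_cast; rfl
  have e3 : ∑ q ∈ Finset.range Q, (1 - (d q : ℝ) / L) = Q - H / L := by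
    rw [Finset.sum_sub_distrib, e1]; simp
  have e4 : ∑ i ∈ Finset.range m, (1 - (d (tape ρ i % Q) : ℝ) / L) = m - S / L := by
    rw [Finset.sum_sub_distrib, e2]; simp
  have hmr : m * (η * L) ≤ m * (r : ℝ) := mul_le_mul_of_nonneg_left hr hm'.le
  rcases hρ' with h | h
  · right
    rw [e3, e4]
    have h' : (Q : ℝ) * S + m * (Q * r) < m * H := by exact_mod_cast h
    have h2 : (S : ℝ) + m * r < m * H / Q := by
      rw [lt_div_iff₀ hQ']; nlinarith
    have h3 : (S : ℝ) + m * (η * L) ≤ m * H / Q := by linarith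
    have h4 : ((S : ℝ) + m * (η * L)) / L ≤ m * H / Q / L :=
      div_le_div_of_nonneg_right h3 hL'.le
    have h5 : ((S : ℝ) + m * (η * L)) / L = S / L + m * η := by
      field_simp
    have h6 : (m : ℝ) * ((Q - H / L) / Q) = m - m * H / Q / L := by
      field_simp
    rw [h6]; linarith
  · left
    rw [e1, e2]
    have h' : (m : ℝ) * H + m * (Q * r) < Q * S := by exact_mod_cast h
    have h2 : (m : ℝ) * H / Q + m * r < S := by
      have : ((m : ℝ) * H / Q + m * r) * Q < S * Q := by
        rw [add_mul, div_mul_cancel₀ _ hQ'.ne']; nlinarith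
      exact lt_of_mul_lt_mul_right this hQ'.le
    have h3 : (m : ℝ) * H / Q + m * (η * L) ≤ S := by linarith
    have h4 : ((m : ℝ) * H / Q + m * (η * L)) / L ≤ S / L :=
      div_le_div_of_nonneg_right h3 hL'.le
    have h5 : ((m : ℝ) * H / Q + m * (η * L)) / L = m * (H / L / Q) + m * η := by
      field_simp
    linarith

end Vale.Agent.P315
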