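import Vale.Agent.P315.Lev

/-! Segments of sequences, windows, and alignments. -/

set_option autoImplicit false

namespace Vale.Agent.P315

/-- The list `X p, …, X (p + l - 1)`. -/
def seg (X : ℕ → ℕ) (p l : ℕ) : List ℕ := (List.range l).map (fun t => X (p + t))

theorem seg_zero (X : ℕ → ℕ) (p : ℕ) : seg X p 0 = [] := by simp [seg]

theorem seg_succ (X : ℕ → ℕ) (p l : ℕ) : seg X p (l + 1) = seg X p l ++ [X (p + l)] := by
  simp [seg, List.range_succ]

theorem seg_add (X : ℕ → ℕ) (p l l' : ℕ) : seg X p (l + l') = seg X p l ++ seg X (p + l) l' := by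
  induction l' with
  | zero => simp [seg_zero]
  | succ l' ih => rw [← Nat.add_assoc, seg_succ, ih, seg_succ, List.append_assoc, Nat.add_assoc]

theorem length_seg (X : ℕ → ℕ) (p l : ℕ) : (seg X p l).length = l := by simp [seg]

theorem seg_congr {X X' : ℕ → ℕ} {p l : ℕ} (h : ∀ t, t < l → X (p + t) = X' (p + t)) :
    seg X p l = seg X' p l := by
  unfold seg
  apply List.map_congr_left
  intro t ht
  exact h t (List.mem_range.mp ht)

theorem factor_eq_seg (y : List ℕ) (p q : ℕ) (hpq : p ≤ q) (hq : q ≤ y.length) :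
    factor y p q = seg (fun i => y.getD i 0) p (q - p) := by
  apply List.ext_getElem
  · simp only [factor, List.length_take, List.length_drop, length_seg]; omega
  · intro n h1 h2
    have h3 : n < q - p := by simpa [length_seg] using h2
    have h4 : p + n < y.length := by omega
    simp [factor, seg, List.getD_eq_getElem?_getD, List.getElem?_eq_getElem h4]

theorem seg_list (x : List ℕ) : seg (fun i => x.getD i 0) 0 x.length = x := by
  have := factor_eq_seg x 0 x.length (by omega) le_rfl
  simp only [Nat.sub_zero] at this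
  rw [← this]; simp [factor]

/-- Edit distance of the segments `X[p, p+l)` and `Y[q, q+k)`. -/
def dist (X Y : ℕ → ℕ) (p l q k : ℕ) : ℕ := lev (seg X p l) (seg Y q k)

section
variable (X Y : ℕ → ℕ)

theorem dist_add (p l q k l' k' : ℕ) :
    dist X Y p (l + l') q (k + k') ≤ dist X Y p l q k + dist X Y (p + l) l' (q + k) k' := by
  unfold dist; rw [seg_add, seg_add]; exact lev_append_le _ _ _ _

theorem dist_zero_left (p q k : ℕ) : dist X Y p 0 q k = k := by
  unfold dist; rw [seg_zero, lev_nil_left, length_seg]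

theorem dist_zero_right (p l q : ℕ) : dist X Y p l q 0 = l := by
  unfold dist; rw [seg_zero, lev_nil_right, length_seg]

theorem dist_succ_succ (p l q k : ℕ) : dist X Y p (l + 1) q (k + 1) =
    min (min (dist X Y p l q (k + 1) + 1) (dist X Y p (l + 1) q k + 1))
      (dist X Y p l q k + if X (p + l) = Y (q + k) then 0 else 1) := by
  unfold dist; rw [seg_succ X p l, seg_succ Y q k, lev_snoc_snoc]

theorem le_dist (p l q k : ℕ) : k ≤ l + dist X Y p l q k ∧ l ≤ k + dist X Y p l q k := by
  have := length_le_lev (seg X p l) (seg Y q k)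
  simpa [length_seg, dist] using this

theorem dist_le (p l q k : ℕ) : dist X Y p l q k ≤ l + k := by
  have := lev_le_length (seg X p l) (seg Y q k)
  simpa [length_seg, dist] using this

theorem dist_grow (p l : ℕ) {a q1 q2 b : ℕ} (h1 : a ≤ q1) (h2 : q1 ≤ q2) (h3 : q2 ≤ b) :
    dist X Y p l q1 (q2 - q1) ≤ dist X Y p l a (b - a) + (q1 - a) + (b - q2) ∧
    dist X Y p l a (b - a) ≤ dist X Y p l q1 (q2 - q1) + (q1 - a) + (b - q2) := by
  have e1 : seg Y a (b - a) = seg Y a (q1 - a) ++ (seg Y q1 (q2 - q1) ++ seg Y q2 (b - q2)) := by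
    rw [show b - a = (q1 - a) + ((q2 - q1) + (b - q2)) by omega, seg_add, seg_add,
      show a + (q1 - a) = q1 by omega, show q1 + (q2 - q1) = q2 by omega]
  unfold dist
  rw [e1]
  constructor
  · have h4 := lev_drop_right (seg X p l) (seg Y q1 (q2 - q1)) (seg Y q2 (b - q2))
    have h5 := lev_drop_left (seg X p l) (seg Y q1 (q2 - q1) ++ seg Y q2 (b - q2))
      (seg Y a (q1 - a))
    rw [length_seg] at h4 h5
    omega
  · have h4 := lev_add_right (seg X p l) (seg Y q1 (q2 - q1)) (seg Y q2 (b - q2))
    have h5 := lev_add_left (seg X p l) (seg Y q1 (q2 - q1) ++ seg Y q2 (b - q2))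
      (seg Y a (q1 - a))
    rw [length_seg] at h4 h5
    omega

/-- Moving both ends of the window by at most `D` changes the distance by at most `2 D`. -/
theorem dist_window (p l : ℕ) {q1 q2 q1' q2' D : ℕ} (h : q1 ≤ q2) (h' : q1' ≤ q2')
    (h1 : q1 ≤ q1' + D) (h2 : q1' ≤ q1 + D) (h3 : q2 ≤ q2' + D) (h4 : q2' ≤ q2 + D) :
    dist X Y p l q1 (q2 - q1) ≤ dist X Y p l q1' (q2' - q1') + 2 * D := by
  have g1 := (dist_grow X Y p l (a := min q1 q1') (b := max q2 q2') (by omega) h (by omega)).1
  have g2 := (dist_grow X Y p l (a := min q1 q1') (b := max q2 q2') (by omega) h' (by omega)).2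
  omega

/-- Prefix distances. -/
def pre (i j : ℕ) : ℕ := dist X Y 0 i 0 j

theorem pre_zero_left (j : ℕ) : pre X Y 0 j = j := dist_zero_left X Y 0 0 j

theorem pre_add (i j l k : ℕ) : pre X Y (i + l) (j + k) ≤ pre X Y i j + dist X Y i l j k := by
  have := dist_add X Y 0 i 0 j l k
  simpa [pre] using this

theorem pre_add_left (i j l : ℕ) : pre X Y (i + l) j ≤ pre X Y i j + l := by
  have := pre_add X Y i j l 0
  rwa [dist_zero_right] at this

theorem pre_add_right (i j k : ℕ) : pre X Y i (j + k) ≤ pre X Y i j + k := by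
  have := pre_add X Y i j 0 k
  rwa [dist_zero_left] at this

/-- Cost of the part of an alignment before position `i`. -/
def prefixCost (f : ℕ → ℕ) (i : ℕ) : ℕ :=
  f 0 + ∑ t ∈ Finset.range i, dist X Y t 1 (f t) (f (t + 1) - f t)

theorem prefixCost_zero (f : ℕ → ℕ) : prefixCost X Y f 0 = f 0 := by simp [prefixCost]

theorem prefixCost_succ (f : ℕ → ℕ) (i : ℕ) : prefixCost X Y f (i + 1) =
    prefixCost X Y f i + dist X Y i 1 (f i) (f (i + 1) - f i) := by
  simp [prefixCost, Finset.sum_range_succ, add_assoc]

theorem dist_le_prefixCost {f : ℕ → ℕ} (hf : Monotone f) (p l : ℕ) :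
    dist X Y p l (f p) (f (p + l) - f p) + prefixCost X Y f p ≤ prefixCost X Y f (p + l) := by
  induction l with
  | zero => simp [dist_zero_left]
  | succ l ih =>
    have h1 : f p ≤ f (p + l) := hf (by omega)
    have h2 : f (p + l) ≤ f (p + (l + 1)) := hf (by omega)
    have h3 := dist_add X Y p l (f p) (f (p + l) - f p) 1 (f (p + (l + 1)) - f (p + l))
    rw [show f (p + l) - f p + (f (p + (l + 1)) - f (p + l)) = f (p + (l + 1)) - f p by omega,
      show f p + (f (p + l) - f p) = f (p + l) by omega] at h3
    have h4 := prefixCost_succ X Y f (p + l)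
    rw [show p + l + 1 = p + (l + 1) by ring] at h4
    omega

theorem prefixCost_mono (f : ℕ → ℕ) {p q : ℕ} (h : p ≤ q) :
    prefixCost X Y f p ≤ prefixCost X Y f q := by
  unfold prefixCost
  have := Finset.sum_le_sum_of_subset (f := fun t => dist X Y t 1 (f t) (f (t + 1) - f t))
    (Finset.range_mono h)
  omega

end

theorem ED_eq_dist (x y : List ℕ) :
    ED x y = pre (fun i => x.getD i 0) (fun i => y.getD i 0) x.length y.length := by
  rw [ED_eq_lev, pre, dist, seg_list, seg_list]

theorem alignCost_eq {x y : List ℕ} {f : ℕ → ℕ} (hf : IsAlignment x y f) :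
    alignCost x y f =
      prefixCost (fun i => x.getD i 0) (fun i => y.getD i 0) f x.length := by
  unfold alignCost prefixCost
  congr 1
  apply Finset.sum_congr rfl
  intro t ht
  have h1 : t < x.length := Finset.mem_range.mp ht
  have h2 : f (t + 1) ≤ y.length := by rw [← hf.2]; exact hf.1 (by omega)
  have h3 : f t ≤ f (t + 1) := hf.1 (by omega)
  rw [ED_eq_lev, factor_eq_seg y _ _ h3 h2, dist]
  congr 1

theorem ED_le_alignCost {x y : List ℕ} {f : ℕ → ℕ} (hf : IsAlignment x y f) :
    ED x y ≤ alignCost x y f := by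
  rw [alignCost_eq hf, ED_eq_dist]
  have h1 := dist_le_prefixCost (fun i => x.getD i 0) (fun i => y.getD i 0) hf.1 0 x.length
  have h2 := pre_add (fun i => x.getD i 0) (fun i => y.getD i 0) 0 (f 0) x.length (y.length - f 0)
  have h3 : f 0 ≤ y.length := by rw [← hf.2]; exact hf.1 (by omega)
  rw [pre_zero_left] at h2
  rw [prefixCost_zero] at h1
  simp only [Nat.zero_add] at h1 h2
  rw [hf.2] at h1
  rw [show f 0 + (y.length - f 0) = y.length by omega] at h2
  omega

theorem exists_alignment_of_script (x : List ℕ) : ∀ (y : List ℕ) (c : ℕ), Script x y c →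
    ∃ f, IsAlignment x y f ∧ alignCost x y f ≤ c := by
  induction x with
  | nil =>
    intro y c h
    refine ⟨fun _ => y.length, ⟨monotone_const, rfl⟩, ?_⟩
    have := h.lev_le
    rw [lev_nil_left] at this
    simpa [alignCost] using this
  | cons a xs ih =>
    intro y c h
    obtain ⟨y1, y2, c1, c2, h1, h2, h3, h4⟩ := h.symm.split [a] xs rfl
    obtain ⟨f, hf, hc⟩ := ih y2 c2 h4.symm
    refine ⟨fun i => match i with | 0 => 0 | i + 1 => y1.length + f i, ⟨?_, ?_⟩, ?_⟩
    · apply monotone_nat_of_le_succ
      intro n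
      cases n with
      | zero => simp
      | succ n => simpa using hf.1 (Nat.le_succ n)
    · simp [hf.2, h1]
    · unfold alignCost at hc ⊢
      simp only [List.length_cons, Finset.sum_range_succ', List.getD_cons_succ,
        List.getD_cons_zero, Nat.zero_add]
      have e1 : ∀ p q : ℕ, factor y (y1.length + p) (y1.length + q) = factor y2 p q := by
        intro p q
        unfold factor
        rw [h1, List.drop_append, Nat.add_sub_add_left, List.drop_eq_nil_of_le (by omega)]
        simp
      have e2 : factor y 0 (y1.length + f 0) = y1 ++ y2.take (f 0) := by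
        unfold factor
        rw [h1]
        simp [List.take_append]
      simp only [e1]
      rw [e2]
      have h5 : ED [a] (y1 ++ y2.take (f 0)) ≤ c1 + f 0 := by
        rw [ED_eq_lev]
        have h6 := lev_add_right [a] y1 (y2.take (f 0))
        have h7 := h3.symm.lev_le
        have h8 : (y2.take (f 0)).length ≤ f 0 := by simp
        omega
      omega

theorem isLeast_alignCost (x y : List ℕ) :
    IsLeast {c : ℕ | ∃ f, IsAlignment x y f ∧ c = alignCost x y f} (ED x y) := by
  constructor
  · obtain ⟨f, hf, hc⟩ := exists_alignment_of_script x y _ (script_lev x y)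
    refine ⟨f, hf, ?_⟩
    have := ED_le_alignCost hf
    rw [← ED_eq_lev] at hc
    omega
  · rintro c ⟨f, hf, rfl⟩
    exact ED_le_alignCost hf

end Vale.Agent.P315
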