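import Vale.Agent.P315.Model

/-! Functional form of the semantics. -/

set_option autoImplicit false

namespace Vale.Agent.P315

/-- Value of an expression. -/
def Expr.eval (s : State) : Expr → ℕ
  | .lit c => c
  | .reg i => s.reg i
  | .get j e => s.arr j (e.eval s)
  | .op o e e' => o.eval (e.eval s) (e'.eval s)

/-- Number of steps for the evaluation of an expression. -/
def Expr.cost : Expr → ℕ
  | .lit _ => 1
  | .reg _ => 1
  | .get _ e => e.cost + 1
  | .op _ e e' => e.cost + e'.cost + 1

/-- Largest number occurring in the evaluation of an expression. -/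
def Expr.top (s : State) : Expr → ℕ
  | .lit c => c
  | .reg i => s.reg i
  | .get j e => max (e.top s) (s.arr j (e.eval s))
  | .op o e e' => max (max (e.top s) (e'.top s)) (o.eval (e.eval s) (e'.eval s))

/-- The state after `t` rounds of a loop whose round number `t` acts as `f t`. -/
def State.rounds (f : ℕ → State → State) (s : State) : ℕ → State
  | 0 => s
  | t + 1 => f t (State.rounds f s t)

/-- The state after running a program; `ρ 0, ρ 1, …` are the random words. -/
def Prog.run (ρ : ℕ → ℕ) : Prog → State → State
  | .set i e, s => s.setReg i (e.eval s)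
  | .put j e e', s => s.setArr j (e.eval s) (e'.eval s)
  | .rand i, s => { s.setReg i (ρ s.coins) with coins := s.coins + 1 }
  | .seq p q, s => q.run ρ (p.run ρ s)
  | .ite e p q, s => if e.eval s = 0 then q.run ρ s else p.run ρ s
  | .loop i e p, s => s.rounds (fun t s' => p.run ρ (s'.setReg i t)) (e.eval s)

/-- The number of steps of a program. -/
def Prog.time (ρ : ℕ → ℕ) : Prog → State → ℕ
  | .set _ e, _ => e.cost + 1
  | .put _ e e', _ => e.cost + e'.cost + 1
  | .rand _, _ => 1
  | .seq p q, s => p.time ρ s + q.time ρ (p.run ρ s)
  | .ite e p q, s => e.cost + 1 + if e.eval s = 0 then q.time ρ s else p.time ρ s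
  | .loop i e p, s => e.cost + 1 + ∑ t ∈ Finset.range (e.eval s),
      (p.time ρ ((s.rounds (fun t s' => p.run ρ (s'.setReg i t)) t).setReg i t) + 2)

/-- The largest number occurring in the run of a program. -/
def Prog.top (ρ : ℕ → ℕ) : Prog → State → ℕ
  | .set _ e, s => e.top s
  | .put _ e e', s => max (e.top s) (e'.top s)
  | .rand _, s => ρ s.coins
  | .seq p q, s => max (p.top ρ s) (q.top ρ (p.run ρ s))
  | .ite e p q, s => max (e.top s) (if e.eval s = 0 then q.top ρ s else p.top ρ s)
  | .loop i e p, s => max (e.top s) ((Finset.range (e.eval s)).sup fun t =>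
      p.top ρ ((s.rounds (fun t s' => p.run ρ (s'.setReg i t)) t).setReg i t))

/-- The output is the final content of register `2`. -/
def Prog.output (P : Prog) (ρ : ℕ → ℕ) (x y : List ℕ) : ℕ := (P.run ρ (State.init x y)).reg 2

theorem eval_of_top {N : ℕ} {s : State} (e : Expr) (h : e.top s < N) :
    Eval N s e (e.eval s) e.cost := by
  induction e with
  | lit c => exact Eval.lit c h
  | reg i => exact Eval.reg i h
  | get j e ih =>
    simp only [Expr.top, max_lt_iff] at h
    exact Eval.get j e _ _ (ih h.1) h.2
  | op o e e' ih ih' =>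
    simp only [Expr.top, max_lt_iff] at h
    exact Eval.op o e e' _ _ _ _ (ih h.1.1) (ih' h.1.2) h.2

theorem exec_of_top {N : ℕ} {ρ : ℕ → ℕ} (hN : 0 < N) (p : Prog) : ∀ s, p.top ρ s < N →
    Exec N ρ p s (p.time ρ s) (p.run ρ s) := by
  induction p with
  | set i e => intro s h; exact Exec.set i e s _ _ (eval_of_top e h)
  | put j e e' =>
    intro s h
    simp only [Prog.top, max_lt_iff] at h
    exact Exec.put j e e' s _ _ _ _ (eval_of_top e h.1) (eval_of_top e' h.2)
  | rand i => intro s h; exact Exec.rand i s h
  | seq p q ihp ihq =>
    intro s h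
    simp only [Prog.top, max_lt_iff] at h
    exact Exec.seq p q s _ _ _ _ (ihp s h.1) (ihq _ h.2)
  | ite e p q ihp ihq =>
    intro s h
    simp only [Prog.top, max_lt_iff] at h
    have he := eval_of_top e h.1
    by_cases h0 : e.eval s = 0
    · simp only [Prog.run, Prog.time, h0, if_true] at h ⊢
      rw [h0] at he
      exact Exec.iteFalse e p q s _ _ _ he (ihq s h.2)
    · simp only [Prog.run, Prog.time, h0, if_false] at h ⊢
      exact Exec.iteTrue e p q s _ _ _ _ he h0 (ihp s h.2)
  | loop i e p ih =>
    intro s h
    simp only [Prog.top, max_lt_iff] at h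
    have he := eval_of_top e h.1
    have hr := (Finset.sup_lt_iff (by simpa using hN)).mp h.2
    exact Exec.loop i e p (e.eval s) e.cost
      (fun k => s.rounds (fun t s' => p.run ρ (s'.setReg i t)) k)
      (fun k => p.time ρ ((s.rounds (fun t s' => p.run ρ (s'.setReg i t)) k).setReg i k))
      he (fun k hk => ih _ (hr k (Finset.mem_range.mpr hk)))

/-- The number of random words is at most the number of steps. -/
theorem Prog.coins_le (ρ : ℕ → ℕ) (p : Prog) : ∀ s, (p.run ρ s).coins ≤ s.coins + p.time ρ s := by
  induction p with
  | set i e => intro s; exact Nat.le_add_right _ _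
  | put j e e' => intro s; exact Nat.le_add_right _ _
  | rand i => intro s; exact le_rfl
  | seq p q ihp ihq =>
    intro s
    have h1 := ihp s
    have h2 := ihq (p.run ρ s)
    simp only [Prog.run, Prog.time]
    omega
  | ite e p q ihp ihq =>
    intro s
    have h1 := ihp s
    have h2 := ihq s
    simp only [Prog.run, Prog.time]
    split_ifs <;> omega
  | loop i e p ih =>
    intro s
    have key : ∀ m, (s.rounds (fun t s' => p.run ρ (s'.setReg i t)) m).coins ≤ s.coins +
        ∑ t ∈ Finset.range m,
          (p.time ρ ((s.rounds (fun t s' => p.run ρ (s'.setReg i t)) t).setReg i t) + 2) := by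
      intro m
      induction m with
      | zero => simp [State.rounds]
      | succ m ihm =>
        rw [Finset.sum_range_succ]
        simp only [State.rounds]
        have h1 := ih ((s.rounds (fun t s' => p.run ρ (s'.setReg i t)) m).setReg i m)
        have h2 : ((s.rounds (fun t s' => p.run ρ (s'.setReg i t)) m).setReg i m).coins =
          (s.rounds (fun t s' => p.run ρ (s'.setReg i t)) m).coins := rfl
        omega
    have := key (e.eval s)
    simp only [Prog.run, Prog.time]
    omega

end Vale.Agent.P315
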