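import Vale.Agent.P315.Lines

/-! The sampled costs of all lines at all scales. -/

set_option autoImplicit false

namespace Vale.Agent.P315

theorem pair_inj {a b c d n : ℕ} (h : a * n + b = c * n + d) (hb : b < n) (hd : d < n) :
    a = c ∧ b = d := by
  have h1 := mul_add_div_mod a n b hb
  have h2 := mul_add_div_mod c n d hd
  rw [h] at h1
  exact ⟨h1.1.symm.trans h2.1, h1.2.symm.trans h2.2⟩

theorem Par.idx_inj (P : Par) {k u a h k' u' a' h' : ℕ} (hu : u ≤ P.B 0) (hu' : u' ≤ P.B 0)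
    (ha : a ≤ P.G 0) (ha' : a' ≤ P.G 0) (hh : h ≤ P.hm) (hh' : h' ≤ P.hm)
    (he : P.idx k u a h = P.idx k' u' a' h') : k = k' ∧ u = u' ∧ a = a' ∧ h = h' := by
  unfold Par.idx at he
  obtain ⟨h1, h2⟩ := pair_inj he (by omega) (by omega)
  obtain ⟨h3, h4⟩ := pair_inj h1 (by omega) (by omega)
  obtain ⟨h5, h6⟩ := pair_inj h3 (by omega) (by omega)
  exact ⟨h5, h6, h4, h2⟩

/-- Address expression of the line with scale, block, column and height in the registers
`9, 25, 30, 29`. -/
def idxE : Expr := eadd (emul (eadd (emul (eadd (emul (.reg 9) (eadd (.reg 41) (.lit 1)))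
  (.reg 25)) (eadd (.reg 40) (.lit 1))) (.reg 30)) (eadd (.reg 42) (.lit 1))) (.reg 29)

/-- The sampled cost of one line. -/
def lineCell : Prog :=
  .seq (.set 32 (.lit 0))
  (.seq (.loop 26 (.reg 7)
    (.seq (.set 27 (.get 3 (.reg 26)))
    (.seq (.set 33 (ediv (emul (.reg 29) (.reg 27)) (.reg 6)))
      (.set 32 (eadd (.reg 32) (.get 4 (eadd (emul (eadd (emul (.reg 26)
        (eadd (.reg 23) (.lit 1))) (eadd (.reg 30) (.reg 33))) (eadd (.reg 8) (.lit 1)))
        (esub (ediv (emul (.reg 29) (eadd (.reg 27) (.lit 1))) (.reg 6)) (.reg 33)))))))))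
    (.put 5 idxE (ediv (emul (.reg 32) (.reg 6)) (.reg 7))))

theorem Par.tv_le (P : Par) (k u q g w : ℕ) (hw : w ≤ P.H) :
    P.tv k u q g w ≤ P.l k + P.H * P.r k := by
  have h1 := dist_le P.X P.Y (u * P.W k + q * P.l k) (P.l k) (g * P.r k) (w * P.r k)
  have h2 : w * P.r k ≤ P.H * P.r k := Nat.mul_le_mul_right _ hw
  unfold Par.tv; omega

theorem Par.window_le (P : Par) (hQ : 0 < P.Q) {h q : ℕ} (hh : h ≤ P.hm) :
    h * (q + 1) / P.Q - h * q / P.Q ≤ P.H := by
  have h1 : h * (q + 1) ≤ h * q + P.M ^ 3 * P.Q := by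
    unfold Par.hm at hh
    nlinarith
  have h2 : h * (q + 1) / P.Q ≤ h * q / P.Q + P.M ^ 3 := by
    calc h * (q + 1) / P.Q ≤ (h * q + P.M ^ 3 * P.Q) / P.Q := Nat.div_le_div_right h1
      _ = h * q / P.Q + P.M ^ 3 := Nat.add_mul_div_right _ _ hQ
  unfold Par.H; omega

theorem lineCell_spec {E : Env} {P : Par} {k u a h : ℕ} {s : State} (hF : Fit P E)
    (hS : Stage P k s) (h25 : s.reg 25 = u) (h30 : s.reg 30 = a) (h29 : s.reg 29 = h)
    (hah : a + h ≤ P.G k) (hh : h ≤ P.hm) (hmR : P.m ≤ E.R) (hQR : P.Q ≤ E.R)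
    (hR1 : P.m * (P.l k + P.H * P.r k) ≤ E.R) (hR2 : (P.l k + P.H * P.r k) * P.Q ≤ E.R)
    (htab : ∀ i < P.m, ∀ g ≤ P.G k, ∀ w ≤ P.H,
        s.arr 4 ((i * (P.G k + 1) + g) * (P.H + 1) + w) = P.tv k u (P.smp i) g w) :
    Spec E s lineCell (40 + P.m * 38)
      (fun s' => ∀ p, s'.arr 5 p = if p = P.idx k u a h then P.lv k u a h else s.arr 5 p) := by
  have hQ : 0 < P.Q := Nat.pow_pos (by have := hF.hM; omega)
  have hm0 : 0 < P.m := Nat.pow_pos (by have := hF.hM; omega)
  have hlyR : P.ly ≤ E.R := by have := hF.hly; have := hF.hR; omega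
  have hG1 : P.G k ≤ P.ly := Nat.div_le_self _ _
  have hq : ∀ i, i < P.m → h * P.smp i / P.Q ≤ h := by
    intro i hi
    have := hF.hsmp i hi
    calc h * P.smp i / P.Q ≤ h * P.Q / P.Q :=
          Nat.div_le_div_right (Nat.mul_le_mul_left _ (by omega))
      _ = h := Nat.mul_div_cancel _ hQ
  have hsum : ∀ t, t ≤ P.m → ∑ i ∈ Finset.range t, P.tv k u (P.smp i) (a + h * P.smp i / P.Q)
      (h * (P.smp i + 1) / P.Q - h * P.smp i / P.Q) ≤ P.m * (P.l k + P.H * P.r k) := by
    intro t ht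
    calc _ ≤ ∑ i ∈ Finset.range t, (P.l k + P.H * P.r k) :=
          Finset.sum_le_sum (fun i hi => P.tv_le _ _ _ _ _ (P.window_le hQ hh))
      _ = t * (P.l k + P.H * P.r k) := by simp
      _ ≤ _ := Nat.mul_le_mul_right _ ht
  unfold lineCell
  refine Spec.set_seq 0 rfl (by decide) (by simp) (fun _ => by omega) ?_
  refine Spec.seq 2 (P.m * 38) 36 0
    (fun s' => s'.reg 32 = ∑ i ∈ Finset.range P.m, P.tv k u (P.smp i) (a + h * P.smp i / P.Q)
      (h * (P.smp i + 1) / P.Q - h * P.smp i / P.Q)) (by decide) (by omega) ?_ ?_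
  · refine Spec.loop P.m (36 + 0) (fun t s' => s'.reg 32 = ∑ i ∈ Finset.range t, P.tv k u
      (P.smp i) (a + h * P.smp i / P.Q) (h * (P.smp i + 1) / P.Q - h * P.smp i / P.Q))
      rfl (by decide) le_rfl ?_ (fun _ => hmR) ?_ ?_
    · simp [hS.r7]
    · intro _; simp
    · intro i hi s' hb hf hI
      have hS' := ((hS.setReg 32 0 (by decide)).frame hf (by decide) (by decide))
      have e25 : s'.reg 25 = u := by rw [hf.reg 25 (by decide)]; simpa using h25
      have e30 : s'.reg 30 = a := by rw [hf.reg 30 (by decide)]; simpa using h30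
      have e29 : s'.reg 29 = h := by rw [hf.reg 29 (by decide)]; simpa using h29
      have e4 : s'.arr 4 = s.arr 4 := by rw [hf.arr 4 (by decide)]; rfl
      have hqi := hq i hi
      refine Spec.set_seq (P.smp i) rfl (by decide) ?_ (fun _ => ?_) ?_
      · simp [hS'.smp i hi]
      · have := hF.hsmp i hi; omega
      refine Spec.set_seq (h * P.smp i / P.Q) rfl (by decide) ?_ (fun _ => by omega) ?_
      · simp [e29, hS'.r6]
      refine Spec.set (∑ i ∈ Finset.range (i + 1), P.tv k u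
        (P.smp i) (a + h * P.smp i / P.Q) (h * (P.smp i + 1) / P.Q - h * P.smp i / P.Q))
        rfl (by decide) ?_ (fun _ => (hsum (i + 1) (by omega)).trans hR1) ?_
      · simp [hS'.r23, hS'.r8, hS'.r6, e30, e29, e4, hI]
        rw [Finset.sum_range_succ, htab i hi _ (by omega) _ (P.window_le hQ hh)]
      · intro _; simp
  · intro s1 hf1 h32
    have hS' := ((hS.setReg 32 0 (by decide)).frame hf1 (by decide) (by decide))
    have e25 : s1.reg 25 = u := by rw [hf1.reg 25 (by decide)]; simpa using h25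
    have e30 : s1.reg 30 = a := by rw [hf1.reg 30 (by decide)]; simpa using h30
    have e29 : s1.reg 29 = h := by rw [hf1.reg 29 (by decide)]; simpa using h29
    have e5 : s1.arr 5 = s.arr 5 := by rw [hf1.arr 5 (by decide)]; rfl
    refine Spec.put (P.idx k u a h) (P.lv k u a h) (by norm_num) rfl rfl (by decide) ?_ ?_
      (fun _ => ?_) ?_
    · simp [idxE, Par.idx, hS'.r9, hS'.r41, hS'.r40, hS'.r42, e25, e30, e29]
    · simp [h32, hS'.r6, hS'.r7, Par.lv]
    · unfold Par.lv
      have h1 := hsum P.m le_rfl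
      calc _ ≤ P.m * (P.l k + P.H * P.r k) * P.Q / P.m :=
            Nat.div_le_div_right (Nat.mul_le_mul_right _ h1)
        _ = (P.l k + P.H * P.r k) * P.Q := by
            rw [Nat.mul_assoc, Nat.mul_div_cancel_left _ hm0]
        _ ≤ _ := hR2
    · intro _ p
      simp [e5]

/-- The sampled costs of all lines of one block. -/
def linesProg : Prog :=
  .loop 30 (eadd (.reg 23) (.lit 1))
    (.loop 29 (eadd (emin (esub (.reg 23) (.reg 30)) (.reg 42)) (.lit 1)) lineCell)

/-- Nothing is changed outside of the scale `k` and block `u`. -/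
def KeepU (P : Par) (k u : ℕ) (A A' : ℕ → ℕ) : Prop :=
  ∀ k' u' a' h', u' ≤ P.B 0 → a' ≤ P.G 0 → h' ≤ P.hm → ¬ (k' = k ∧ u' = u) →
    A' (P.idx k' u' a' h') = A (P.idx k' u' a' h')

theorem linesProg_spec {E : Env} {P : Par} {k u : ℕ} {s : State} (hF : Fit P E)
    (hS : Stage P k s) (h25 : s.reg 25 = u) (hu : u ≤ P.B 0) (hG : P.G k ≤ P.G 0)
    (hmR : P.m ≤ E.R) (hQR : P.Q ≤ E.R) (hhmR : P.hm + 1 ≤ E.R)
    (hR1 : P.m * (P.l k + P.H * P.r k) ≤ E.R) (hR2 : (P.l k + P.H * P.r k) * P.Q ≤ E.R)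
    (htab : ∀ i < P.m, ∀ g ≤ P.G k, ∀ w ≤ P.H,
        s.arr 4 ((i * (P.G k + 1) + g) * (P.H + 1) + w) = P.tv k u (P.smp i) g w) :
    Spec E s linesProg (4 + (P.G k + 1) * (14 + (P.hm + 1) * (42 + P.m * 38)))
      (fun s' => (∀ a ≤ P.G k, ∀ h ≤ P.hm, a + h ≤ P.G k →
        s'.arr 5 (P.idx k u a h) = P.lv k u a h) ∧ KeepU P k u (s.arr 5) (s'.arr 5)) := by
  have hlyR : P.ly + 1 ≤ E.R := by have := hF.hly; have := hF.hR; omega
  have hG1 : P.G k ≤ P.ly := Nat.div_le_self _ _
  unfold linesProg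
  refine Spec.mono (Spec.loop (P.G k + 1) (12 + (P.hm + 1) * (42 + P.m * 38))
    (fun a s' => (∀ a' < a, ∀ h ≤ P.hm, a' + h ≤ P.G k →
        s'.arr 5 (P.idx k u a' h) = P.lv k u a' h) ∧ KeepU P k u (s.arr 5) (s'.arr 5))
    rfl (by decide) (le_of_eq (by ring)) ?_ (fun _ => by omega) ?_ ?_) le_rfl ?_
  · simp [hS.r23]
  · intro _
    exact ⟨fun a' h => by omega, fun _ _ _ _ _ _ _ _ => rfl⟩
  · intro a ha s' hb hf hI
    have hS' := (hS.frame hf (by decide) (by decide)).setReg 30 a (by decide)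
    have e25 : s'.reg 25 = u := by rw [hf.reg 25 (by decide)]; exact h25
    have e4 : s'.arr 4 = s.arr 4 := hf.arr 4 (by decide)
    refine Spec.mono (Spec.loop (min (P.G k - a) P.hm + 1) (40 + P.m * 38)
      (fun h s'' => (∀ a' < a, ∀ h ≤ P.hm, a' + h ≤ P.G k →
        s''.arr 5 (P.idx k u a' h) = P.lv k u a' h) ∧ (∀ h' < h, a + h' ≤ P.G k → h' ≤ P.hm →
        s''.arr 5 (P.idx k u a h') = P.lv k u a h') ∧ KeepU P k u (s.arr 5) (s''.arr 5))
      rfl (by decide) ?_ ?_ (fun _ => by omega) ?_ ?_) le_rfl ?_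
    · rw [show 40 + P.m * 38 + 2 = 42 + P.m * 38 by ring]
      exact Nat.mul_le_mul_right _ (by omega)
    · simp [hS.r23, hf.reg 23 (by decide), hf.reg 42 (by decide), hS.r42]
    · intro _
      exact ⟨by simpa using hI.1, fun h' hh' => by omega, by simpa using hI.2⟩
    · intro h hh s'' hb'' hf'' hI''
      have hS'' := (hS'.frame hf'' (by decide) (by decide)).setReg 29 h (by decide)
      have e25' : s''.reg 25 = u := by rw [hf''.reg 25 (by decide)]; simpa using e25
      have e30' : s''.reg 30 = a := by rw [hf''.reg 30 (by decide)]; simp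
      have e4' : s''.arr 4 = s.arr 4 := by rw [hf''.arr 4 (by decide)]; exact e4
      refine Spec.mono (lineCell_spec (u := u) (a := a) (h := h) hF hS'' (by simpa using e25')
        (by simpa using e30') (by simp) (by omega) (by omega) hmR hQR hR1 hR2 ?_) le_rfl ?_
      · simpa [e4'] using htab
      · intro s3 h5
        simp only [State.setReg_arr] at h5
        obtain ⟨i1, i2, i3⟩ := hI''
        refine ⟨?_, ?_, ?_⟩
        · intro a' ha' h' hh' hah'
          rw [h5, if_neg]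
          · exact i1 a' ha' h' hh' hah'
          · intro he
            have := P.idx_inj hu hu (by omega) (by omega) hh' (by omega) he
            omega
        · intro h' hh' hah' hhm'
          rw [h5]
          split_ifs with he
          · have := P.idx_inj hu hu (by omega) (by omega) hhm' (by omega) he
            rw [this.2.2.2]
          · have : h' ≠ h := by rintro rfl; exact he rfl
            exact i2 h' (by omega) hah' hhm'
        · intro k' u' a' h' hu' ha' hh' hne
          rw [h5, if_neg]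
          · exact i3 k' u' a' h' hu' ha' hh' hne
          · intro he
            have := P.idx_inj hu' hu ha' (by omega) hh' (by omega) he
            exact hne ⟨this.1, this.2.1⟩
    · rintro s'' ⟨i1, i2, i3⟩
      refine ⟨?_, i3⟩
      intro a' ha' h hh hah
      rcases Nat.lt_or_ge a' a with h1 | h1
      · exact i1 a' h1 h hh hah
      · have : a' = a := by omega
        subst this
        exact i2 h (by omega) hah hh
  · rintro s' ⟨i1, i2⟩
    exact ⟨fun a ha h hh hah => i1 a (by omega) h hh hah, i2⟩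

/-- The sampled costs of all lines of one scale. -/
def stageProg : Prog :=
  .seq (.set 22 (emul (emul (.reg 5) (.reg 4)) (.reg 4)))
  (.seq (.set 21 (emul (.reg 22) (.reg 6)))
  (.seq (.set 23 (ediv (.reg 1) (.reg 5)))
  (.seq (.set 24 (ediv (.reg 0) (.reg 21)))
    (.loop 25 (.reg 24) (.seq tabProg linesProg)))))

/-- Time for one block at scale `k`. -/
def cBlock (P : Par) (k : ℕ) : ℕ :=
  P.m * (10 + (P.G k + 1) * (44 + cCell P k)) +
    (P.G k + 1) * (14 + (P.hm + 1) * (42 + P.m * 38))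

/-- The scale `k` is used. -/
def Par.Valid (P : Par) (k : ℕ) : Prop := P.r k * P.M ^ 16 ≤ P.n

theorem Par.r_mono (P : Par) (hM : 2 ≤ P.M) (k : ℕ) : P.r 0 ≤ P.r k :=
  Nat.pow_le_pow_right (by omega) (by omega)

theorem Par.G_le (P : Par) (hM : 2 ≤ P.M) (k : ℕ) : P.G k ≤ P.G 0 :=
  Nat.div_le_div_left (P.r_mono hM k) (Nat.pow_pos (by omega))

theorem Par.W_mono (P : Par) (hM : 2 ≤ P.M) (k : ℕ) : P.W 0 ≤ P.W k := by
  unfold Par.W Par.l
  have := P.r_mono hM k
  gcongr

theorem Par.W_pos (P : Par) (hM : 2 ≤ P.M) (k : ℕ) : 0 < P.W k := by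
  unfold Par.W Par.l Par.r Par.Q; positivity

theorem Par.B_le (P : Par) (hM : 2 ≤ P.M) (k : ℕ) : P.B k ≤ P.B 0 :=
  Nat.div_le_div_left (P.W_mono hM k) (P.W_pos hM 0)

/-- Consequences of validity. -/
theorem Par.bounds (P : Par) (hM : 2 ≤ P.M) {k : ℕ} (hv : P.Valid k) :
    P.m * (P.l k + P.H * P.r k) ≤ P.n ∧ (P.l k + P.H * P.r k) * P.Q ≤ P.n ∧
    P.l k + P.H * P.r k ≤ P.n ∧ P.m ≤ P.n ∧ P.Q ≤ P.n ∧ P.hm ≤ P.n ∧ P.W k ≤ P.n := by
  have hv' : P.r k * P.M ^ 16 ≤ P.n := hv
  have hr : 1 ≤ P.r k := Nat.one_le_pow _ _ (by omega)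
  have hM3 : 1 ≤ P.M ^ 3 := Nat.one_le_pow _ _ (by omega)
  have h4 : P.l k + P.H * P.r k ≤ P.M ^ 4 * P.r k := by
    unfold Par.l Par.H
    have h1 : P.M * P.M + P.M ^ 3 + 1 ≤ P.M ^ 4 := by
      have h2 : P.M ^ 4 = P.M * P.M * (P.M * P.M) := by ring
      have h3 : P.M ^ 3 = P.M * P.M * P.M := by ring
      have h5 : 4 ≤ P.M * P.M := by nlinarith
      have h6 : P.M * P.M * P.M * 2 ≤ P.M * P.M * (P.M * P.M) := by nlinarith
      have h7 : P.M * P.M * 2 ≤ P.M * P.M * P.M := by nlinarith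
      omega
    calc P.r k * P.M * P.M + (P.M ^ 3 + 1) * P.r k
        = (P.M * P.M + P.M ^ 3 + 1) * P.r k := by ring
      _ ≤ _ := Nat.mul_le_mul_right _ h1
  have hp : ∀ j, j ≤ 16 → P.M ^ j ≤ P.M ^ 16 := fun j hj => Nat.pow_le_pow_right (by omega) hj
  have h5 : ∀ j, j ≤ 12 → P.M ^ j * (P.l k + P.H * P.r k) ≤ P.n := by
    intro j hj
    calc P.M ^ j * (P.l k + P.H * P.r k) ≤ P.M ^ j * (P.M ^ 4 * P.r k) :=
          Nat.mul_le_mul_left _ h4
      _ = P.r k * P.M ^ (j + 4) := by ring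
      _ ≤ P.r k * P.M ^ 16 := Nat.mul_le_mul_left _ (hp _ (by omega))
      _ ≤ _ := hv'
  have h6 : P.M ^ 16 ≤ P.n := by nlinarith
  refine ⟨h5 8 (by omega), ?_, ?_, (hp 8 (by omega)).trans h6, (hp 12 (by omega)).trans h6,
    ?_, ?_⟩
  · rw [Nat.mul_comm]; exact h5 12 (by omega)
  · simpa using h5 0 (by omega)
  · unfold Par.hm Par.Q
    rw [← pow_add]; exact (hp 15 (by omega)).trans h6
  · have h7 := h5 12 (by omega)
    have h8 : P.W k ≤ P.M ^ 12 * (P.l k + P.H * P.r k) := by
      unfold Par.W Par.Q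
      rw [Nat.mul_comm]
      exact Nat.mul_le_mul_left _ (Nat.le_add_right _ _)
    omega

theorem stageProg_spec {E : Env} {P : Par} {k : ℕ} {s : State} (hF : Fit P E)
    (hS : Glob P s) (h9 : s.reg 9 = k) (h5 : s.reg 5 = P.r k) (hv : P.Valid k) :
    Spec E s stageProg (40 + P.B k * (20 + cBlock P k))
      (fun s' => (∀ u < P.B k, ∀ a ≤ P.G k, ∀ h ≤ P.hm, a + h ≤ P.G k →
        s'.arr 5 (P.idx k u a h) = P.lv k u a h) ∧
        (∀ k' u' a' h', k' ≠ k → u' ≤ P.B 0 → a' ≤ P.G 0 → h' ≤ P.hm →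
          s'.arr 5 (P.idx k' u' a' h') = s.arr 5 (P.idx k' u' a' h'))) := by
  have hM := hF.hM
  obtain ⟨b1, b2, b3, b4, b5, b6, b7⟩ := P.bounds hM hv
  have hlx := hF.hlx
  have hly := hF.hly
  have hR := hF.hR
  have hl : P.l k ≤ P.n := by omega
  have hB1 : P.B k ≤ P.lx := Nat.div_le_self _ _
  have hG1 : P.G k ≤ P.ly := Nat.div_le_self _ _
  unfold stageProg
  refine Spec.set_seq (P.l k) rfl (by decide) ?_ (fun _ => by omega) ?_
  · simp [h5, hS.r4, Par.l]
  refine Spec.set_seq (P.W k) rfl (by decide) ?_ (fun _ => by omega) ?_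
  · simp [hS.r6, Par.W]
  refine Spec.set_seq (P.G k) rfl (by decide) ?_ (fun _ => by omega) ?_
  · simp [hS.r1, h5, Par.G]
  refine Spec.set_seq (P.B k) rfl (by decide) ?_ (fun _ => by omega) ?_
  · simp [hS.r0, Par.B]
  have hS1 : Stage P k ((((s.setReg 22 (P.l k)).setReg 21 (P.W k)).setReg 23 (P.G k)).setReg 24
      (P.B k)) :=
    { toGlob := (((hS.setReg 22 _ (by decide)).setReg 21 _ (by decide)).setReg 23 _
        (by decide)).setReg 24 _ (by decide)
      r9 := by simpa using h9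
      r5 := by simpa using h5
      r21 := by simp
      r22 := by simp
      r23 := by simp
      r24 := by simp }
  refine Spec.mono (Spec.loop (P.B k) (6 + cBlock P k)
    (fun u s' => (∀ u' < u, ∀ a ≤ P.G k, ∀ h ≤ P.hm, a + h ≤ P.G k →
        s'.arr 5 (P.idx k u' a h) = P.lv k u' a h) ∧
        (∀ k' u' a' h', k' ≠ k → u' ≤ P.B 0 → a' ≤ P.G 0 → h' ≤ P.hm →
          s'.arr 5 (P.idx k' u' a' h') = s.arr 5 (P.idx k' u' a' h')))
    rfl (by decide) (Nat.mul_le_mul_left _ (by omega)) ?_ (fun _ => by omega) ?_ ?_) le_rfl ?_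
  · simp
  · intro _
    exact ⟨fun u' hu' => by omega, fun k' u' a' h' _ _ _ _ => rfl⟩
  · intro u hu s' hb hf hI
    have hS' := (hS1.frame hf (by decide) (by decide)).setReg 25 u (by decide)
    have hBk := P.B_le hM k
    refine Spec.seq 2 (P.m * (10 + (P.G k + 1) * (44 + cCell P k))) 4
      ((P.G k + 1) * (14 + (P.hm + 1) * (42 + P.m * 38))) _ (by norm_num) le_rfl
      (tabProg_spec (u := u) hF hS' (by simp) (by omega) hu (by omega) (by omega)) ?_
    intro s2 hf2 htab
    have hS2 := hS'.frame hf2 (by decide) (by decide)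
    have e25 : s2.reg 25 = u := by rw [hf2.reg 25 (by decide)]; simp
    have e5 : s2.arr 5 = s'.arr 5 := by rw [hf2.arr 5 (by decide)]; simp
    refine Spec.mono (linesProg_spec hF hS2 e25 (by omega) (P.G_le hM k) (by omega) (by omega)
      (by omega) (by omega) (by omega) htab) le_rfl ?_
    rintro s3 ⟨i1, i2⟩
    rw [e5] at i2
    refine ⟨?_, ?_⟩
    · intro u' hu' a ha h hh hah
      rcases Nat.lt_or_ge u' u with h1 | h1
      · rw [i2 k u' a h (by omega) (ha.trans (P.G_le hM k)) hh (by omega)]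
        exact hI.1 u' h1 a ha h hh hah
      · have : u' = u := by omega
        subst this
        exact i1 a ha h hh hah
    · intro k' u' a' h' hk hu' ha' hh'
      rw [i2 k' u' a' h' hu' ha' hh' (by omega)]
      exact hI.2 k' u' a' h' hk hu' ha' hh'
  · intro s' h; exact h

/-- All lines at all scales. -/
def phase1 : Prog :=
  .seq (.set 5 (.reg 43))
    (.loop 9 (.reg 46)
      (.seq (.ite (elt (emul (.reg 5) (.reg 45)) (eadd (.reg 3) (.lit 1))) stageProg
        (.set 34 (.lit 0)))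
        (.set 5 (emul (.reg 5) (.reg 4)))))

theorem phase1_spec {E : Env} {P : Par} {s : State} (T : ℕ) (hF : Fit P E) (hS : Glob P s)
    (hT : ∀ k, P.Valid k → P.B k * (20 + cBlock P k) ≤ T) :
    Spec E s phase1 (4 + P.K * (60 + T))
      (fun s' => ∀ k < P.K, P.Valid k → ∀ u < P.B k, ∀ a ≤ P.G k, ∀ h ≤ P.hm, a + h ≤ P.G k →
        s'.arr 5 (P.idx k u a h) = P.lv k u a h) := by
  have hM := hF.hM
  have hRM := hF.hRM
  have hr : ∀ k, k ≤ P.K → P.r k ≤ E.R := fun k hk =>
    (Nat.pow_le_pow_right (by omega) (by omega) : P.M ^ (5 + k) ≤ P.M ^ (P.K + 6)).trans hRM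
  unfold phase1
  refine Spec.set_seq (P.r 0) rfl (by decide) ?_ (fun _ => hr 0 (by omega)) ?_
  · simp [hS.r43]
  refine Spec.mono (Spec.loop P.K (58 + T) (fun k s' => s'.reg 5 = P.r k ∧
    ∀ k' < k, P.Valid k' → ∀ u < P.B k', ∀ a ≤ P.G k', ∀ h ≤ P.hm, a + h ≤ P.G k' →
        s'.arr 5 (P.idx k' u a h) = P.lv k' u a h)
    rfl (by decide) (Nat.mul_le_mul_left _ (by omega)) ?_ ?_ ?_ ?_) le_rfl ?_
  · simp [hS.r46]
  · intro hb
    have := hb.reg 46
    simpa [hS.r46] using this
  · intro _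
    exact ⟨by simp, fun k' hk' => by omega⟩
  · intro k hk s' hb hf hI
    have hS' := ((hS.setReg 5 _ (by decide)).frame hf (by decide) (by decide)).setReg 9 k
    have hS' : Glob P (s'.setReg 9 k) :=
      ((hS.setReg 5 _ (by decide)).frame hf (by decide) (by decide)).setReg 9 k (by decide)
    have e5 : (s'.setReg 9 k).reg 5 = P.r k := by simpa using hI.1
    refine Spec.seq 54 T 4 0 (fun s'' => s''.reg 5 = P.r k ∧ s''.reg 4 = P.M ∧
      ∀ k' < k + 1, P.Valid k' → ∀ u < P.B k', ∀ a ≤ P.G k', ∀ h ≤ P.hm, a + h ≤ P.G k' →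
        s''.arr 5 (P.idx k' u a h) = P.lv k' u a h) (by norm_num) (by omega) ?_ ?_
    · refine Spec.ite rfl (by decide) ?_ ?_
      · intro h0
        have hnv : ¬ P.Valid k := by
          intro hv
          have hv' : P.r k * P.M ^ 16 ≤ P.n := hv
          simp [hI.1] at h0
          have := hS'.r45
          have h3 := hS'.r3
          simp at this h3
          rw [this, h3] at h0
          omega
        refine Spec.set 0 rfl (by decide) (by simp) (fun _ => by omega) ?_
        intro _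
        refine ⟨by simpa using e5, by simpa using hS'.r4, ?_⟩
        intro k' hk' hv'
        have : k' ≠ k := by rintro rfl; exact hnv hv'
        simpa using hI.2 k' (by omega) hv'
      · intro h1
        have hv : P.Valid k := by
          by_contra hnv
          have hv' : ¬ P.r k * P.M ^ 16 ≤ P.n := hnv
          have := hS'.r45
          have h3 := hS'.r3
          simp at this h3
          apply h1
          simp [hI.1, this, h3]
          omega
        refine Spec.mono (stageProg_spec hF hS' (by simp) e5 hv).withFrame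
          (Nat.add_le_add (by decide) (hT k hv)) ?_
        rintro s2 ⟨hf2, i1, i2⟩
        refine ⟨by rw [hf2.reg 5 (by decide)]; exact e5,
          by rw [hf2.reg 4 (by decide)]; exact hS'.r4, ?_⟩
        intro k' hk' hv' u hu a ha h hh hah
        rcases Nat.lt_or_ge k' k with h2 | h2
        · rw [i2 k' u a h (by omega) ((Nat.le_of_lt hu).trans (P.B_le hM k'))
            (ha.trans (P.G_le hM k')) hh]
          simpa using hI.2 k' h2 hv' u hu a ha h hh hah
        · have : k' = k := by omega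
          subst this
          exact i1 u hu a ha h hh hah
    · rintro s2 hf2 ⟨g5, g4, h⟩
      refine Spec.set (P.r (k + 1)) rfl (by decide) ?_ (fun _ => hr _ (by omega)) ?_
      · simp [g5, g4, Par.r]; ring
      · intro _
        exact ⟨by simp, by simpa using h⟩
  · rintro s' ⟨_, h⟩
    exact h

end Vale.Agent.P315
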